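import Vale.Agent.Lib.P143.Defs

/-!
# One-variable calculus of the observation scheme: the functions `FF`, `QQ`, `gg`
-/

open MeasureTheory Filter Topology
open scoped ENNReal unitInterval Classical

namespace Vale.Agent.Fusf

noncomputable section

theorem abs_mul_le_half {a m : ℝ} (ha : 0 ≤ a) (ha' : a ≤ 1 / 2) (hm : m ∈ Set.Icc (-1 : ℝ) 1) :
    |a * m| ≤ 1 / 2 := by
  rw [abs_mul, abs_of_nonneg ha]
  have h1 : |m| ≤ 1 := abs_le.2 ⟨hm.1, hm.2⟩
  calc a * |m| ≤ 1 / 2 * 1 := mul_le_mul ha' h1 (abs_nonneg m) (by norm_num)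
    _ = 1 / 2 := by norm_num

/-- The discriminant is nonnegative. -/
theorem disc_nonneg {c u : ℝ} (hc : |c| ≤ 1 / 2) (hu : u ∈ Set.Icc (0 : ℝ) 1) :
    0 ≤ 1 / 4 + c * (u - 1 / 2 + c / 4) := by
  obtain ⟨h1, h2⟩ := abs_le.1 hc
  obtain ⟨h3, h4⟩ := hu
  nlinarith [mul_nonneg (by linarith : (0 : ℝ) ≤ 1 / 2 - c) h3,
    mul_nonneg (by linarith : (0 : ℝ) ≤ 1 / 2 + c) h3,
    mul_nonneg (by linarith : (0 : ℝ) ≤ 1 / 2 - c) (by linarith : (0 : ℝ) ≤ 1 - u),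
    mul_nonneg (by linarith : (0 : ℝ) ≤ 1 / 2 + c) (by linarith : (0 : ℝ) ≤ 1 - u), sq_nonneg c]

theorem QQ_mem {a u m : ℝ} (ha : 0 ≤ a) (ha' : a ≤ 1 / 2) (hu : u ∈ Set.Icc (0 : ℝ) 1)
    (hm : m ∈ Set.Icc (-1 : ℝ) 1) : QQ a u m ∈ Set.Icc (-1 : ℝ) 1 := by
  have hc := abs_mul_le_half ha ha' hm
  unfold QQ
  set c := a * m with hcdef
  have hD := disc_nonneg hc hu
  set w := u - 1 / 2 + c / 4 with hw
  set s := √(1 / 4 + c * w) with hs
  have hs0 : 0 ≤ s := Real.sqrt_nonneg _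
  have hs2 : s ^ 2 = 1 / 4 + c * w := Real.sq_sqrt hD
  obtain ⟨h3, h4⟩ := hu
  obtain ⟨h1, h2⟩ := abs_le.1 hc
  have hpos : 0 < 1 / 2 + s := by linarith
  constructor
  · rw [le_div_iff₀ hpos]
    -- need -(1/2+s) ≤ 2 w
    by_contra hlt
    push Not at hlt
    have h5 : 2 * w + 1 / 2 < - s := by linarith
    have h6 : s ^ 2 < (2 * w + 1 / 2) ^ 2 := by nlinarith
    have h7 : w < 0 := by linarith
    have h8 : w * (4 * w + 2 - c) ≤ 0 := by
      have : 0 ≤ 4 * w + 2 - c := by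
        rw [hw]
        linarith
      exact mul_nonpos_of_nonpos_of_nonneg h7.le this
    nlinarith
  · rw [div_le_iff₀ hpos]
    by_contra hlt
    push Not at hlt
    have h5 : s < 2 * w - 1 / 2 := by linarith
    have h6 : s ^ 2 < (2 * w - 1 / 2) ^ 2 := by nlinarith
    have h7 : 0 < w := by linarith
    have h8 : 0 ≤ w * (2 + c - 4 * w) := by
      have : 0 ≤ 2 + c - 4 * w := by
        rw [hw]
        linarith
      exact mul_nonneg h7.le this
    nlinarith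

theorem FF_QQ {a u m : ℝ} (ha : 0 ≤ a) (ha' : a ≤ 1 / 2) (hu : u ∈ Set.Icc (0 : ℝ) 1)
    (hm : m ∈ Set.Icc (-1 : ℝ) 1) : FF a (QQ a u m) m = u := by
  have hc := abs_mul_le_half ha ha' hm
  unfold QQ FF
  set c := a * m with hcdef
  have hD := disc_nonneg hc hu
  set w := u - 1 / 2 + c / 4 with hw
  set s := √(1 / 4 + c * w) with hs
  have hs0 : 0 ≤ s := Real.sqrt_nonneg _
  have hs2 : s ^ 2 = 1 / 4 + c * w := Real.sq_sqrt hD
  have hpos : 0 < 1 / 2 + s := by linarith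
  set y := 2 * w / (1 / 2 + s) with hy
  have hy1 : y * (1 / 2 + s) = 2 * w := by
    rw [hy]
    field_simp
  have hcy : c * y = 2 * (s - 1 / 2) := by
    have h1 : c * y * (1 / 2 + s) = 2 * (s - 1 / 2) * (1 / 2 + s) := by
      calc c * y * (1 / 2 + s) = c * (y * (1 / 2 + s)) := by ring
        _ = 2 * (c * w) := by rw [hy1]; ring
        _ = 2 * (s ^ 2 - 1 / 4) := by rw [hs2]; ring
        _ = _ := by ring
    exact mul_right_cancel₀ hpos.ne' h1
  have h2 : y / 2 + c * y * y / 4 = w := by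
    rw [hcy]
    nlinarith
  have hw' : u = w + 1 / 2 - c / 4 := by rw [hw]; ring
  rw [hw']
  nlinarith

theorem FF_mem {a y m : ℝ} (ha : 0 ≤ a) (ha' : a ≤ 1 / 2) (hy : y ∈ Set.Icc (-1 : ℝ) 1)
    (hm : m ∈ Set.Icc (-1 : ℝ) 1) : FF a y m ∈ Set.Icc (0 : ℝ) 1 := by
  have hc := abs_mul_le_half ha ha' hm
  unfold FF
  set c := a * m with hcdef
  obtain ⟨h1, h2⟩ := abs_le.1 hc
  obtain ⟨h3, h4⟩ := hy
  have e1 : (y + 1) / 2 + c * (y ^ 2 - 1) / 4 = (y + 1) / 2 * (1 + c * (y - 1) / 2) := by ring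
  have e2 : 1 - ((y + 1) / 2 + c * (y ^ 2 - 1) / 4) = (1 - y) / 2 * (1 + c * (y + 1) / 2) := by
    ring
  constructor
  · rw [e1]
    refine mul_nonneg (by linarith) ?_
    nlinarith [mul_nonneg (by linarith : (0 : ℝ) ≤ 1 / 2 - c) (by linarith : (0 : ℝ) ≤ 1 - y),
      mul_nonneg (by linarith : (0 : ℝ) ≤ 1 / 2 + c) (by linarith : (0 : ℝ) ≤ 1 - y)]
  · have : 0 ≤ 1 - ((y + 1) / 2 + c * (y ^ 2 - 1) / 4) := by
      rw [e2]
      refine mul_nonneg (by linarith) ?_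
      nlinarith [mul_nonneg (by linarith : (0 : ℝ) ≤ 1 / 2 - c) (by linarith : (0 : ℝ) ≤ 1 + y),
        mul_nonneg (by linarith : (0 : ℝ) ≤ 1 / 2 + c) (by linarith : (0 : ℝ) ≤ 1 + y)]
    linarith

theorem QQ_FF {a y m : ℝ} (ha : 0 ≤ a) (ha' : a ≤ 1 / 2) (hy : y ∈ Set.Icc (-1 : ℝ) 1)
    (hm : m ∈ Set.Icc (-1 : ℝ) 1) : QQ a (FF a y m) m = y := by
  have hc := abs_mul_le_half ha ha' hm
  have hcy : |a * m * y| ≤ 1 / 2 := by
    rw [abs_mul]
    calc |a * m| * |y| ≤ 1 / 2 * 1 :=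
          mul_le_mul hc (abs_le.2 ⟨hy.1, hy.2⟩) (abs_nonneg y) (by norm_num)
      _ = 1 / 2 := by norm_num
  unfold QQ FF
  set c := a * m with hcdef
  obtain ⟨h1, h2⟩ := abs_le.1 hcy
  have e1 : 1 / 4 + c * ((y + 1) / 2 + c * (y ^ 2 - 1) / 4 - 1 / 2 + c / 4) =
      ((1 + c * y) / 2) ^ 2 := by ring
  rw [e1, Real.sqrt_sq (by linarith)]
  have hpos : 0 < 1 / 2 + (1 + c * y) / 2 := by linarith
  rw [div_eq_iff hpos.ne']
  ring

/-- Lipschitz dependence on the mean. -/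
theorem abs_QQ_sub_le {a u m m' : ℝ} (ha : 0 ≤ a) (ha' : a ≤ 1 / 2)
    (hu : u ∈ Set.Icc (0 : ℝ) 1) (hm : m ∈ Set.Icc (-1 : ℝ) 1) (hm' : m' ∈ Set.Icc (-1 : ℝ) 1) :
    |QQ a u m - QQ a u m'| ≤ |m - m'| := by
  have hy := QQ_mem ha ha' hu hm
  have hy' := QQ_mem ha ha' hu hm'
  have h1 := FF_QQ ha ha' hu hm
  have h2 := FF_QQ ha ha' hu hm'
  have hc := abs_mul_le_half ha ha' hm
  set y := QQ a u m
  set y' := QQ a u m'
  unfold FF at h1 h2
  have key : (y - y') * (1 / 2 + a * m * (y + y') / 4) = a * (m - m') * (1 - y' ^ 2) / 4 := by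
    nlinarith
  have hb : |y + y'| ≤ 2 := by
    rw [abs_le]
    exact ⟨by linarith [hy.1, hy'.1], by linarith [hy.2, hy'.2]⟩
  have hf : 1 / 4 ≤ 1 / 2 + a * m * (y + y') / 4 := by
    have h3 : |a * m * (y + y')| ≤ 1 := by
      rw [abs_mul]
      calc |a * m| * |y + y'| ≤ 1 / 2 * 2 :=
            mul_le_mul hc hb (abs_nonneg _) (by norm_num)
        _ = 1 := by norm_num
    have h4 := (abs_le.1 h3).1
    linarith
  have hr : |a * (m - m') * (1 - y' ^ 2) / 4| ≤ |m - m'| / 8 := by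
    have h5 : 0 ≤ 1 - y' ^ 2 := by nlinarith [hy'.1, hy'.2]
    have h6 : 1 - y' ^ 2 ≤ 1 := by nlinarith [sq_nonneg y']
    rw [abs_div, abs_mul, abs_mul, abs_of_nonneg ha, abs_of_nonneg h5,
      abs_of_nonneg (by norm_num : (0 : ℝ) ≤ 4)]
    have h7 : a * |m - m'| * (1 - y' ^ 2) ≤ 1 / 2 * |m - m'| * 1 :=
      mul_le_mul (mul_le_mul_of_nonneg_right ha' (abs_nonneg _)) h6 h5
        (by positivity)
    linarith
  have h8 : |y - y'| * (1 / 4) ≤ |m - m'| / 8 := by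
    calc |y - y'| * (1 / 4) ≤ |y - y'| * (1 / 2 + a * m * (y + y') / 4) :=
          mul_le_mul_of_nonneg_left hf (abs_nonneg _)
      _ = |(y - y') * (1 / 2 + a * m * (y + y') / 4)| := by
          rw [abs_mul, abs_of_nonneg (by linarith : (0 : ℝ) ≤ 1 / 2 + a * m * (y + y') / 4)]
      _ = |a * (m - m') * (1 - y' ^ 2) / 4| := by rw [key]
      _ ≤ |m - m'| / 8 := hr
  linarith [abs_nonneg (m - m')]

theorem abs_ay_le {a y : ℝ} (ha : 0 ≤ a) (ha' : a ≤ 1 / 2) (hy : y ∈ Set.Icc (-1 : ℝ) 1) :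
    -(1 / 2) ≤ a * y ∧ a * y ≤ 1 / 2 := abs_le.1 (abs_mul_le_half ha ha' hy)

theorem abs_gg_le {a y : ℝ} (ha : 0 ≤ a) (ha' : a ≤ 1 / 2) (hy : y ∈ Set.Icc (-1 : ℝ) 1) :
    |gg a y| ≤ 2 := by
  obtain ⟨h1, h2⟩ := abs_ay_le ha ha' hy
  unfold gg
  have hp : 0 < 1 + a * y := by linarith
  have hq : 0 < 1 - a * y := by linarith
  rw [abs_le]
  constructor
  · have h3 := Real.log_le_sub_one_of_pos (div_pos hq hp)
    have h4 : (1 - a * y) / (1 + a * y) ≤ 3 := by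
      rw [div_le_iff₀ hp]
      linarith
    have h5 : Real.log ((1 + a * y) / (1 - a * y)) = - Real.log ((1 - a * y) / (1 + a * y)) := by
      rw [← Real.log_inv, inv_div]
    rw [h5]
    linarith
  · have h3 := Real.log_le_sub_one_of_pos (div_pos hp hq)
    have h4 : (1 + a * y) / (1 - a * y) ≤ 3 := by
      rw [div_le_iff₀ hq]
      linarith
    linarith

theorem gg_zero (y : ℝ) : gg 0 y = 0 := by
  unfold gg
  simp

theorem log_sub_log_le {p q : ℝ} (hp : 1 / 2 ≤ p) (hq : 1 / 2 ≤ q) :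
    Real.log p - Real.log q ≤ 2 * |p - q| := by
  have hq0 : 0 < q := by linarith
  have hp0 : 0 < p := by linarith
  rw [← Real.log_div hp0.ne' hq0.ne']
  have h3 := Real.log_le_sub_one_of_pos (div_pos hp0 hq0)
  have h4 : p / q - 1 ≤ 2 * |p - q| := by
    rw [div_sub_one hq0.ne', div_le_iff₀ hq0]
    have h5 : p - q ≤ |p - q| := le_abs_self _
    have h6 : 0 ≤ |p - q| := abs_nonneg _
    nlinarith
  linarith

theorem abs_log_sub_log_le {p q : ℝ} (hp : 1 / 2 ≤ p) (hq : 1 / 2 ≤ q) :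
    |Real.log p - Real.log q| ≤ 2 * |p - q| := by
  rw [abs_le]
  have h1 := log_sub_log_le hp hq
  have h2 := log_sub_log_le hq hp
  rw [abs_sub_comm q p] at h2
  exact ⟨by linarith, h1⟩

theorem abs_gg_sub_le {a y y' : ℝ} (ha : 0 ≤ a) (ha' : a ≤ 1 / 2)
    (hy : y ∈ Set.Icc (-1 : ℝ) 1) (hy' : y' ∈ Set.Icc (-1 : ℝ) 1) :
    |gg a y - gg a y'| ≤ 2 * |y - y'| := by
  obtain ⟨h1, h2⟩ := abs_ay_le ha ha' hy
  obtain ⟨h3, h4⟩ := abs_ay_le ha ha' hy'
  unfold gg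
  rw [Real.log_div (by linarith) (by linarith), Real.log_div (by linarith) (by linarith)]
  have h5 := abs_log_sub_log_le (p := 1 + a * y) (q := 1 + a * y') (by linarith) (by linarith)
  have h6 := abs_log_sub_log_le (p := 1 - a * y) (q := 1 - a * y') (by linarith) (by linarith)
  have e1 : |1 + a * y - (1 + a * y')| = a * |y - y'| := by
    rw [show 1 + a * y - (1 + a * y') = a * (y - y') by ring, abs_mul, abs_of_nonneg ha]
  have e2 : |1 - a * y - (1 - a * y')| = a * |y - y'| := by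
    rw [show 1 - a * y - (1 - a * y') = a * (y' - y) by ring, abs_mul, abs_of_nonneg ha,
      abs_sub_comm]
  rw [e1] at h5
  rw [e2] at h6
  have h7 : a * |y - y'| ≤ 1 / 2 * |y - y'| := mul_le_mul_of_nonneg_right ha' (abs_nonneg _)
  have h8 := abs_sub (Real.log (1 + a * y) - Real.log (1 + a * y'))
    (Real.log (1 - a * y) - Real.log (1 - a * y'))
  have e3 : Real.log (1 + a * y) - Real.log (1 - a * y) -
      (Real.log (1 + a * y') - Real.log (1 - a * y')) =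
      Real.log (1 + a * y) - Real.log (1 + a * y') -
        (Real.log (1 - a * y) - Real.log (1 - a * y')) := by ring
  rw [e3]
  linarith

end

end Vale.Agent.Fusf
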