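import Mathlib

/-!
# Internal definitions for the free uniform spanning forest as a factor of IID

* `U G h` : weighted finite flows (cycle space scaled by `exp (-h/2)`), a subspace of `ℓ²(V × V)`
* `R G h` : the orthogonal projection on the closure of `U G h`
* `mm G h a b = 1 - ‖R G h (eps a b)‖^2` : the probability that the edge `ab` is in the weighted
  free spanning forest with weights `exp h`
* the algorithm: rings `(e, k)`, times `t (e, k)`, observations `y`, innovations `u`
-/

open MeasureTheory Filter Topology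
open scoped ENNReal unitInterval Classical

namespace Vale.Agent.Fusf

noncomputable section

variable {V : Type*}

/-- Hilbert space of square summable functions on ordered pairs of vertices. -/
abbrev L2 (V : Type*) := lp (fun _ : V × V => ℝ) 2

/-- `θ` is a finitely supported antisymmetric divergence free flow on the graph `G`. -/
def IsFlow (G : SimpleGraph V) (θ : V × V → ℝ) : Prop :=
  θ.support.Finite ∧ (∀ x y, θ (y, x) = - θ (x, y)) ∧ (∀ x y, ¬ G.Adj x y → θ (x, y) = 0) ∧
    ∀ x, ∑ᶠ y, θ (x, y) = 0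

theorem IsFlow.finite_slice {G : SimpleGraph V} {θ : V × V → ℝ} (h : IsFlow G θ) (x : V) :
    (Function.support fun y => θ (x, y)).Finite := by
  refine Set.Finite.subset (h.1.image Prod.snd) ?_
  intro y hy
  exact ⟨(x, y), hy, rfl⟩

theorem IsFlow.zero (G : SimpleGraph V) : IsFlow G (0 : V × V → ℝ) := by
  refine ⟨by simp, by simp, by simp, by simp⟩

theorem IsFlow.add {G : SimpleGraph V} {θ θ' : V × V → ℝ} (h : IsFlow G θ) (h' : IsFlow G θ') :
    IsFlow G (θ + θ') := by
  refine ⟨(h.1.union h'.1).subset (Function.support_add _ _), ?_, ?_, ?_⟩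
  · intro x y
    simp only [Pi.add_apply, h.2.1 x y, h'.2.1 x y]
    ring
  · intro x y hxy
    simp [h.2.2.1 x y hxy, h'.2.2.1 x y hxy]
  · intro x
    have := finsum_add_distrib (h.finite_slice x) (h'.finite_slice x)
    simp only [Pi.add_apply]
    rw [this, h.2.2.2 x, h'.2.2.2 x, add_zero]

theorem IsFlow.smul {G : SimpleGraph V} {θ : V × V → ℝ} (h : IsFlow G θ) (c : ℝ) :
    IsFlow G (c • θ) := by
  refine ⟨h.1.subset (Function.support_const_smul_subset c θ), ?_, ?_, ?_⟩
  · intro x y
    simp only [Pi.smul_apply, h.2.1 x y, smul_eq_mul]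
    ring
  · intro x y hxy
    simp [h.2.2.1 x y hxy]
  · intro x
    have := smul_finsum' c (h.finite_slice x)
    simp only [Pi.smul_apply]
    rw [← this, h.2.2.2 x, smul_zero]

/-- The weighted cycle space: `exp (-h/2)` times the finite flows of `G`. -/
def U (G : SimpleGraph V) (h : Sym2 V → ℝ) : Submodule ℝ (L2 V) where
  carrier := {f | ∃ θ : V × V → ℝ, IsFlow G θ ∧ ∀ d, f d = Real.exp (-(h s(d.1, d.2)) / 2) * θ d}
  zero_mem' := ⟨0, IsFlow.zero G, by simp⟩
  add_mem' := by
    rintro f g ⟨θ, hθ, hf⟩ ⟨θ', hθ', hg⟩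
    refine ⟨θ + θ', hθ.add hθ', fun d => ?_⟩
    simp only [lp.coeFn_add, Pi.add_apply, hf d, hg d]
    ring
  smul_mem' := by
    rintro c f ⟨θ, hθ, hf⟩
    refine ⟨c • θ, hθ.smul c, fun d => ?_⟩
    simp only [lp.coeFn_smul, Pi.smul_apply, hf d, smul_eq_mul]
    ring

/-- Orthogonal projection on the closed weighted cycle space. -/
def R (G : SimpleGraph V) (h : Sym2 V → ℝ) : L2 V →L[ℝ] L2 V :=
  (U G h).topologicalClosure.starProjection

/-- Unit vector of the edge `ab`. -/
def eps (a b : V) : L2 V :=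
  (√2)⁻¹ • (lp.single 2 (a, b) (1 : ℝ) - lp.single 2 (b, a) (1 : ℝ))

theorem eps_swap (a b : V) : eps b a = - eps a b := by
  unfold eps
  rw [← smul_neg, neg_sub]

/-- Probability of the edge `ab` in the weighted free spanning forest with weights `exp h`. -/
def mm (G : SimpleGraph V) (h : Sym2 V → ℝ) (a b : V) : ℝ := 1 - ‖R G h (eps a b)‖ ^ 2

theorem mm_swap (G : SimpleGraph V) (h : Sym2 V → ℝ) (a b : V) : mm G h b a = mm G h a b := by
  unfold mm
  rw [eps_swap, map_neg, norm_neg]

/-- The same as a function of the unordered pair. -/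
def mmE (G : SimpleGraph V) (h : Sym2 V → ℝ) : Sym2 V → ℝ :=
  Sym2.lift ⟨fun a b => mm G h a b, fun a b => (mm_swap G h a b).symm⟩

@[simp] theorem mmE_mk (G : SimpleGraph V) (h : Sym2 V → ℝ) (a b : V) :
    mmE G h s(a, b) = mm G h a b := rfl

/-- The influence kernel. -/
def qq (G : SimpleGraph V) (h : Sym2 V → ℝ) (a b : V) (d : V × V) : ℝ :=
  (R G h (eps a b) d) ^ 2 + ((eps a b - R G h (eps a b)) d) ^ 2

/-! ### The observation scheme -/

/-- Labels of the rings `(e, k)`. -/
abbrev Lab (V : Type*) := Sym2 V × ℕ → I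

/-- The law of iid uniform labels. -/
def lam (V : Type*) : Measure (Lab V) := Measure.infinitePi (fun _ => (volume : Measure I))

instance : IsProbabilityMeasure (lam V) := by unfold lam; infer_instance

/-- The edge `e` may be observed in round `k`. -/
def ok (G : SimpleGraph V) (e : Sym2 V) (k : ℕ) : Prop :=
  e ∈ G.edgeSet ∧ ∀ v ∈ e, (G.neighborSet v).encard ≤ k

/-- Strength of the observation at the ring `(e, k)`. -/
def str (G : SimpleGraph V) (t : Lab V) (e : Sym2 V) (k : ℕ) : ℝ :=
  if ok G e k ∧ (t (e, k) : ℝ) < 1 / 2 then 1 / 2 else 0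

/-- The field added by an observation `y` of strength `a`. -/
def gg (a y : ℝ) : ℝ := Real.log ((1 + a * y) / (1 - a * y))

/-- The field created by all observations before time `(k, r)` (lexicographic order). -/
def fld (G : SimpleGraph V) (t : Lab V) (y : Sym2 V × ℕ → ℝ) (k : ℕ) (r : ℝ) (e : Sym2 V) : ℝ :=
  ∑ l ∈ Finset.range k, gg (str G t e l) (y (e, l)) +
    if (t (e, k) : ℝ) < r then gg (str G t e k) (y (e, k)) else 0

/-- Posterior mean of the spin of the edge observed at ring `i`, given all earlier observations. -/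
def postM (G : SimpleGraph V) (t : Lab V) (y : Sym2 V × ℕ → ℝ) (i : Sym2 V × ℕ) : ℝ :=
  2 * mmE G (fld G t y i.2 (t i)) i.1 - 1

/-- Distribution function of the density `(1 + a m y)/2` on `[-1, 1]`. -/
def FF (a y m : ℝ) : ℝ := (y + 1) / 2 + a * m * (y ^ 2 - 1) / 4

/-- Quantile function of the density `(1 + a m y)/2` on `[-1, 1]`. -/
def QQ (a u m : ℝ) : ℝ :=
  2 * (u - 1 / 2 + a * m / 4) / (1 / 2 + √(1 / 4 + a * m * (u - 1 / 2 + a * m / 4)))

/-- The true observations, built from the forest `x` and the noise `w`. -/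
def yTrue (G : SimpleGraph V) (x : Set (Sym2 V)) (t w : Lab V) (i : Sym2 V × ℕ) : ℝ :=
  QQ (str G t i.1 i.2) (w i) (if i.1 ∈ x then 1 else -1)

/-- The innovations. -/
def innov (G : SimpleGraph V) (x : Set (Sym2 V)) (t w : Lab V) : Lab V := fun i =>
  Set.projIcc (0 : ℝ) 1 zero_le_one
    (FF (str G t i.1 i.2) (yTrue G x t w i) (postM G t (yTrue G x t w) i))

/-- Picard iterates: reconstruction of the observations from times and innovations. -/
def yPic (G : SimpleGraph V) (t u : Lab V) : ℕ → Sym2 V × ℕ → ℝ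
  | 0 => fun _ => 0
  | (j + 1) => fun i => QQ (str G t i.1 i.2) (u i) (postM G t (yPic G t u j) i)

/-- Averages of the observations of the edge `e`. -/
def avg (G : SimpleGraph V) (t : Lab V) (y : Sym2 V × ℕ → ℝ) (e : Sym2 V) (n : ℕ) : ℝ :=
  (∑ k ∈ Finset.range n, if 0 < str G t e k then y (e, k) else 0) / n

/-! ### Finite spanning forests -/

/-- `A` is a maximal spanning forest of the finite edge set `E`. -/
def IsSF (E A : Finset (Sym2 V)) : Prop :=
  A ⊆ E ∧ (SimpleGraph.fromEdgeSet (A : Set (Sym2 V))).IsAcyclic ∧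
    ∀ x y, (SimpleGraph.fromEdgeSet (E : Set (Sym2 V))).Reachable x y →
      (SimpleGraph.fromEdgeSet (A : Set (Sym2 V))).Reachable x y

/-- All maximal spanning forests of a finite edge set. -/
def trees (E : Finset (Sym2 V)) : Finset (Finset (Sym2 V)) := E.powerset.filter (IsSF E)

/-- Weight of the edge set `A` for the field `h`. -/
def wgt (h : Sym2 V → ℝ) (A : Finset (Sym2 V)) : ℝ := Real.exp (∑ e ∈ A, h e)

/-- Exponential of the field summed over the edges of `x` in `S`. -/
def tilt (S : Finset (Sym2 V)) (h : Sym2 V → ℝ) (x : Set (Sym2 V)) : ℝ :=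
  Real.exp (∑ e ∈ S, if e ∈ x then h e else 0)

/-- The properties of the limit measures used by the other modules. -/
structure IsForestLaw (G : SimpleGraph V) (μ : Measure (Set (Sym2 V))) : Prop where
  prob : IsProbabilityMeasure μ
  /-- limits of uniform spanning forests of finite edge sets increasing to `G` -/
  conv : ∀ Es : ℕ → Finset (Sym2 V), Monotone Es → (∀ n, ↑(Es n) ⊆ G.edgeSet) →
    (∀ e ∈ G.edgeSet, ∃ n, e ∈ Es n) → ∀ S A : Finset (Sym2 V),
    Tendsto (fun n => (((trees (Es n)).filter fun T => ∀ e ∈ S, (e ∈ T ↔ e ∈ A)).card : ℝ) /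
      ((trees (Es n)).card : ℝ)) atTop (𝓝 (μ.real {x | ∀ e ∈ S, (e ∈ x ↔ e ∈ A)}))
  /-- marginals of the tilted measures -/
  tilt_eq : ∀ (S : Finset (Sym2 V)) (h : Sym2 V → ℝ), (∀ e, e ∉ S → h e = 0) →
    ∀ a b : V, G.Adj a b →
      ∫ x, (if s(a, b) ∈ x then tilt S h x else 0) ∂μ = mm G h a b * ∫ x, tilt S h x ∂μ
  /-- only edges of `G` are used -/
  supp : ∀ e, e ∉ G.edgeSet → μ {x | e ∈ x} = 0

/-- The mass transport principle for random rooted graphs with vertex set `V`. -/
def MTP [MeasurableSpace V] (P : Measure (SimpleGraph V × V)) : Prop :=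
  ∀ f : SimpleGraph V → V → V → ℝ≥0∞,
    Measurable (fun p : SimpleGraph V × V × V => f p.1 p.2.1 p.2.2) →
    (∀ (g : Equiv.Perm V) (G : SimpleGraph V) (u v : V),
      f (G.map g.toEmbedding) (g u) (g v) = f G u v) →
    ∫⁻ p, ∑' v, f p.1 p.2 v ∂P = ∫⁻ p, ∑' v, f p.1 v p.2 ∂P

/-- The action of a permutation of the vertices on ring labels. -/
def actL (g : Equiv.Perm V) {α : Type*} (y : Sym2 V × ℕ → α) : Sym2 V × ℕ → α :=
  fun i => y (Sym2.map g.symm i.1, i.2)

/-- The action of a permutation of the vertices on fields. -/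
def actF (g : Equiv.Perm V) {α : Type*} (h : Sym2 V → α) : Sym2 V → α :=
  fun e => h (Sym2.map g.symm e)

/-- The action of a permutation of the vertices on edge sets. -/
def actS (g : Equiv.Perm V) (x : Set (Sym2 V)) : Set (Sym2 V) := {e | Sym2.map g.symm e ∈ x}

end

end Vale.Agent.Fusf
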