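import Mathlib
import Vale.Agent.Lib.P143.Defs
import Vale.Agent.Lib.P143.Alg

open MeasureTheory Filter Topology
open scoped ENNReal unitInterval Classical

namespace Vale.Agent.Fusf

noncomputable section

theorem hasDerivAt_FF (a y m : ℝ) : HasDerivAt (fun y => FF a y m) ((1 + a * m * y) / 2) y := by
  unfold FF
  have h1 : HasDerivAt (fun y : ℝ => (y + 1) / 2) (1 / 2) y :=
    ((hasDerivAt_id y).add_const 1).div_const 2
  have h2 : HasDerivAt (fun y : ℝ => a * m * (y ^ 2 - 1) / 4) (a * m * (2 * y) / 4) y := by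
    have h3 : HasDerivAt (fun y : ℝ => y ^ 2 - 1) (2 * y) y := by
      simpa using (hasDerivAt_pow 2 y).sub_const 1
    exact (h3.const_mul (a * m)).div_const 4
  refine (h1.add h2).congr_deriv ?_
  ring

theorem FF_image {a m : ℝ} (ha : 0 ≤ a) (ha' : a ≤ 1 / 2) (hm : m ∈ Set.Icc (-1 : ℝ) 1) :
    (fun y => FF a y m) '' Set.Icc (-1 : ℝ) 1 = Set.Icc 0 1 := by
  ext u
  constructor
  · rintro ⟨y, hy, rfl⟩
    exact FF_mem ha ha' hy hm
  · intro hu
    exact ⟨QQ a u m, QQ_mem ha ha' hu hm, FF_QQ ha ha' hu hm⟩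

theorem lintegral_I (f : ℝ → ℝ≥0∞) : ∫⁻ w : I, f w = ∫⁻ w in Set.Icc (0 : ℝ) 1, f w := by
  exact lintegral_subtype_comap measurableSet_Icc f

theorem lintegral_FF {a m : ℝ} (ha : 0 ≤ a) (ha' : a ≤ 1 / 2) (hm : m ∈ Set.Icc (-1 : ℝ) 1)
    (f : ℝ → ℝ≥0∞) (_hf : Measurable f) :
    ∫⁻ y in Set.Icc (-1 : ℝ) 1, f (FF a y m) * ENNReal.ofReal ((1 + a * m * y) / 2) =
      ∫⁻ w : I, f w := by
  have hinj : Set.InjOn (fun y => FF a y m) (Set.Icc (-1 : ℝ) 1) := by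
    intro y hy y' hy' h
    have h' : FF a y m = FF a y' m := h
    rw [← QQ_FF ha ha' hy hm, h', QQ_FF ha ha' hy' hm]
  have h1 := lintegral_image_eq_lintegral_abs_deriv_mul (s := Set.Icc (-1 : ℝ) 1)
    (f := fun y => FF a y m) (f' := fun y => (1 + a * m * y) / 2) measurableSet_Icc
    (fun y _ => (hasDerivAt_FF a y m).hasDerivWithinAt) hinj f
  rw [FF_image ha ha' hm] at h1
  rw [lintegral_I, h1]
  refine setLIntegral_congr_fun measurableSet_Icc fun y hy => ?_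
  have h2 : |a * m * y| ≤ 1 / 2 := by
    rw [abs_mul]
    have h3 := abs_mul_le_half ha ha' hm
    have h4 : |y| ≤ 1 := abs_le.2 hy
    nlinarith [abs_nonneg y, abs_nonneg (a * m)]
  rw [abs_le] at h2
  have h5 : |(1 + a * m * y) / 2| = (1 + a * m * y) / 2 := abs_of_nonneg (by linarith)
  rw [h5, mul_comm]

theorem lintegral_QQ {a m : ℝ} (ha : 0 ≤ a) (ha' : a ≤ 1 / 2) (hm : m ∈ Set.Icc (-1 : ℝ) 1)
    (f : ℝ → ℝ≥0∞) (hf : Measurable f) :
    ∫⁻ w : I, f (QQ a w m) = ∫⁻ y in Set.Icc (-1 : ℝ) 1, f y * ENNReal.ofReal ((1 + a * m * y) / 2)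
    := by
  have hQ : Measurable (fun u : ℝ => QQ a u m) := by
    unfold QQ
    fun_prop
  rw [← lintegral_FF ha ha' hm (fun u => f (QQ a u m)) (hf.comp hQ)]
  refine setLIntegral_congr_fun measurableSet_Icc fun y hy => ?_
  rw [QQ_FF ha ha' hy hm]

end

end Vale.Agent.Fusf
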