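import Vale.Agent.Lib.P143.Defs

/-!
# Causality: everything before time `(k, s)` only depends on the ring times before `(k, s)`
-/

open MeasureTheory Filter Topology
open scoped ENNReal unitInterval Classical

namespace Vale.Agent.Fusf

noncomputable section

variable {V : Type*}

/-- The ring `i` is before the time `(k, s)`. -/
def Bef (t : Lab V) (k : ℕ) (s : ℝ) (i : Sym2 V × ℕ) : Prop :=
  i.2 < k ∨ (i.2 = k ∧ (t i : ℝ) < s)

/-- The families of times `t` and `t'` agree before the time `(k, s)`. -/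
def AgreeBefore (k : ℕ) (s : ℝ) (t t' : Lab V) : Prop :=
  (∀ e l, l < k → t (e, l) = t' (e, l)) ∧
    ∀ e, t (e, k) = t' (e, k) ∨ (s ≤ (t (e, k) : ℝ) ∧ s ≤ (t' (e, k) : ℝ))

variable {G : SimpleGraph V} {t t' : Lab V} {k : ℕ} {s : ℝ}

theorem AgreeBefore.eq_of_bef (h : AgreeBefore k s t t') {i : Sym2 V × ℕ} (hi : Bef t k s i) :
    t i = t' i := by
  obtain ⟨e, l⟩ := i
  rcases hi with hi | ⟨hi, hs⟩
  · exact h.1 e l hi
  · simp only at hi hs
    subst hi
    rcases h.2 e with h2 | h2
    · exact h2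
    · exact absurd hs (not_lt.2 h2.1)

theorem AgreeBefore.lt_iff (h : AgreeBefore k s t t') (e : Sym2 V) :
    (t (e, k) : ℝ) < s ↔ (t' (e, k) : ℝ) < s := by
  rcases h.2 e with h2 | h2
  · rw [h2]
  · exact ⟨fun h3 => absurd h3 (not_lt.2 h2.1), fun h3 => absurd h3 (not_lt.2 h2.2)⟩

theorem AgreeBefore.mono (h : AgreeBefore k s t t') {i : Sym2 V × ℕ} (hi : Bef t k s i) :
    AgreeBefore i.2 (t i) t t' := by
  obtain ⟨e, l⟩ := i
  rcases hi with hi | ⟨hi, hs⟩
  · simp only at hi
    exact ⟨fun f l' hl' => h.1 f l' (hl'.trans hi), fun f => Or.inl (h.1 f l hi)⟩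
  · simp only at hi hs
    subst hi
    refine ⟨h.1, fun f => ?_⟩
    rcases h.2 f with h2 | h2
    · exact Or.inl h2
    · exact Or.inr ⟨hs.le.trans h2.1, hs.le.trans h2.2⟩

theorem Bef.trans {i i' : Sym2 V × ℕ} (hi : Bef t k s i) (hi' : Bef t i.2 (t i) i') :
    Bef t k s i' := by
  rcases hi with hi | ⟨hi, hs⟩
  · rcases hi' with h' | ⟨h', _⟩
    · exact Or.inl (h'.trans hi)
    · exact Or.inl (h' ▸ hi)
  · rcases hi' with h' | ⟨h', hs'⟩
    · exact Or.inl (hi ▸ h')
    · exact Or.inr ⟨h'.trans hi, hs'.trans hs⟩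

theorem str_congr_at (G : SimpleGraph V) {e : Sym2 V} {l : ℕ} (h : t (e, l) = t' (e, l)) :
    str G t e l = str G t' e l := by
  unfold str
  rw [h]

theorem fld_congr (h : AgreeBefore k s t t') {y y' : Sym2 V × ℕ → ℝ}
    (hy : ∀ i, Bef t k s i → y i = y' i) : fld G t y k s = fld G t' y' k s := by
  funext e
  unfold fld
  congr 1
  · refine Finset.sum_congr rfl fun l hl => ?_
    rw [Finset.mem_range] at hl
    have hb : Bef t k s (e, l) := Or.inl hl
    rw [hy _ hb, str_congr_at G (h.eq_of_bef hb)]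
  · by_cases hs : (t (e, k) : ℝ) < s
    · have hb : Bef t k s (e, k) := Or.inr ⟨rfl, hs⟩
      rw [if_pos hs, if_pos ((h.lt_iff e).1 hs), hy _ hb, str_congr_at G (h.eq_of_bef hb)]
    · rw [if_neg hs, if_neg (fun h' => hs ((h.lt_iff e).2 h'))]

theorem postM_congr_bef (h : AgreeBefore k s t t') {y y' : Sym2 V × ℕ → ℝ}
    (hy : ∀ i, Bef t k s i → y i = y' i) {i : Sym2 V × ℕ} (hi : Bef t k s i) :
    postM G t y i = postM G t' y' i := by
  unfold postM
  rw [fld_congr (h.mono hi) (fun i' hi' => hy i' (hi.trans hi')), h.eq_of_bef hi]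

theorem yTrue_congr (h : AgreeBefore k s t t') (x : Set (Sym2 V)) (w : Lab V) {i : Sym2 V × ℕ}
    (hi : Bef t k s i) : yTrue G x t w i = yTrue G x t' w i := by
  unfold yTrue
  rw [str_congr_at G (h.eq_of_bef hi)]

theorem innov_congr (h : AgreeBefore k s t t') (x : Set (Sym2 V)) (w : Lab V) {i : Sym2 V × ℕ}
    (hi : Bef t k s i) : innov G x t w i = innov G x t' w i := by
  unfold innov
  rw [str_congr_at G (h.eq_of_bef hi), yTrue_congr h x w hi,
    postM_congr_bef h (fun i' hi' => yTrue_congr h x w hi') hi]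

theorem yPic_zero (G : SimpleGraph V) (t u : Lab V) (i : Sym2 V × ℕ) : yPic G t u 0 i = 0 := rfl

theorem yPic_succ (G : SimpleGraph V) (t u : Lab V) (j : ℕ) (i : Sym2 V × ℕ) :
    yPic G t u (j + 1) i = QQ (str G t i.1 i.2) (u i) (postM G t (yPic G t u j) i) := rfl

theorem yPic_innov_congr (h : AgreeBefore k s t t') (x : Set (Sym2 V)) (w : Lab V) (j : ℕ)
    {i : Sym2 V × ℕ} (hi : Bef t k s i) :
    yPic G t (innov G x t w) j i = yPic G t' (innov G x t' w) j i := by
  induction j generalizing i with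
  | zero => rw [yPic_zero, yPic_zero]
  | succ j ih =>
    rw [yPic_succ, yPic_succ, str_congr_at G (h.eq_of_bef hi), innov_congr h x w hi,
      postM_congr_bef h (fun i' hi' => ih hi') hi]

theorem agreeBefore_update (t : Lab V) (e : Sym2 V) (k : ℕ) {s s' : I} (hs : s ≤ s') :
    AgreeBefore k (s : ℝ) (Function.update t (e, k) s) (Function.update t (e, k) s') := by
  constructor
  · intro f l hl
    have : (f, l) ≠ (e, k) := fun h => hl.ne (congrArg Prod.snd h)
    rw [Function.update_of_ne this, Function.update_of_ne this]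
  · intro f
    by_cases hf : f = e
    · subst hf
      right
      rw [Function.update_self, Function.update_self]
      exact ⟨le_rfl, hs⟩
    · left
      have : (f, k) ≠ (e, k) := fun h => hf (congrArg Prod.fst h)
      rw [Function.update_of_ne this, Function.update_of_ne this]

end

end Vale.Agent.Fusf
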