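import Vale.Agent.Lib.P143.Defs

/-!
# Kirchhoff's formula for weighted maximal spanning forests of a finite graph
-/

open MeasureTheory Filter Topology
open scoped ENNReal unitInterval Classical

namespace Vale.Agent.Fusf

noncomputable section

variable {V : Type*}

namespace Kirch

/-- The graph of a finite edge set. -/
abbrev gr (A : Finset (Sym2 V)) : SimpleGraph V := SimpleGraph.fromEdgeSet (A : Set (Sym2 V))

/-- Reachability inside a finite edge set. -/
abbrev rch (A : Finset (Sym2 V)) (x y : V) : Prop := (gr A).Reachable x y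

lemma gr_adj {A : Finset (Sym2 V)} {x y : V} : (gr A).Adj x y ↔ s(x, y) ∈ A ∧ x ≠ y := by
  simp [gr]

lemma gr_mono {A B : Finset (Sym2 V)} (h : A ⊆ B) : gr A ≤ gr B :=
  SimpleGraph.fromEdgeSet_mono (by exact_mod_cast h)

lemma rch_mono {A B : Finset (Sym2 V)} (h : A ⊆ B) {x y : V} (hx : rch A x y) : rch B x y :=
  hx.mono (gr_mono h)

lemma rch_of_mem {A : Finset (Sym2 V)} {x y : V} (h : s(x, y) ∈ A) : rch A x y := by
  by_cases hxy : x = y
  · subst hxy; exact SimpleGraph.Reachable.refl _
  · exact (gr_adj.2 ⟨h, hxy⟩).reachable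

lemma rch_insert {B : Finset (Sym2 V)} {x y u v : V} (h : rch (insert s(x, y) B) u v) :
    rch B u v ∨ (rch B u x ∧ rch B y v) ∨ (rch B u y ∧ rch B x v) := by
  obtain ⟨p⟩ := h
  induction p with
  | nil => exact Or.inl (SimpleGraph.Reachable.refl _)
  | @cons u w v hadj p ih =>
    rw [gr_adj, Finset.mem_insert] at hadj
    obtain ⟨h1 | h1, huw⟩ := hadj
    · rcases Sym2.eq_iff.1 h1 with ⟨rfl, rfl⟩ | ⟨rfl, rfl⟩
      · rcases ih with ih | ih | ih
        · exact Or.inr (Or.inl ⟨SimpleGraph.Reachable.refl _, ih⟩)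
        · exact Or.inr (Or.inl ⟨SimpleGraph.Reachable.refl _, ih.2⟩)
        · exact Or.inl ih.2
      · rcases ih with ih | ih | ih
        · exact Or.inr (Or.inr ⟨SimpleGraph.Reachable.refl _, ih⟩)
        · exact Or.inl ih.2
        · exact Or.inr (Or.inr ⟨SimpleGraph.Reachable.refl _, ih.2⟩)
    · have huw' : rch B u w := rch_of_mem h1
      rcases ih with ih | ih | ih
      · exact Or.inl (huw'.trans ih)
      · exact Or.inr (Or.inl ⟨huw'.trans ih.1, ih.2⟩)
      · exact Or.inr (Or.inr ⟨huw'.trans ih.1, ih.2⟩)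

lemma not_rch_erase {A : Finset (Sym2 V)} (hA : (gr A).IsAcyclic) {x y : V} (hxy : x ≠ y)
    (h : s(x, y) ∈ A) : ¬ rch (A.erase s(x, y)) x y := by
  have h1 := SimpleGraph.isAcyclic_iff_forall_isBridge.1 hA
    (show s(x, y) ∈ (gr A).edgeSet from gr_adj.2 ⟨h, hxy⟩)
  rw [SimpleGraph.isBridge_iff] at h1
  intro h2
  refine h1 (h2.mono ?_)
  intro u v huv
  rw [gr_adj, Finset.mem_erase] at huv
  rw [SimpleGraph.deleteEdges_adj, gr_adj]
  exact ⟨⟨huv.1.2, huv.2⟩, by simpa using huv.1.1⟩

lemma acyclic_insert {B : Finset (Sym2 V)} (hB : (gr B).IsAcyclic) {x y : V}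
    (h : ¬ rch B x y) : (gr (insert s(x, y) B)).IsAcyclic := by
  refine (hB.sup_edge_of_not_reachable h).anti ?_
  intro u v huv
  rw [gr_adj, Finset.mem_insert] at huv
  rw [SimpleGraph.sup_adj, gr_adj, SimpleGraph.edge_adj]
  rcases huv with ⟨h1 | h1, h2⟩
  · right
    exact ⟨by rcases Sym2.eq_iff.1 h1 with h | h <;> simp [h], h2⟩
  · left
    exact ⟨h1, h2⟩

lemma exists_nbr {A : Finset (Sym2 V)} {x u : V} (h : rch A u x) (hux : u ≠ x) :
    ∃ y, s(x, y) ∈ A ∧ x ≠ y ∧ rch (A.filter (fun e => x ∉ e)) u y := by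
  obtain ⟨p⟩ := h
  induction p with
  | nil => exact absurd rfl hux
  | @cons u w v hadj p ih =>
    rw [gr_adj] at hadj
    by_cases hwv : w = v
    · subst hwv
      exact ⟨u, by rw [Sym2.eq_swap]; exact hadj.1, hadj.2.symm, SimpleGraph.Reachable.refl _⟩
    · obtain ⟨y, hy1, hy2, hy3⟩ := ih hwv
      refine ⟨y, hy1, hy2, ?_⟩
      refine SimpleGraph.Reachable.trans ?_ hy3
      refine rch_of_mem ?_
      rw [Finset.mem_filter]
      refine ⟨hadj.1, ?_⟩
      rw [Sym2.mem_iff]
      rintro (h | h)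
      · exact hux h.symm
      · exact hwv h.symm

end Kirch

open Kirch

theorem trees_nonempty (E : Finset (Sym2 V)) : (trees E).Nonempty := by
  obtain ⟨F, hF, hac, hre⟩ :=
    (SimpleGraph.fromEdgeSet (E : Set (Sym2 V))).exists_isAcyclic_reachable_eq_le
  have hA : gr (E.filter (· ∈ F.edgeSet)) = F := by
    ext x y
    rw [gr_adj, Finset.mem_filter, SimpleGraph.mem_edgeSet]
    constructor
    · rintro ⟨⟨_, h⟩, _⟩
      exact h
    · intro h
      have := hF h
      rw [SimpleGraph.fromEdgeSet_adj] at this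
      exact ⟨⟨by exact_mod_cast this.1, h⟩, h.ne⟩
  refine ⟨E.filter (· ∈ F.edgeSet), ?_⟩
  unfold trees
  rw [Finset.mem_filter, Finset.mem_powerset]
  refine ⟨Finset.filter_subset _ _, Finset.filter_subset _ _, ?_, ?_⟩
  · rw [show SimpleGraph.fromEdgeSet ((E.filter (· ∈ F.edgeSet) : Finset (Sym2 V)) :
      Set (Sym2 V)) = F from hA]
    exact hac
  · intro x y hxy
    rw [show SimpleGraph.fromEdgeSet ((E.filter (· ∈ F.edgeSet) : Finset (Sym2 V)) :
      Set (Sym2 V)) = F from hA, hre]
    exact hxy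

namespace Kirch

lemma mem_trees {E A : Finset (Sym2 V)} : A ∈ trees E ↔
    A ⊆ E ∧ (gr A).IsAcyclic ∧ ∀ x y, rch E x y → rch A x y := by
  unfold trees
  rw [Finset.mem_filter, Finset.mem_powerset]
  exact ⟨fun h => h.2, fun h => ⟨h.1, h⟩⟩

/-- The number of bad neighbours. -/
lemma sum_bad {A : Finset (Sym2 V)} (hA : (gr A).IsAcyclic)
    {a x : V} (hax : rch A a x) {S : Finset V} (hS : ∀ y, s(x, y) ∈ A → y ∈ S) :
    ∑ y ∈ S, (if s(x, y) ∈ A ∧ ¬ rch (A.erase s(x, y)) a x then (1 : ℝ) else 0) =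
      if a = x then 0 else 1 := by
  by_cases h : a = x
  · subst h
    rw [if_pos rfl]
    refine Finset.sum_eq_zero fun y _ => ?_
    rw [if_neg]
    rintro ⟨_, h⟩
    exact h (SimpleGraph.Reachable.refl _)
  · rw [if_neg h]
    obtain ⟨y0, hy0, hxy0, hr⟩ := exists_nbr hax h
    rw [Finset.sum_eq_single y0]
    · rw [if_pos]
      refine ⟨hy0, fun h1 => ?_⟩
      refine not_rch_erase hA hxy0 hy0 ?_
      refine h1.symm.trans (rch_mono ?_ hr)
      intro e he
      rw [Finset.mem_filter] at he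
      rw [Finset.mem_erase]
      refine ⟨?_, he.1⟩
      rintro rfl
      exact he.2 (Sym2.mem_mk_left _ _)
    · intro y _ hy
      rw [if_neg]
      rintro ⟨hy1, h1⟩
      apply h1
      refine (rch_mono (B := A.erase s(x, y)) ?_ hr).trans (rch_of_mem ?_)
      · intro e he
        rw [Finset.mem_filter] at he
        rw [Finset.mem_erase]
        refine ⟨?_, he.1⟩
        rintro rfl
        exact he.2 (Sym2.mem_mk_left _ _)
      · rw [Finset.mem_erase, Sym2.eq_swap]
        refine ⟨?_, hy0⟩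
        intro h2
        rcases Sym2.eq_iff.1 h2 with h2 | h2
        · exact hy h2.2.symm
        · exact hxy0 h2.2.symm
    · intro h1
      exact absurd (hS y0 hy0) h1

/-- Indicator of reachability. -/
def ir (A : Finset (Sym2 V)) (a x : V) : ℝ := if rch A a x then 1 else 0

/-- The unit flow in the forest `A` from `a` to `b`. -/
def IA (A : Finset (Sym2 V)) (a b : V) (d : V × V) : ℝ :=
  if s(d.1, d.2) ∈ A then ir (A.erase s(d.1, d.2)) a d.1 - ir (A.erase s(d.1, d.2)) b d.1 else 0

/-- Dichotomy for the removal of an edge of a forest. -/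
lemma side {A : Finset (Sym2 V)} (hA : (gr A).IsAcyclic) {x y a : V} (hxy : x ≠ y)
    (h : s(x, y) ∈ A) : ir (A.erase s(x, y)) a x + ir (A.erase s(x, y)) a y = ir A a x := by
  have h0 := not_rch_erase hA hxy h
  unfold ir
  by_cases h1 : rch A a x
  · rw [if_pos h1]
    have h2 : rch (insert s(x, y) (A.erase s(x, y))) a x := by rwa [Finset.insert_erase h]
    by_cases h3 : rch (A.erase s(x, y)) a x
    · rw [if_pos h3, if_neg, add_zero]
      intro h4
      exact h0 (h3.symm.trans h4)
    · rw [if_neg h3, if_pos, zero_add]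
      rcases rch_insert h2 with h5 | h5 | h5
      · exact absurd h5 h3
      · exact absurd h5.1 h3
      · exact h5.1
  · rw [if_neg h1, if_neg, if_neg, add_zero]
    · intro h3
      apply h1
      exact (rch_mono (Finset.erase_subset _ _) h3).trans (rch_of_mem h).symm
    · intro h3
      exact h1 (rch_mono (Finset.erase_subset _ _) h3)

lemma ir_congr {A : Finset (Sym2 V)} {a b x : V} (h : rch A a b) : ir A a x = ir A b x := by
  unfold ir
  by_cases h1 : rch A a x
  · rw [if_pos h1, if_pos (h.symm.trans h1)]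
  · rw [if_neg h1, if_neg fun h2 => h1 (h.trans h2)]

lemma IA_antisymm {A : Finset (Sym2 V)} (hA : (gr A).IsAcyclic) (hd : ∀ e ∈ A, ¬ e.IsDiag)
    {a b : V} (hab : rch A a b) (x y : V) : IA A a b (y, x) = - IA A a b (x, y) := by
  unfold IA
  simp only
  rw [Sym2.eq_swap (a := y) (b := x)]
  by_cases h : s(x, y) ∈ A
  · have hxy : x ≠ y := by
      rintro rfl
      exact hd _ h (by simp)
    rw [if_pos h, if_pos h]
    have h1 := side hA (a := a) hxy h
    have h2 := side hA (a := b) hxy h
    rw [← ir_congr hab] at h2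
    linarith
  · rw [if_neg h, if_neg h, neg_zero]

lemma IA_div {A : Finset (Sym2 V)} (hA : (gr A).IsAcyclic)
    {a b : V} (hab : rch A a b) (x : V) {S : Finset V} (hS : ∀ y, s(x, y) ∈ A → y ∈ S) :
    ∑ y ∈ S, IA A a b (x, y) = (if a = x then 1 else 0) - (if b = x then 1 else 0) := by
  by_cases h : rch A a x
  · have h1 := sum_bad hA h hS
    have h2 := sum_bad hA (hab.symm.trans h) hS
    have h3 : ∑ y ∈ S, IA A a b (x, y) =
        ∑ y ∈ S, (if s(x, y) ∈ A ∧ ¬ rch (A.erase s(x, y)) b x then (1 : ℝ) else 0) -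
        ∑ y ∈ S, (if s(x, y) ∈ A ∧ ¬ rch (A.erase s(x, y)) a x then (1 : ℝ) else 0) := by
      rw [← Finset.sum_sub_distrib]
      refine Finset.sum_congr rfl fun y _ => ?_
      unfold IA ir
      simp only
      by_cases h4 : s(x, y) ∈ A
      · by_cases h5 : rch (A.erase s(x, y)) a x <;> by_cases h6 : rch (A.erase s(x, y)) b x <;>
          simp [h4, h5, h6]
      · simp [h4]
    rw [h3, h1, h2]
    split_ifs <;> norm_num
  · have h' : ¬ rch A b x := fun h1 => h (hab.trans h1)
    rw [if_neg, if_neg, sub_zero]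
    · refine Finset.sum_eq_zero fun y _ => ?_
      unfold IA ir
      simp only
      rw [if_neg (fun h1 => h (rch_mono (Finset.erase_subset _ _) h1)),
        if_neg (fun h1 => h' (rch_mono (Finset.erase_subset _ _) h1))]
      simp
    · rintro rfl
      exact h' (SimpleGraph.Reachable.refl _)
    · rintro rfl
      exact h (SimpleGraph.Reachable.refl _)

lemma IA_self {A : Finset (Sym2 V)} (hA : (gr A).IsAcyclic) {a b : V} (hab : a ≠ b) :
    IA A a b (a, b) = if s(a, b) ∈ A then 1 else 0 := by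
  unfold IA ir
  simp only
  by_cases h : s(a, b) ∈ A
  · rw [if_pos h, if_pos h, if_pos (SimpleGraph.Reachable.refl _), if_neg, sub_zero]
    intro h1
    exact not_rch_erase hA hab h h1.symm
  · rw [if_neg h, if_neg h]

/-- The total flow, not normalised. -/
def II (E : Finset (Sym2 V)) (h : Sym2 V → ℝ) (a b : V) (d : V × V) : ℝ :=
  ∑ A ∈ trees E, wgt h A * IA A a b d

/-- Two-component forests. -/
def NN (E : Finset (Sym2 V)) (a b : V) : Finset (Finset (Sym2 V)) :=
  E.powerset.filter fun F => ¬ rch F a b ∧ insert s(a, b) F ∈ trees E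

/-- The potential. -/
def Phi (E : Finset (Sym2 V)) (h : Sym2 V → ℝ) (a b v : V) : ℝ :=
  ∑ F ∈ NN E a b, wgt h F * ir F a v

lemma rch_insert_of {B : Finset (Sym2 V)} {x y a b : V} (hax : rch B a x) (hby : rch B b y)
    {u v : V} (h : rch (insert s(x, y) B) u v) : rch (insert s(a, b) B) u v := by
  have hB : B ⊆ insert s(a, b) B := Finset.subset_insert _ _
  have hab : rch (insert s(a, b) B) a b := rch_of_mem (Finset.mem_insert_self _ _)
  have hxy : rch (insert s(a, b) B) x y :=
    ((rch_mono hB hax).symm.trans hab).trans (rch_mono hB hby)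
  rcases rch_insert h with h | h | h
  · exact rch_mono hB h
  · exact ((rch_mono hB h.1).trans hxy).trans (rch_mono hB h.2)
  · exact ((rch_mono hB h.1).trans hxy.symm).trans (rch_mono hB h.2)

lemma insert_mem_trees {E B : Finset (Sym2 V)} {x y a b : V} (hax : rch B a x) (hby : rch B b y)
    (hnab : ¬ rch B a b) (hab : s(a, b) ∈ E) (h : insert s(x, y) B ∈ trees E) :
    insert s(a, b) B ∈ trees E := by
  rw [mem_trees] at h ⊢
  obtain ⟨h1, h2, h3⟩ := h
  have hB : B ⊆ E := (Finset.subset_insert _ _).trans h1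
  refine ⟨Finset.insert_subset hab hB, acyclic_insert (h2.anti (gr_mono (Finset.subset_insert _ _)))
    hnab, fun u v huv => rch_insert_of hax hby (h3 u v huv)⟩

lemma wgt_insert (h : Sym2 V → ℝ) {B : Finset (Sym2 V)} {e : Sym2 V} (he : e ∉ B) :
    wgt h (insert e B) = Real.exp (h e) * wgt h B := by
  unfold wgt
  rw [Finset.sum_insert he, Real.exp_add]

/-- The exchange bijection. -/
lemma exchange {E : Finset (Sym2 V)} (hE : ∀ e ∈ E, ¬ e.IsDiag) (h : Sym2 V → ℝ) {a b x y : V}
    (hab : s(a, b) ∈ E) (hxy : s(x, y) ∈ E) :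
    ∑ A ∈ trees E, (if s(x, y) ∈ A ∧ rch (A.erase s(x, y)) a x ∧ rch (A.erase s(x, y)) b y
      then wgt h A else 0) =
    Real.exp (h s(x, y)) * ∑ F ∈ NN E a b, (if rch F a x ∧ rch F b y then wgt h F else 0) := by
  have hne : x ≠ y := by
    rintro rfl
    exact hE _ hxy (by simp)
  have hne' : a ≠ b := by
    rintro rfl
    exact hE _ hab (by simp)
  rw [← Finset.sum_filter, ← Finset.sum_filter, Finset.mul_sum]
  refine Finset.sum_bij' (fun A _ => A.erase s(x, y)) (fun F _ => insert s(x, y) F) ?_ ?_ ?_ ?_ ?_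
  · intro A hA
    rw [Finset.mem_filter] at hA ⊢
    obtain ⟨hA, hm, hax, hby⟩ := hA
    have hA' := mem_trees.1 hA
    have hn : ¬ rch (A.erase s(x, y)) a b := by
      intro h1
      exact not_rch_erase hA'.2.1 hne hm ((hax.symm.trans h1).trans hby)
    refine ⟨?_, hax, hby⟩
    unfold NN
    rw [Finset.mem_filter, Finset.mem_powerset]
    refine ⟨(Finset.erase_subset _ _).trans hA'.1, hn, ?_⟩
    refine insert_mem_trees hax hby hn hab ?_
    rwa [Finset.insert_erase hm]
  · intro F hF
    unfold NN at hF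
    rw [Finset.mem_filter, Finset.mem_filter, Finset.mem_powerset] at hF
    obtain ⟨⟨hFE, hn, hT⟩, hax, hby⟩ := hF
    have hn' : ¬ rch F x y := fun h1 => hn ((hax.trans h1).trans hby.symm)
    have hnm : s(x, y) ∉ F := fun h1 => hn' (rch_of_mem h1)
    rw [Finset.mem_filter]
    refine ⟨insert_mem_trees hax.symm hby.symm hn' hxy hT, Finset.mem_insert_self _ _, ?_⟩
    rw [Finset.erase_insert hnm]
    exact ⟨hax, hby⟩
  · intro A hA
    rw [Finset.mem_filter] at hA
    exact Finset.insert_erase hA.2.1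
  · intro F hF
    unfold NN at hF
    rw [Finset.mem_filter, Finset.mem_filter, Finset.mem_powerset] at hF
    obtain ⟨⟨hFE, hn, hT⟩, hax, hby⟩ := hF
    have hn' : ¬ rch F x y := fun h1 => hn ((hax.trans h1).trans hby.symm)
    have hnm : s(x, y) ∉ F := fun h1 => hn' (rch_of_mem h1)
    exact Finset.erase_insert hnm
  · intro A hA
    rw [Finset.mem_filter] at hA
    conv_lhs => rw [← Finset.insert_erase hA.2.1]
    rw [wgt_insert h (Finset.notMem_erase _ _)]

/-- The cycle law. -/
lemma II_eq {E : Finset (Sym2 V)} (hE : ∀ e ∈ E, ¬ e.IsDiag) (h : Sym2 V → ℝ) {a b x y : V}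
    (hab : s(a, b) ∈ E) (hxy : s(x, y) ∈ E) :
    II E h a b (x, y) = Real.exp (h s(x, y)) * (Phi E h a b x - Phi E h a b y) := by
  have hne : x ≠ y := by
    rintro rfl
    exact hE _ hxy (by simp)
  have h1 := exchange hE h hab hxy
  have h2 := exchange hE h (a := a) (b := b) (x := y) (y := x) hab (by rwa [Sym2.eq_swap])
  rw [Sym2.eq_swap (a := y) (b := x)] at h2
  have h3 : II E h a b (x, y) = ∑ A ∈ trees E, (if s(x, y) ∈ A ∧ rch (A.erase s(x, y)) a x ∧
      rch (A.erase s(x, y)) b y then wgt h A else 0) -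
      ∑ A ∈ trees E, (if s(x, y) ∈ A ∧ rch (A.erase s(x, y)) a y ∧
      rch (A.erase s(x, y)) b x then wgt h A else 0) := by
    unfold II
    rw [← Finset.sum_sub_distrib]
    refine Finset.sum_congr rfl fun A hA => ?_
    have hA' := mem_trees.1 hA
    have hrab : rch A a b := hA'.2.2 a b (rch_of_mem hab)
    unfold IA
    simp only
    by_cases hm : s(x, y) ∈ A
    · rw [if_pos hm]
      have s1 := side hA'.2.1 (a := a) hne hm
      have s2 := side hA'.2.1 (a := b) hne hm
      rw [← ir_congr hrab] at s2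
      rw [← s1] at s2
      unfold ir at s2 ⊢
      by_cases c1 : rch (A.erase s(x, y)) a x <;> by_cases c2 : rch (A.erase s(x, y)) a y <;>
      by_cases c3 : rch (A.erase s(x, y)) b x <;> by_cases c4 : rch (A.erase s(x, y)) b y <;>
      simp only [hm, c1, c2, c3, c4, if_true, if_false, and_true, and_self, and_false] at s2 ⊢ <;>
      first | (exfalso; norm_num at s2; done) | norm_num
    · simp [hm]
  rw [h3, h1, h2, ← mul_sub]
  congr 1
  unfold Phi
  rw [← Finset.sum_sub_distrib, ← Finset.sum_sub_distrib]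
  refine Finset.sum_congr rfl fun F hF => ?_
  unfold NN at hF
  rw [Finset.mem_filter, Finset.mem_powerset] at hF
  obtain ⟨hFE, hn, hT⟩ := hF
  have hr : rch (insert s(a, b) F) x y := (mem_trees.1 hT).2.2 x y (rch_of_mem hxy)
  unfold ir
  rcases rch_insert hr with h4 | h4 | h4
  · have e1 : rch F a x ↔ rch F a y := ⟨fun h => h.trans h4, fun h => h.trans h4.symm⟩
    have n1 : ¬ (rch F a x ∧ rch F b y) := fun hh => hn ((hh.1.trans h4).trans hh.2.symm)
    have n2 : ¬ (rch F a y ∧ rch F b x) := fun hh => hn ((hh.1.trans h4.symm).trans hh.2.symm)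
    rw [if_neg n1, if_neg n2]
    by_cases c : rch F a x
    · rw [if_pos c, if_pos (e1.1 c)]
      ring
    · rw [if_neg c, if_neg (fun h => c (e1.2 h))]
      ring
  · have n2 : ¬ rch F a y := fun hh => hn (hh.trans h4.2.symm)
    rw [if_pos ⟨h4.1.symm, h4.2⟩, if_neg (fun hh => n2 hh.1), if_pos h4.1.symm, if_neg n2]
    ring
  · have n2 : ¬ rch F a x := fun hh => hn (hh.trans h4.1)
    rw [if_neg (fun hh => n2 hh.1), if_pos ⟨h4.2, h4.1.symm⟩, if_neg n2, if_pos h4.2]
    ring

/-! ### The Hilbert space part -/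

/-- A finitely supported function as an element of `ℓ²`. -/
def toL2 (f : V × V → ℝ) (hf : f.support.Finite) : L2 V :=
  ⟨f, (memℓp_zero_iff.2 hf).of_exponent_ge (by simp)⟩

@[simp] lemma toL2_apply (f : V × V → ℝ) (hf : f.support.Finite) (d : V × V) :
    toL2 f hf d = f d := rfl

/-- The flow `δ_ab - δ_ba`. -/
def dl (a b : V) (d : V × V) : ℝ := (if d = (a, b) then 1 else 0) - (if d = (b, a) then 1 else 0)

lemma eps_apply (a b : V) (d : V × V) : eps a b d = (√2)⁻¹ * dl a b d := by
  unfold eps dl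
  change (√2)⁻¹ * ((lp.single 2 (a, b) (1 : ℝ) : L2 V) d - (lp.single 2 (b, a) (1 : ℝ) : L2 V) d)
    = _
  simp only [lp.single_apply, Pi.single_apply]

lemma dl_support (a b : V) : (Function.support (dl a b)).Finite := by
  refine (Set.toFinite ({(a, b), (b, a)} : Set (V × V))).subset ?_
  intro d hd
  rw [Function.mem_support] at hd
  by_contra h
  apply hd
  unfold dl
  simp only [Set.mem_insert_iff, Set.mem_singleton_iff, not_or] at h
  rw [if_neg h.1, if_neg h.2, sub_zero]

lemma finite_pairs (E : Finset (Sym2 V)) : {d : V × V | s(d.1, d.2) ∈ E}.Finite := by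
  have h1 : (⋃ e ∈ E, {d : V × V | s(d.1, d.2) = e}).Finite := by
    refine Set.Finite.biUnion E.finite_toSet fun e _ => ?_
    induction e using Sym2.ind with
    | _ x y =>
      refine (Set.toFinite ({(x, y), (y, x)} : Set (V × V))).subset ?_
      rintro ⟨u, v⟩ h
      change s(u, v) = s(x, y) at h
      rcases Sym2.eq_iff.1 h with ⟨rfl, rfl⟩ | ⟨rfl, rfl⟩ <;> simp
  refine h1.subset ?_
  intro d hd
  simp only [Set.mem_iUnion]
  exact ⟨_, hd, rfl⟩

lemma II_zero {E : Finset (Sym2 V)} (h : Sym2 V → ℝ) (a b : V) {d : V × V}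
    (hd : s(d.1, d.2) ∉ E) : II E h a b d = 0 := by
  unfold II
  refine Finset.sum_eq_zero fun A hA => ?_
  unfold IA
  rw [if_neg fun h1 => hd ((mem_trees.1 hA).1 h1), mul_zero]

lemma II_support (E : Finset (Sym2 V)) (h : Sym2 V → ℝ) (a b : V) :
    (Function.support (II E h a b)).Finite := by
  refine (finite_pairs E).subset ?_
  intro d hd
  by_contra h1
  exact hd (II_zero h a b h1)

lemma II_antisymm {E : Finset (Sym2 V)} (hE : ∀ e ∈ E, ¬ e.IsDiag) (h : Sym2 V → ℝ) {a b : V}
    (hab : s(a, b) ∈ E) (x y : V) : II E h a b (y, x) = - II E h a b (x, y) := by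
  unfold II
  rw [← Finset.sum_neg_distrib]
  refine Finset.sum_congr rfl fun A hA => ?_
  have hA' := mem_trees.1 hA
  rw [IA_antisymm hA'.2.1 (fun e he => hE e (hA'.1 he)) (hA'.2.2 a b (rch_of_mem hab))]
  ring

/-- The partition function. -/
def ZZ (E : Finset (Sym2 V)) (h : Sym2 V → ℝ) : ℝ := ∑ A ∈ trees E, wgt h A

lemma ZZ_pos (E : Finset (Sym2 V)) (h : Sym2 V → ℝ) : 0 < ZZ E h :=
  Finset.sum_pos (fun _ _ => Real.exp_pos _) (trees_nonempty E)

lemma II_div {E : Finset (Sym2 V)} (h : Sym2 V → ℝ) {a b : V}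
    (hab : s(a, b) ∈ E) (x : V) {S : Finset V} (hS : ∀ y, s(x, y) ∈ E → y ∈ S) :
    ∑ y ∈ S, II E h a b (x, y) = ZZ E h * ((if a = x then 1 else 0) - (if b = x then 1 else 0)) := by
  unfold II ZZ
  rw [Finset.sum_comm, Finset.sum_mul]
  refine Finset.sum_congr rfl fun A hA => ?_
  have hA' := mem_trees.1 hA
  rw [← Finset.mul_sum, IA_div hA'.2.1 (hA'.2.2 a b (rch_of_mem hab)) x
    (fun y hy => hS y (hA'.1 hy))]

lemma II_self {E : Finset (Sym2 V)} (h : Sym2 V → ℝ) {a b : V}
    (hab : a ≠ b) : II E h a b (a, b) = ∑ A ∈ (trees E).filter (fun A => s(a, b) ∈ A), wgt h A := by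
  unfold II
  rw [Finset.sum_filter]
  refine Finset.sum_congr rfl fun A hA => ?_
  rw [IA_self (mem_trees.1 hA).2.1 hab]
  split_ifs <;> simp

/-- The residual flow. -/
lemma isFlow_resid {E : Finset (Sym2 V)} (hE : ∀ e ∈ E, ¬ e.IsDiag) (h : Sym2 V → ℝ) {a b : V}
    (hab : s(a, b) ∈ E) (hne : a ≠ b) :
    IsFlow (gr E) (fun d => dl a b d - II E h a b d / ZZ E h) := by
  have hfin : (Function.support (fun d => dl a b d - II E h a b d / ZZ E h)).Finite := by
    refine ((dl_support a b).union (II_support E h a b)).subset ?_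
    intro d hd
    by_contra h1
    rw [Set.mem_union, not_or, Function.notMem_support, Function.notMem_support] at h1
    exact hd (by simp only [h1.1, h1.2]; simp)
  refine ⟨hfin, ?_, ?_, ?_⟩
  · intro x y
    simp only
    rw [II_antisymm hE h hab]
    have : dl a b (y, x) = - dl a b (x, y) := by
      unfold dl
      simp only [Prod.mk.injEq]
      by_cases h1 : x = a ∧ y = b <;> by_cases h2 : x = b ∧ y = a
      · exact absurd (h1.1.symm.trans h2.1) hne
      · rw [if_neg (fun h3 => h2 ⟨h3.2, h3.1⟩), if_pos ⟨h1.2, h1.1⟩, if_pos h1, if_neg h2]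
        ring
      · rw [if_pos ⟨h2.2, h2.1⟩, if_neg (fun h3 => h1 ⟨h3.2, h3.1⟩), if_neg h1, if_pos h2]
        ring
      · rw [if_neg (fun h3 => h2 ⟨h3.2, h3.1⟩), if_neg (fun h3 => h1 ⟨h3.2, h3.1⟩), if_neg h1,
          if_neg h2]
        ring
    rw [this]
    ring
  · intro x y hxy
    have hnE : s(x, y) ∉ E := by
      intro h1
      apply hxy
      rw [gr_adj]
      refine ⟨h1, ?_⟩
      rintro rfl
      exact hE _ h1 (by simp)
    simp only
    rw [II_zero h a b (d := (x, y)) hnE]
    have : dl a b (x, y) = 0 := by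
      unfold dl
      simp only [Prod.mk.injEq]
      rw [if_neg, if_neg, sub_zero]
      · rintro ⟨rfl, rfl⟩
        exact hnE (by rwa [Sym2.eq_swap])
      · rintro ⟨rfl, rfl⟩
        exact hnE hab
    rw [this]
    simp
  · intro x
    obtain ⟨S, hS⟩ : ∃ S : Finset V, (∀ y, s(x, y) ∈ E → y ∈ S) ∧ a ∈ S ∧ b ∈ S := by
      have h1 : ((fun d : V × V => d.2) '' {d : V × V | s(d.1, d.2) ∈ E}).Finite :=
        (finite_pairs E).image _
      refine ⟨h1.toFinset ∪ {a, b}, ?_, by simp, by simp⟩
      intro y hy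
      rw [Finset.mem_union, Set.Finite.mem_toFinset]
      exact Or.inl ⟨(x, y), hy, rfl⟩
    rw [finsum_eq_sum_of_support_subset (s := S)]
    · rw [Finset.sum_sub_distrib, ← Finset.sum_div, II_div h hab x hS.1,
        mul_div_cancel_left₀ _ (ZZ_pos E h).ne', sub_eq_zero]
      unfold dl
      rw [Finset.sum_sub_distrib]
      congr 1
      · by_cases hx : a = x
        · subst hx
          rw [if_pos rfl, Finset.sum_eq_single b]
          · simp
          · intro y _ hy
            simp [hy]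
          · intro h1
            exact absurd hS.2.2 h1
        · rw [if_neg hx]
          refine Finset.sum_eq_zero fun y _ => ?_
          rw [if_neg]
          intro h1
          simp only [Prod.mk.injEq] at h1
          exact hx h1.1.symm
      · by_cases hx : b = x
        · subst hx
          rw [if_pos rfl, Finset.sum_eq_single a]
          · simp
          · intro y _ hy
            simp [hy]
          · intro h1
            exact absurd hS.2.1 h1
        · rw [if_neg hx]
          refine Finset.sum_eq_zero fun y _ => ?_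
          rw [if_neg]
          intro h1
          simp only [Prod.mk.injEq] at h1
          exact hx h1.1.symm
    · intro y hy
      rw [Function.mem_support] at hy
      by_contra h1
      apply hy
      have h2 : s(x, y) ∉ E := fun h2 => h1 (hS.1 y h2)
      change dl a b (x, y) - II E h a b (x, y) / ZZ E h = 0
      rw [II_zero h a b (d := (x, y)) h2]
      unfold dl
      simp only [Prod.mk.injEq]
      rw [if_neg, if_neg]
      · simp
      · rintro ⟨_, rfl⟩
        exact h1 hS.2.1
      · rintro ⟨_, rfl⟩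
        exact h1 hS.2.2

/-- Summation by parts. -/
lemma tsum_grad_flow {G : SimpleGraph V} {θ : V × V → ℝ} (hθ : IsFlow G θ) (φ : V → ℝ) :
    ∑' d : V × V, (φ d.1 - φ d.2) * θ d = 0 := by
  have h1 : ((fun d : V × V => d.1) '' θ.support).Finite := hθ.1.image _
  have h2 : ((fun d : V × V => d.2) '' θ.support).Finite := hθ.1.image _
  set S : Finset V := h1.toFinset ∪ h2.toFinset with hS
  have hS1 : ∀ d : V × V, θ d ≠ 0 → d.1 ∈ S ∧ d.2 ∈ S := by
    intro d hd
    rw [hS, Finset.mem_union, Finset.mem_union, Set.Finite.mem_toFinset, Set.Finite.mem_toFinset,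
      Set.Finite.mem_toFinset, Set.Finite.mem_toFinset]
    exact ⟨Or.inl ⟨d, hd, rfl⟩, Or.inr ⟨d, hd, rfl⟩⟩
  have h3 : ∀ x, ∑ y ∈ S, θ (x, y) = 0 := by
    intro x
    rw [← hθ.2.2.2 x, finsum_eq_sum_of_support_subset]
    intro y hy
    exact (hS1 (x, y) hy).2
  have h4 : ∀ y, ∑ x ∈ S, θ (x, y) = 0 := by
    intro y
    have : ∑ x ∈ S, θ (x, y) = - ∑ x ∈ S, θ (y, x) := by
      rw [← Finset.sum_neg_distrib]
      exact Finset.sum_congr rfl fun x _ => hθ.2.1 y x
    rw [this, h3 y, neg_zero]
  rw [tsum_eq_sum (s := S ×ˢ S)]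
  · rw [Finset.sum_product]
    have : ∀ x ∈ S, ∑ y ∈ S, (φ x - φ y) * θ (x, y) = φ x * ∑ y ∈ S, θ (x, y) -
        ∑ y ∈ S, φ y * θ (x, y) := by
      intro x _
      rw [Finset.mul_sum, ← Finset.sum_sub_distrib]
      exact Finset.sum_congr rfl fun y _ => by ring
    rw [Finset.sum_congr rfl this, Finset.sum_sub_distrib, Finset.sum_comm]
    simp only [h3, mul_zero, Finset.sum_const_zero, zero_sub, neg_eq_zero]
    refine Finset.sum_eq_zero fun y _ => ?_
    rw [← Finset.mul_sum, h4 y, mul_zero]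
  · intro d hd
    by_cases h5 : θ d = 0
    · rw [h5, mul_zero]
    · exact absurd (Finset.mem_product.2 (hS1 d h5)) hd

end Kirch

theorem kirchhoff {E : Finset (Sym2 V)} (hE : ∀ e ∈ E, ¬ e.IsDiag) (h : Sym2 V → ℝ) {a b : V}
    (hab : s(a, b) ∈ E) :
    ∑ A ∈ (trees E).filter (fun A => s(a, b) ∈ A), wgt h A =
      mm (SimpleGraph.fromEdgeSet (E : Set (Sym2 V))) h a b * ∑ A ∈ trees E, wgt h A := by
  have hne : a ≠ b := by
    rintro rfl
    exact hE _ hab (by simp)
  have hZ := ZZ_pos E h
  have hs2 : (0 : ℝ) < √2 := by positivity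
  have hs22 : √2 * √2 = (2 : ℝ) := Real.mul_self_sqrt (by norm_num)
  -- the vector p
  set c : ℝ := Real.exp (h s(a, b) / 2) with hc
  set p : L2 V := toL2 (fun d => (√2)⁻¹ * c * Real.exp (-(h s(d.1, d.2)) / 2) *
    (II E h a b d / ZZ E h)) (by
      refine (II_support E h a b).subset ?_
      intro d hd
      rw [Function.mem_support] at hd ⊢
      intro h1
      apply hd
      rw [h1]
      simp) with hp
  have hmem : eps a b - p ∈ U (gr E) h := by
    refine ⟨((√2)⁻¹ * c) • (fun d => dl a b d - II E h a b d / ZZ E h),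
      (isFlow_resid hE h hab hne).smul _, ?_⟩
    intro d
    rw [lp.coeFn_sub, Pi.sub_apply, eps_apply, hp, toL2_apply]
    simp only [Pi.smul_apply, smul_eq_mul]
    have h1 : dl a b d = Real.exp (-(h s(d.1, d.2)) / 2) * c * dl a b d := by
      by_cases hd : dl a b d = 0
      · rw [hd, mul_zero]
      · have h2 : s(d.1, d.2) = s(a, b) := by
          by_contra h3
          apply hd
          unfold dl
          rw [if_neg, if_neg, sub_zero]
          · rintro rfl
            exact h3 Sym2.eq_swap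
          · rintro rfl
            exact h3 rfl
        rw [h2, hc, ← Real.exp_add, neg_div, neg_add_cancel, Real.exp_zero, one_mul]
    have h2 : (√2)⁻¹ * dl a b d = (√2)⁻¹ * (Real.exp (-(h s(d.1, d.2)) / 2) * c * dl a b d) := by
      rw [← h1]
    rw [h2]
    ring
  have horth : ∀ u ∈ U (gr E) h, inner ℝ p u = 0 := by
    rintro u ⟨θ, hθ, hu⟩
    rw [lp.inner_eq_tsum]
    have h1 : ∀ d : V × V, inner ℝ (p d) (u d) = ((√2)⁻¹ * c / ZZ E h) *
        ((Phi E h a b d.1 - Phi E h a b d.2) * θ d) := by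
      intro d
      rw [hu d, hp, toL2_apply]
      simp only [RCLike.inner_apply, conj_trivial]
      by_cases hd : s(d.1, d.2) ∈ E
      · have h2 := II_eq hE h hab (x := d.1) (y := d.2) hd
        rw [Prod.mk.eta] at h2
        rw [h2]
        have h3 : Real.exp (-(h s(d.1, d.2)) / 2) * Real.exp (-(h s(d.1, d.2)) / 2) *
            Real.exp (h s(d.1, d.2)) = 1 := by
          rw [← Real.exp_add, ← Real.exp_add]
          convert Real.exp_zero using 2
          ring
        calc _ = (Real.exp (-(h s(d.1, d.2)) / 2) * Real.exp (-(h s(d.1, d.2)) / 2) *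
            Real.exp (h s(d.1, d.2))) * (((√2)⁻¹ * c / ZZ E h) *
            ((Phi E h a b d.1 - Phi E h a b d.2) * θ d)) := by ring
          _ = _ := by rw [h3, one_mul]
      · have h2 : θ d = 0 := by
          refine hθ.2.2.1 d.1 d.2 ?_
          rw [gr_adj]
          exact fun h3 => hd h3.1
        rw [h2]
        ring
    simp_rw [h1]
    rw [tsum_mul_left, tsum_grad_flow hθ, mul_zero]
  have hR : R (gr E) h (eps a b) = eps a b - p := by
    unfold R
    refine (Submodule.eq_starProjection_of_mem_orthogonal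
      (Submodule.le_topologicalClosure _ hmem) ?_)
    rw [Submodule.orthogonal_closure, sub_sub_cancel, Submodule.mem_orthogonal]
    intro u hu
    rw [real_inner_comm]
    exact horth u hu
  have hin : ∀ f : L2 V, inner ℝ (eps a b) f = (√2)⁻¹ * (f (a, b) - f (b, a)) := by
    intro f
    unfold eps
    rw [inner_smul_left, inner_sub_left, lp.inner_single_left, lp.inner_single_left]
    simp
  have heps : inner ℝ (eps a b) (eps a b) = (1 : ℝ) := by
    rw [hin, eps_apply, eps_apply]
    have h1 : dl a b (a, b) = 1 := by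
      unfold dl
      rw [if_pos rfl, if_neg, sub_zero]
      intro h1
      exact hne (Prod.mk.inj h1).1
    have h2 : dl a b (b, a) = -1 := by
      unfold dl
      rw [if_pos rfl, if_neg, zero_sub]
      intro h1
      exact hne (Prod.mk.inj h1).2
    rw [h1, h2]
    field_simp
    nlinarith
  have hepsp : inner ℝ (eps a b) p = II E h a b (a, b) / ZZ E h := by
    rw [hin, hp, toL2_apply, toL2_apply]
    simp only
    rw [Sym2.eq_swap (a := b) (b := a), II_antisymm hE h hab a b]
    have h3 : c * Real.exp (-(h s(a, b)) / 2) = 1 := by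
      rw [hc, ← Real.exp_add, neg_div, add_neg_cancel, Real.exp_zero]
    calc _ = (√2)⁻¹ * (√2)⁻¹ * 2 * (c * Real.exp (-(h s(a, b)) / 2)) *
        (II E h a b (a, b) / ZZ E h) := by ring
      _ = _ := by
        rw [h3]
        have : (√2)⁻¹ * (√2)⁻¹ * 2 = (1 : ℝ) := by
          field_simp
          nlinarith
        rw [this]
        ring
  have hmm : mm (gr E) h a b = II E h a b (a, b) / ZZ E h := by
    unfold mm
    rw [hR, ← real_inner_self_eq_norm_sq]
    have h1 : inner ℝ p (eps a b - p) = (0 : ℝ) := horth _ hmem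
    rw [inner_sub_left, inner_sub_right, heps, h1, hepsp]
    ring
  change _ = mm (gr E) h a b * ZZ E h
  rw [hmm, div_mul_cancel₀ _ hZ.ne', II_self h hne]

end

end Vale.Agent.Fusf
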