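import Mathlib

/-!
# The free uniform spanning forest and factors of IID: definitions used in the statement

* `IsExhaustion G H` : `H 0 ⊆ H 1 ⊆ ...` are finite connected subgraphs with union `G`
* `spanningTrees H` : edge sets of the spanning trees of `H`
* `ust H` : the uniform spanning tree, a uniformly random element of `spanningTrees H`
* `IsFUSF G μ` : `μ` is the law of the free uniform spanning forest of `G`, i.e. the weak limit
  of the uniform spanning trees of every exhaustion (convergence of all cylinder probabilities)
* `iidLabels V` : the law of i.i.d. uniform labels in the unit interval on the vertices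
* `IsGroupFactorOfIID μ` : factor of IID with respect to the left multiplication of a group
* `IsUnimodular P` : `P` is the law of a unimodular random rooted graph, represented on the
  vertex set `ℕ` (infinite, connected, locally finite graphs, mass transport principle)
* `FUSFIsGraphFactorOfIID P` : the free uniform spanning forest is a graph factor of IID
-/

open MeasureTheory Filter Topology
open scoped ENNReal

namespace Vale.Agent.Fusf

variable {V : Type*}

/-- An exhaustion of the graph `G` by finite connected subgraphs. -/
structure IsExhaustion (G : SimpleGraph V) (H : ℕ → G.Subgraph) : Prop where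
  mono : Monotone H
  finite : ∀ n, (H n).verts.Finite
  connected : ∀ n, (H n).Connected
  verts : ∀ v, ∃ n, v ∈ (H n).verts
  adj : ∀ v w, G.Adj v w → ∃ n, (H n).Adj v w

/-- The edge sets of the spanning trees of the subgraph `H`. -/
def spanningTrees {G : SimpleGraph V} (H : G.Subgraph) : Set (Set (Sym2 V)) :=
  {A | ∃ T : G.Subgraph, T ≤ H ∧ T.verts = H.verts ∧ T.coe.IsTree ∧ T.edgeSet = A}

/-- The uniform spanning tree of the subgraph `H`. -/
noncomputable def ust {G : SimpleGraph V} (H : G.Subgraph) : Measure (Set (Sym2 V)) :=
  ProbabilityTheory.uniformOn (spanningTrees H)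

/-- `μ` is the law of the free uniform spanning forest of `G`: the graph `G` has an exhaustion,
and for every exhaustion the uniform spanning trees converge weakly to `μ`. -/
structure IsFUSF (G : SimpleGraph V) (μ : Measure (Set (Sym2 V))) : Prop where
  isProb : IsProbabilityMeasure μ
  exists_exhaustion : ∃ H : ℕ → G.Subgraph, IsExhaustion G H
  tendsto : ∀ H : ℕ → G.Subgraph, IsExhaustion G H → ∀ S A : Finset (Sym2 V),
    Tendsto (fun n => ust (H n) {x | ∀ e ∈ S, (e ∈ x ↔ e ∈ A)}) atTop
      (𝓝 (μ {x | ∀ e ∈ S, (e ∈ x ↔ e ∈ A)}))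

/-- The law of i.i.d. uniform labels on `V`. -/
noncomputable def iidLabels (V : Type*) : Measure (V → unitInterval) :=
  Measure.infinitePi (fun _ => (volume : Measure unitInterval))

/-- `μ` is the law of a factor of IID of the group acting by left multiplication. -/
def IsGroupFactorOfIID {Γ : Type*} [Group Γ] (μ : Measure (Set (Sym2 Γ))) : Prop :=
  ∃ Φ : (Γ → unitInterval) → Set (Sym2 Γ), Measurable Φ ∧
    (∀ (γ : Γ) (U : Γ → unitInterval),
      Φ (fun g => U (γ⁻¹ * g)) = Sym2.map (fun g => γ * g) '' Φ U) ∧
    (iidLabels Γ).map Φ = μ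

/-- `P` is the law of a unimodular random rooted graph, represented on the vertex set `ℕ`. -/
structure IsUnimodular (P : Measure (SimpleGraph ℕ × ℕ)) : Prop where
  isProb : IsProbabilityMeasure P
  connected : ∀ᵐ p ∂P, p.1.Connected
  locallyFinite : ∀ᵐ p ∂P, ∀ v, (p.1.neighborSet v).Finite
  massTransport : ∀ f : SimpleGraph ℕ × ℕ × ℕ → ℝ≥0∞, Measurable f →
    (∀ (g : Equiv.Perm ℕ) (G : SimpleGraph ℕ) (u v : ℕ), f (G.map g, g u, g v) = f (G, u, v)) →
    ∫⁻ p, ∑' v, f (p.1, p.2, v) ∂P = ∫⁻ p, ∑' v, f (p.1, v, p.2) ∂P

/-- The free uniform spanning forest is a graph factor of IID: there is a measurable function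
of the graph and of the vertex labels, invariant under isomorphisms, whose value at i.i.d.
labels has the law of the free uniform spanning forest, for almost every graph. -/
def FUSFIsGraphFactorOfIID (P : Measure (SimpleGraph ℕ × ℕ)) : Prop :=
  ∃ Φ : SimpleGraph ℕ × (ℕ → unitInterval) → Set (Sym2 ℕ), Measurable Φ ∧
    (∀ (g : Equiv.Perm ℕ) (G : SimpleGraph ℕ) (U : ℕ → unitInterval),
      Φ (G.map g, fun v => U (g.symm v)) = Sym2.map g '' Φ (G, U)) ∧
    ∀ᵐ p ∂P, IsFUSF p.1 ((iidLabels ℕ).map fun U => Φ (p.1, U))

end Vale.Agent.Fusf
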