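import Vale.Agent.Lib.P143.Defs
import Vale.Agent.Lib.P143.Statement
import Vale.Agent.Lib.P143.Kirchhoff

/-!
# Module FINAL, part 1: from the limit along finite edge sets to exhaustions by subgraphs
-/

open MeasureTheory Filter Topology
open scoped ENNReal Classical

namespace Vale.Agent.Fusf

noncomputable section

variable {V : Type*}

section Subgraphs

variable {G : SimpleGraph V}

theorem fromEdgeSet_subgraph (K : G.Subgraph) :
    SimpleGraph.fromEdgeSet K.edgeSet = K.spanningCoe := by
  ext x y
  rw [SimpleGraph.fromEdgeSet_adj, SimpleGraph.Subgraph.mem_edgeSet,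
    SimpleGraph.Subgraph.spanningCoe_adj]
  exact ⟨fun h => h.1, fun h => ⟨h, h.ne⟩⟩

theorem support_subset (K : G.Subgraph) {x y : V} (w : K.spanningCoe.Walk x y)
    (hx : x ∈ K.verts) : ∀ z ∈ w.support, z ∈ K.verts := by
  induction w with
  | nil => intro z hz; simp only [SimpleGraph.Walk.support_nil, List.mem_singleton] at hz
           rw [hz]; exact hx
  | cons h w ih =>
    intro z hz
    rw [SimpleGraph.Walk.support_cons, List.mem_cons] at hz
    rcases hz with rfl | hz
    · exact hx
    · exact ih (K.edge_vert (SimpleGraph.Adj.symm h)) z hz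

theorem induce_verts (K : G.Subgraph) : K.spanningCoe.induce K.verts = K.coe := rfl

theorem reach_spanningCoe (K : G.Subgraph) {x y : V} (hx : x ∈ K.verts) (hy : y ∈ K.verts) :
    K.spanningCoe.Reachable x y ↔ K.coe.Reachable ⟨x, hx⟩ ⟨y, hy⟩ := by
  constructor
  · rintro ⟨w⟩
    exact ⟨w.induce K.verts (support_subset K w hx)⟩
  · intro h
    exact h.map K.coeEmbeddingSpanningCoe.toHom

theorem isAcyclic_spanningCoe (K : G.Subgraph) :
    K.spanningCoe.IsAcyclic ↔ K.coe.IsAcyclic := by
  constructor
  · intro h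
    exact h.embedding K.coeEmbeddingSpanningCoe
  · intro h v c hc
    have hv : v ∈ K.verts := by
      cases c with
      | nil => exact absurd hc SimpleGraph.Walk.not_isCycle_nil
      | cons h _ => exact K.edge_vert h
    have h1 := support_subset K c hv
    have h2 : (c.induce K.verts h1).IsCycle := by
      rw [← SimpleGraph.Walk.isCycle_map_iff_of_injective
        (f := (SimpleGraph.Embedding.induce (G := K.spanningCoe) K.verts).toHom)
        (SimpleGraph.Embedding.induce (G := K.spanningCoe) K.verts).injective,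
        SimpleGraph.Walk.map_induce]
      exact hc
    exact h _ h2

theorem mem_verts_of_reachable (K : G.Subgraph) {x y : V} (h : K.spanningCoe.Reachable x y)
    (hxy : x ≠ y) : x ∈ K.verts := by
  obtain ⟨w⟩ := h
  cases w with
  | nil => exact absurd rfl hxy
  | cons h _ => exact K.edge_vert h

theorem finite_edgeSet {H : G.Subgraph} (hH : H.verts.Finite) : H.edgeSet.Finite := by
  have : H.edgeSet ⊆ (fun p : V × V => s(p.1, p.2)) '' (H.verts ×ˢ H.verts) := by
    intro e he
    induction e using Sym2.ind with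
    | _ a b =>
      rw [SimpleGraph.Subgraph.mem_edgeSet] at he
      exact ⟨(a, b), ⟨H.edge_vert he, H.edge_vert he.symm⟩, rfl⟩
  exact ((hH.prod hH).image _).subset this

theorem spanningTrees_eq {H : G.Subgraph} (hc : H.Connected) {E : Finset (Sym2 V)}
    (hE : (E : Set (Sym2 V)) = H.edgeSet) :
    spanningTrees H = (((trees E).image (fun T : Finset (Sym2 V) => (T : Set (Sym2 V))) :
      Finset (Set (Sym2 V))) : Set (Set (Sym2 V))) := by
  have hHE : SimpleGraph.fromEdgeSet (E : Set (Sym2 V)) = H.spanningCoe := by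
    rw [hE, fromEdgeSet_subgraph]
  ext A
  simp only [Finset.coe_image, Set.mem_image, Finset.mem_coe]
  constructor
  · rintro ⟨T, hTH, hTv, hT, rfl⟩
    have hsub : T.edgeSet ⊆ (E : Set (Sym2 V)) := by
      rw [hE]; exact SimpleGraph.Subgraph.edgeSet_mono hTH
    have hfin : T.edgeSet.Finite := E.finite_toSet.subset hsub
    refine ⟨hfin.toFinset, ?_, hfin.coe_toFinset⟩
    rw [trees, Finset.mem_filter, Finset.mem_powerset]
    have h1 : hfin.toFinset ⊆ E := by
      rw [← Finset.coe_subset, hfin.coe_toFinset]; exact hsub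
    refine ⟨h1, h1, ?_, ?_⟩
    · rw [hfin.coe_toFinset, fromEdgeSet_subgraph, isAcyclic_spanningCoe]
      exact hT.isAcyclic
    · intro x y hxy
      rw [hHE] at hxy
      rw [hfin.coe_toFinset, fromEdgeSet_subgraph]
      by_cases hne : x = y
      · rw [hne]
      · have hx := mem_verts_of_reachable H hxy hne
        have hy := mem_verts_of_reachable H hxy.symm (Ne.symm hne)
        rw [← hTv] at hx hy
        rw [reach_spanningCoe T hx hy]
        exact hT.connected.preconnected _ _
  · rintro ⟨A, hA, rfl⟩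
    rw [trees, Finset.mem_filter, Finset.mem_powerset] at hA
    obtain ⟨-, hAE, hac, hre⟩ := hA
    have hAH : ∀ {x y : V}, s(x, y) ∈ A → H.Adj x y := by
      intro x y h
      have : s(x, y) ∈ (E : Set (Sym2 V)) := hAE h
      rwa [hE, SimpleGraph.Subgraph.mem_edgeSet] at this
    let T : G.Subgraph :=
      { verts := H.verts
        Adj := fun x y => s(x, y) ∈ A
        adj_sub := fun h => H.adj_sub (hAH h)
        edge_vert := fun h => H.edge_vert (hAH h)
        symm := ⟨fun x y h => by rwa [Sym2.eq_swap]⟩ }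
    have hTA : T.edgeSet = (A : Set (Sym2 V)) := by
      ext e
      induction e using Sym2.ind with
      | _ a b => rw [SimpleGraph.Subgraph.mem_edgeSet]; rfl
    have hTA' : SimpleGraph.fromEdgeSet (A : Set (Sym2 V)) = T.spanningCoe := by
      rw [← hTA, fromEdgeSet_subgraph]
    refine ⟨T, ⟨le_rfl, fun x y h => hAH h⟩, rfl, ⟨?_, ?_⟩, hTA⟩
    · have hne : Nonempty T.verts := hc.nonempty.to_subtype
      refine ⟨?_⟩
      rintro ⟨x, hx⟩ ⟨y, hy⟩
      rw [← reach_spanningCoe T hx hy, ← hTA']
      apply hre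
      rw [hHE, reach_spanningCoe H hx hy]
      exact hc.coe.preconnected _ _
    · rw [← isAcyclic_spanningCoe, ← hTA']
      exact hac

end Subgraphs

theorem ust_apply [Countable V] {G : SimpleGraph V} {H : G.Subgraph} (hc : H.Connected)
    {E : Finset (Sym2 V)} (hE : (E : Set (Sym2 V)) = H.edgeSet) (S A : Finset (Sym2 V)) :
    ust H {x | ∀ e ∈ S, (e ∈ x ↔ e ∈ A)} =
      ENNReal.ofReal ((((trees E).filter fun T => ∀ e ∈ S, (e ∈ T ↔ e ∈ A)).card : ℝ) /
        ((trees E).card : ℝ)) := by
  have hinj : Function.Injective (fun T : Finset (Sym2 V) => (T : Set (Sym2 V))) :=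
    Finset.coe_injective
  have hpos : (0 : ℝ) < ((trees E).card : ℝ) :=
    Nat.cast_pos.2 (Finset.card_pos.2 (trees_nonempty E))
  have hinter : (((trees E).image (fun T : Finset (Sym2 V) => (T : Set (Sym2 V))) :
      Finset (Set (Sym2 V))) : Set (Set (Sym2 V))) ∩ {x | ∀ e ∈ S, (e ∈ x ↔ e ∈ A)} =
      (((((trees E).filter fun T => ∀ e ∈ S, (e ∈ T ↔ e ∈ A))).image
        (fun T : Finset (Sym2 V) => (T : Set (Sym2 V))) :
        Finset (Set (Sym2 V))) : Set (Set (Sym2 V))) := by
    ext x
    simp only [Finset.coe_image, Set.mem_inter_iff, Set.mem_image, Finset.mem_coe,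
      Set.mem_ofPred_eq, Finset.mem_filter]
    constructor
    · rintro ⟨⟨T, hT, rfl⟩, h⟩
      exact ⟨T, ⟨hT, h⟩, rfl⟩
    · rintro ⟨T, ⟨hT, h⟩, rfl⟩
      exact ⟨⟨T, hT, rfl⟩, h⟩
  unfold ust ProbabilityTheory.uniformOn
  rw [spanningTrees_eq hc hE, ProbabilityTheory.cond_apply (Finset.measurableSet _), hinter,
    Measure.count_apply_finset, Measure.count_apply_finset, Finset.card_image_of_injective _ hinj,
    Finset.card_image_of_injective _ hinj, ENNReal.ofReal_div_of_pos hpos,
    ENNReal.ofReal_natCast, ENNReal.ofReal_natCast, ENNReal.div_eq_inv_mul]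

theorem tendsto_ust [Countable V] {G : SimpleGraph V} {μ : Measure (Set (Sym2 V))}
    (hμ : IsForestLaw G μ) (H : ℕ → G.Subgraph) (hH : IsExhaustion G H) (S A : Finset (Sym2 V)) :
    Tendsto (fun n => ust (H n) {x | ∀ e ∈ S, (e ∈ x ↔ e ∈ A)}) atTop
      (𝓝 (μ {x | ∀ e ∈ S, (e ∈ x ↔ e ∈ A)})) := by
  have := hμ.prob
  have hfin : ∀ n, (H n).edgeSet.Finite := fun n => finite_edgeSet (hH.finite n)
  have h1 := hμ.conv (fun n => (hfin n).toFinset) (fun m n hmn => by
      rw [Set.Finite.toFinset_subset_toFinset]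
      exact SimpleGraph.Subgraph.edgeSet_mono (hH.mono hmn)) (fun n => by
      rw [(hfin n).coe_toFinset]; exact (H n).edgeSet_subset) (fun e he => by
      induction e using Sym2.ind with
      | _ a b =>
        obtain ⟨n, hn⟩ := hH.adj a b he
        exact ⟨n, (hfin n).mem_toFinset.2 hn⟩) S A
  have h2 := (ENNReal.continuous_ofReal.tendsto _).comp h1
  rw [ofReal_measureReal] at h2
  refine h2.congr fun n => ?_
  exact (ust_apply (hH.connected n) (hfin n).coe_toFinset S A).symm

/-- A connected graph with countably many vertices has an exhaustion. -/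
theorem exists_isExhaustion [Countable V] {G : SimpleGraph V} (hG : G.Connected) :
    ∃ H : ℕ → G.Subgraph, IsExhaustion G H := by
  have := hG.nonempty
  obtain ⟨f, hf⟩ := exists_surjective_nat V
  let p : ∀ n, G.Walk (f 0) (f n) := fun n => (hG.preconnected (f 0) (f n)).some
  let s : ℕ → Set V := fun n => ⋃ k ∈ Finset.range (n + 1), {v | v ∈ (p k).support}
  have hs0 : ∀ n, f 0 ∈ s n := fun n => by
    simp only [s, Set.mem_iUnion]
    exact ⟨0, by simp, (p 0).start_mem_support⟩
  have hmono : Monotone s := fun m n hmn => by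
    refine Set.biUnion_subset_biUnion_left fun k hk => ?_
    simp only [Finset.mem_range, Finset.mem_coe] at hk ⊢
    omega
  have hmem : ∀ n, f n ∈ s n := fun n => by
    simp only [s, Set.mem_iUnion]
    exact ⟨n, by simp, (p n).end_mem_support⟩
  refine ⟨fun n => (⊤ : G.Subgraph).induce (s n), ⟨?_, ?_, ?_, ?_, ?_⟩⟩
  · intro m n hmn
    exact SimpleGraph.Subgraph.induce_mono_right (hmono hmn)
  · intro n
    refine Set.Finite.biUnion (Finset.finite_toSet _) fun k _ => ?_
    exact List.finite_toSet _
  · intro n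
    rw [← SimpleGraph.connected_induce_iff]
    refine SimpleGraph.induce_connected_of_patches (f 0) (hs0 n) ?_
    intro v hv
    simp only [s, Set.mem_iUnion] at hv
    obtain ⟨k, hk, hv⟩ := hv
    refine ⟨{v | v ∈ (p k).support}, ?_, (p k).start_mem_support, hv,
      (p k).connected_induce_support.preconnected _ _⟩
    exact Set.subset_biUnion_of_mem (u := fun k => {v | v ∈ (p k).support}) hk
  · intro v
    obtain ⟨n, rfl⟩ := hf v
    exact ⟨n, hmem n⟩
  · intro v w hvw
    obtain ⟨m, rfl⟩ := hf v
    obtain ⟨n, rfl⟩ := hf w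
    refine ⟨max m n, ?_⟩
    exact ⟨hmono (le_max_left m n) (hmem m), hmono (le_max_right m n) (hmem n), hvw⟩

theorem isFUSF_of_isForestLaw [Countable V] {G : SimpleGraph V} (hG : G.Connected)
    {μ : Measure (Set (Sym2 V))} (hμ : IsForestLaw G μ) : IsFUSF G μ :=
  ⟨hμ.prob, exists_isExhaustion hG, tendsto_ust hμ⟩

end

end Vale.Agent.Fusf
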