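import Mathlib
import Vale.Agent.Lib.P143.Defs
import Vale.Agent.Lib.P143.Proj
import Vale.Agent.Lib.P143.AlgInt

/-!
# Module INNOV, part 1: iterated integrals, the field, the posterior identity
-/

open MeasureTheory Filter Topology
open scoped ENNReal unitInterval Classical

namespace Vale.Agent.Fusf.Inn

noncomputable section

/-! ### Iterated integrals -/

section Marginal

variable {J : Type*} [DecidableEq J]

/-- factors depending on a coordinate outside `S` can be pulled out -/
theorem lmarginal_mul_of_notMem {X : J → Type*} [∀ i, MeasurableSpace (X i)]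
    {μ : ∀ i, Measure (X i)} {S : Finset J} {i : J} (hi : i ∉ S) (g : X i → ℝ≥0∞)
    {F : (∀ i, X i) → ℝ≥0∞} (hF : Measurable F) (x : ∀ i, X i) :
    lmarginal μ S (fun y => g (y i) * F y) x = g (x i) * lmarginal μ S F x := by
  unfold lmarginal
  have h := lintegral_const_mul (μ := Measure.pi fun i : S => μ i) (g (x i))
    (f := fun y => F (Function.updateFinset x S y)) (hF.comp measurable_updateFinset)
  rw [← h]
  refine lintegral_congr fun y => ?_
  have : Function.updateFinset x S y i = x i := by
    simp [Function.updateFinset, hi]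
  change g (Function.updateFinset x S y i) * F (Function.updateFinset x S y) = _
  rw [this]

/-- if the integrand depends only on the coordinates in `S`, so does nothing -/
theorem lmarginal_eq_of_dep {X : J → Type*} [∀ i, MeasurableSpace (X i)]
    {μ : ∀ i, Measure (X i)} {S : Finset J} {F : (∀ i, X i) → ℝ≥0∞}
    (hF : ∀ x y : ∀ i, X i, (∀ i ∈ S, x i = y i) → F x = F y) (x y : ∀ i, X i) :
    lmarginal μ S F x = lmarginal μ S F y := by
  unfold lmarginal
  refine lintegral_congr fun z => hF _ _ fun i hi => ?_
  simp [Function.updateFinset, hi]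

theorem measurable_QQ_left (a m : ℝ) : Measurable (fun u : ℝ => QQ a u m) := by
  unfold QQ
  fun_prop

theorem lmarginal_QQ {a τ : J → ℝ} (ha : ∀ i, 0 ≤ a i) (ha' : ∀ i, a i ≤ 1 / 2)
    (hτ : ∀ i, τ i ∈ Set.Icc (-1 : ℝ) 1) {H : (J → ℝ) → ℝ≥0∞} (hH : Measurable H)
    (S : Finset J) (w : J → I) :
    lmarginal (fun _ => (volume : Measure I)) S
        (fun w : J → I => H (fun i => QQ (a i) (w i) (τ i))) w =
      lmarginal (fun _ => (volume : Measure ℝ).restrict (Set.Icc (-1) 1)) S
        (fun y => H y * ∏ i ∈ S, ENNReal.ofReal ((1 + a i * τ i * y i) / 2))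
        (fun i => QQ (a i) (w i) (τ i)) := by
  have hQ : Measurable (fun (w : J → I) (i : J) => QQ (a i) (w i) (τ i)) := by
    refine measurable_pi_lambda _ fun i => ?_
    exact (measurable_QQ_left _ _).comp (measurable_subtype_coe.comp (measurable_pi_apply i))
  have hprod : ∀ S : Finset J, Measurable (fun y : J → ℝ =>
      ∏ i ∈ S, ENNReal.ofReal ((1 + a i * τ i * y i) / 2)) := by
    intro S
    refine Finset.measurable_prod _ fun i _ => ?_
    fun_prop
  induction S using Finset.induction generalizing w with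
  | empty => simp
  | insert i S hi ih =>
    rw [lmarginal_insert (fun w : J → I => H (fun i => QQ (a i) (w i) (τ i))) (hH.comp hQ) hi,
      lmarginal_insert (fun y : J → ℝ => H y * ∏ j ∈ insert i S,
        ENNReal.ofReal ((1 + a j * τ j * y j) / 2)) (hH.mul (hprod _)) hi]
    simp_rw [ih]
    have h1 : ∀ z : I, (fun j => QQ (a j) (Function.update w i z j) (τ j))
        = Function.update (fun j => QQ (a j) (w j) (τ j)) i (QQ (a i) z (τ i)) := by
      intro z
      ext j
      by_cases hj : j = i
      · subst hj; simp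
      · simp [Function.update_of_ne hj]
    simp_rw [h1]
    set K : ℝ → ℝ≥0∞ := fun c => lmarginal (fun _ => (volume : Measure ℝ).restrict (Set.Icc (-1) 1))
      S (fun y => H y * ∏ i ∈ S, ENNReal.ofReal ((1 + a i * τ i * y i) / 2))
      (Function.update (fun j => QQ (a j) (w j) (τ j)) i c) with hK
    have hKm : Measurable K :=
      ((hH.mul (hprod S)).lmarginal _).comp (measurable_update _)
    have h2 := lintegral_QQ (ha i) (ha' i) (hτ i) K hKm
    rw [h2]
    refine lintegral_congr fun c => ?_
    have h3 : (fun y : J → ℝ => H y * ∏ j ∈ insert i S, ENNReal.ofReal ((1 + a j * τ j * y j) / 2))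
        = fun y => ENNReal.ofReal ((1 + a i * τ i * y i) / 2) *
          (H y * ∏ j ∈ S, ENNReal.ofReal ((1 + a j * τ j * y j) / 2)) := by
      ext y
      rw [Finset.prod_insert hi]
      ring
    rw [h3, lmarginal_mul_of_notMem hi (fun c => ENNReal.ofReal ((1 + a i * τ i * c) / 2))
      (F := fun y => H y * ∏ j ∈ S, ENNReal.ofReal ((1 + a j * τ j * y j) / 2))
      (hH.mul (hprod S)), Function.update_self, mul_comm]

end Marginal

variable {V : Type*}

/-! ### The field and the past -/

/-- ring `j` is in the past of ring `i` -/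
def past (t : Lab V) (j i : Sym2 V × ℕ) : Prop := j.2 < i.2 ∨ (j.2 = i.2 ∧ t j < t i)

/-- truncation to a set of rings -/
def trunc (S : Finset (Sym2 V × ℕ)) (y : Sym2 V × ℕ → ℝ) : Sym2 V × ℕ → ℝ :=
  fun i => if i ∈ S then y i else 0

theorem str_nonneg (G : SimpleGraph V) (t : Lab V) (e : Sym2 V) (k : ℕ) : 0 ≤ str G t e k := by
  unfold str; split_ifs <;> norm_num

theorem str_le (G : SimpleGraph V) (t : Lab V) (e : Sym2 V) (k : ℕ) : str G t e k ≤ 1 / 2 := by
  unfold str; split_ifs <;> norm_num

theorem fld_congr_past (G : SimpleGraph V) (t : Lab V) {y y' : Sym2 V × ℕ → ℝ}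
    {i : Sym2 V × ℕ} (h : ∀ j, past t j i → y j = y' j) :
    fld G t y i.2 (t i) = fld G t y' i.2 (t i) := by
  ext e
  unfold fld
  congr 1
  · refine Finset.sum_congr rfl fun l hl => ?_
    rw [h (e, l) (Or.inl (Finset.mem_range.1 hl))]
  · by_cases hlt : (t (e, i.2) : ℝ) < t i
    · rw [if_pos hlt, if_pos hlt, h (e, i.2) (Or.inr ⟨rfl, hlt⟩)]
    · rw [if_neg hlt, if_neg hlt]

theorem postM_congr_past (G : SimpleGraph V) (t : Lab V) {y y' : Sym2 V × ℕ → ℝ}
    {i : Sym2 V × ℕ} (h : ∀ j, past t j i → y j = y' j) :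
    postM G t y i = postM G t y' i := by
  unfold postM
  rw [fld_congr_past G t h]

theorem measurable_gg (a : ℝ) : Measurable (gg a) := by
  unfold gg
  fun_prop

theorem measurable_fld_y (G : SimpleGraph V) (t : Lab V) (k : ℕ) (r : ℝ) :
    Measurable (fun y : Sym2 V × ℕ → ℝ => fld G t y k r) := by
  refine measurable_pi_lambda _ fun e => ?_
  unfold fld
  refine Measurable.add ?_ ?_
  · exact Finset.measurable_sum _ fun l _ => (measurable_gg _).comp (measurable_pi_apply _)
  · split_ifs
    · exact (measurable_gg _).comp (measurable_pi_apply _)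
    · exact measurable_const

theorem measurable_mm_h [Countable V] (G : SimpleGraph V) (a b : V) :
    Measurable (fun h : Sym2 V → ℝ => mm G h a b) := by
  have h1 : Measurable (fun h : Sym2 V → ℝ => (G, h)) := measurable_prodMk_left
  have h2 := Measurable.comp (measurable_mm (V := V) a b) h1
  exact h2

theorem measurable_mmE [Countable V] (G : SimpleGraph V) (e : Sym2 V) :
    Measurable (fun h : Sym2 V → ℝ => mmE G h e) := by
  induction e using Sym2.ind with
  | _ a b => exact measurable_mm_h G a b

theorem mmE_nonneg (G : SimpleGraph V) (h : Sym2 V → ℝ) (e : Sym2 V) : 0 ≤ mmE G h e := by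
  induction e using Sym2.ind with
  | _ a b => exact mm_nonneg G h a b

theorem mmE_le_one (G : SimpleGraph V) (h : Sym2 V → ℝ) (e : Sym2 V) : mmE G h e ≤ 1 := by
  induction e using Sym2.ind with
  | _ a b => exact mm_le_one G h a b

theorem measurable_postM_y [Countable V] (G : SimpleGraph V) (t : Lab V) (i : Sym2 V × ℕ) :
    Measurable (fun y : Sym2 V × ℕ → ℝ => postM G t y i) := by
  unfold postM
  exact (((measurable_mmE G i.1).comp (measurable_fld_y G t i.2 (t i))).const_mul 2).sub_const 1

theorem postM_mem (G : SimpleGraph V) (t : Lab V) (y : Sym2 V × ℕ → ℝ) (i : Sym2 V × ℕ) :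
    postM G t y i ∈ Set.Icc (-1 : ℝ) 1 := by
  unfold postM
  have h1 := mmE_nonneg G (fld G t y i.2 (t i)) i.1
  have h2 := mmE_le_one G (fld G t y i.2 (t i)) i.1
  constructor <;> linarith

theorem measurable_trunc (S : Finset (Sym2 V × ℕ)) : Measurable (trunc (V := V) S) := by
  refine measurable_pi_lambda _ fun i => ?_
  unfold trunc
  split_ifs
  · exact measurable_pi_apply i
  · exact measurable_const

end

end Vale.Agent.Fusf.Inn
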