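import Mathlib
import Vale.Agent.Lib.P143.Defs
import Vale.Agent.Lib.P143.Proj
import Vale.Agent.Lib.P143.Innov1

/-!
# Module INNOV, part 2: the posterior identity
-/

open MeasureTheory Filter Topology
open scoped ENNReal unitInterval Classical

namespace Vale.Agent.Fusf.Inn

noncomputable section

variable {V : Type*}

/-- the spin of an edge -/
def spin (x : Set (Sym2 V)) (e : Sym2 V) : ℝ := if e ∈ x then 1 else -1

theorem spin_mem (x : Set (Sym2 V)) (e : Sym2 V) : spin x e ∈ Set.Icc (-1 : ℝ) 1 := by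
  unfold spin; split_ifs <;> constructor <;> norm_num

theorem measurable_spin (e : Sym2 V) : Measurable (fun x : Set (Sym2 V) => spin x e) :=
  Measurable.ite (measurableSet_mem e) measurable_const measurable_const

/-- density of the observations given the forest -/
def dens (G : SimpleGraph V) (t : Lab V) (S : Finset (Sym2 V × ℕ)) (z : Sym2 V × ℕ → ℝ)
    (x : Set (Sym2 V)) : ℝ≥0∞ :=
  ∏ j ∈ S, ENNReal.ofReal ((1 + str G t j.1 j.2 * spin x j.1 * z j) / 2)

theorem measurable_dens (G : SimpleGraph V) (t : Lab V) (S : Finset (Sym2 V × ℕ)) :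
    Measurable (fun p : (Sym2 V × ℕ → ℝ) × Set (Sym2 V) => dens G t S p.1 p.2) := by
  unfold dens
  refine Finset.measurable_prod _ fun j _ => ENNReal.measurable_ofReal.comp ?_
  have h1 : Measurable (fun p : (Sym2 V × ℕ → ℝ) × Set (Sym2 V) => spin p.2 j.1) :=
    (measurable_spin j.1).comp measurable_snd
  have h2 : Measurable (fun p : (Sym2 V × ℕ → ℝ) × Set (Sym2 V) => p.1 j) :=
    (measurable_pi_apply j).comp measurable_fst
  exact (((h1.const_mul _).mul h2).const_add 1).div_const 2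

theorem factor_eq {a z : ℝ} (ha : 0 ≤ a) (ha' : a ≤ 1 / 2) (hz : z ∈ Set.Icc (-1 : ℝ) 1)
    (x : Set (Sym2 V)) (e : Sym2 V) :
    (1 + a * spin x e * z) / 2
      = ((1 - a * z) / 2) * Real.exp (if e ∈ x then gg a z else 0) := by
  have h1 : |a * z| ≤ 1 / 2 := by
    rw [abs_mul, abs_of_nonneg ha]
    have : |z| ≤ 1 := abs_le.2 hz
    nlinarith [abs_nonneg z]
  rw [abs_le] at h1
  unfold spin
  by_cases he : e ∈ x
  · rw [if_pos he, if_pos he]
    unfold gg
    rw [Real.exp_log (div_pos (by linarith) (by linarith))]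
    have : (1 - a * z) ≠ 0 := by linarith
    field_simp
  · rw [if_neg he, if_neg he, Real.exp_zero]
    ring

theorem gg_zero_right (a : ℝ) : gg a 0 = 0 := by
  unfold gg; simp

/-- the field as a sum over the rings of `S` -/
theorem fld_eq_sum (G : SimpleGraph V) (t : Lab V) {S : Finset (Sym2 V × ℕ)} {i : Sym2 V × ℕ}
    (hpast : ∀ j ∈ S, past t j i) {z : Sym2 V × ℕ → ℝ} (hz0 : ∀ j, j ∉ S → z j = 0)
    (e : Sym2 V) :
    fld G t z i.2 (t i) e = ∑ j ∈ S with j.1 = e, gg (str G t j.1 j.2) (z j) := by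
  have h1 : fld G t z i.2 (t i) e
      = ∑ l ∈ Finset.range (i.2 + 1), gg (str G t e l) (z (e, l)) := by
    unfold fld
    rw [Finset.sum_range_succ]
    congr 1
    by_cases hlt : (t (e, i.2) : ℝ) < t i
    · rw [if_pos hlt]
    · rw [if_neg hlt]
      have : (e, i.2) ∉ S := by
        intro hS
        rcases hpast _ hS with h | ⟨_, h⟩
        · exact lt_irrefl _ h
        · exact hlt h
      rw [hz0 _ this, gg_zero_right]
  have h2 : ∑ l ∈ Finset.range (i.2 + 1), gg (str G t e l) (z (e, l))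
      = ∑ l ∈ (Finset.range (i.2 + 1)).filter (fun l => (e, l) ∈ S),
        gg (str G t e l) (z (e, l)) := by
    symm
    refine Finset.sum_subset (Finset.filter_subset _ _) fun l hl hl' => ?_
    have : (e, l) ∉ S := fun h => hl' (Finset.mem_filter.2 ⟨hl, h⟩)
    rw [hz0 _ this, gg_zero_right]
  rw [h1, h2]
  refine Finset.sum_nbij' (fun l => (e, l)) (fun j => j.2) ?_ ?_ ?_ ?_ ?_
  · intro l hl
    rw [Finset.mem_filter] at hl ⊢
    exact ⟨hl.2, rfl⟩
  · rintro ⟨e', l⟩ hj
    rw [Finset.mem_filter] at hj ⊢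
    obtain ⟨hj1, hj2⟩ := hj
    simp only at hj2
    subst hj2
    refine ⟨?_, hj1⟩
    rw [Finset.mem_range]
    rcases hpast _ hj1 with h | ⟨h, _⟩
    · simp only at h ⊢; omega
    · simp only at h ⊢; omega
  · intro l _
    rfl
  · rintro ⟨e', l⟩ hj
    rw [Finset.mem_filter] at hj
    simp only at hj ⊢
    rw [hj.2]
  · intro l _
    rfl

theorem dens_eq (G : SimpleGraph V) (t : Lab V) {S : Finset (Sym2 V × ℕ)} {i : Sym2 V × ℕ}
    (hpast : ∀ j ∈ S, past t j i) {z : Sym2 V × ℕ → ℝ}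
    (hz : ∀ j ∈ S, z j ∈ Set.Icc (-1 : ℝ) 1) (hz0 : ∀ j, j ∉ S → z j = 0) (x : Set (Sym2 V)) :
    dens G t S z x = ENNReal.ofReal (∏ j ∈ S, ((1 - str G t j.1 j.2 * z j) / 2)) *
      ENNReal.ofReal (tilt (S.image Prod.fst) (fld G t z i.2 (t i)) x) := by
  have hpos : ∀ j ∈ S, 0 ≤ (1 - str G t j.1 j.2 * z j) / 2 := by
    intro j hj
    have h1 : |str G t j.1 j.2 * z j| ≤ 1 / 2 := by
      rw [abs_mul, abs_of_nonneg (str_nonneg G t j.1 j.2)]
      have h2 : |z j| ≤ 1 := abs_le.2 (hz j hj)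
      have h3 := str_le G t j.1 j.2
      nlinarith [abs_nonneg (z j), str_nonneg G t j.1 j.2]
    rw [abs_le] at h1
    linarith
  unfold dens
  rw [← ENNReal.ofReal_mul (Finset.prod_nonneg hpos), ← ENNReal.ofReal_prod_of_nonneg]
  · congr 1
    rw [Finset.prod_congr rfl fun j hj => factor_eq (str_nonneg G t j.1 j.2) (str_le G t j.1 j.2)
      (hz j hj) x j.1, Finset.prod_mul_distrib, ← Real.exp_sum]
    congr 1
    unfold tilt
    congr 1
    rw [← Finset.sum_fiberwise_of_maps_to (g := Prod.fst) (t := S.image Prod.fst)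
      (fun j hj => Finset.mem_image_of_mem _ hj)]
    refine Finset.sum_congr rfl fun e _ => ?_
    rw [fld_eq_sum G t hpast hz0 e]
    by_cases he : e ∈ x
    · rw [if_pos he]
      refine Finset.sum_congr rfl fun j hj => ?_
      rw [Finset.mem_filter] at hj
      rw [hj.2, if_pos he]
    · rw [if_neg he]
      refine Finset.sum_eq_zero fun j hj => ?_
      rw [Finset.mem_filter] at hj
      rw [hj.2, if_neg he]
  · intro j hj
    rw [factor_eq (str_nonneg G t j.1 j.2) (str_le G t j.1 j.2) (hz j hj) x j.1]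
    exact mul_nonneg (hpos j hj) (Real.exp_pos _).le

theorem measurable_tilt (S : Finset (Sym2 V)) (h : Sym2 V → ℝ) : Measurable (tilt S h) := by
  unfold tilt
  refine Real.measurable_exp.comp (Finset.measurable_sum _ fun e _ => ?_)
  exact Measurable.ite (measurableSet_mem e) measurable_const measurable_const

theorem integrable_tilt (S : Finset (Sym2 V)) (h : Sym2 V → ℝ) (μ : Measure (Set (Sym2 V)))
    [IsFiniteMeasure μ] : Integrable (tilt S h) μ := by
  refine Integrable.of_bound (measurable_tilt S h).aestronglyMeasurable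
    (Real.exp (∑ e ∈ S, |h e|)) (Eventually.of_forall fun x => ?_)
  unfold tilt
  rw [Real.norm_eq_abs, abs_of_pos (Real.exp_pos _)]
  apply Real.exp_le_exp.2
  refine Finset.sum_le_sum fun e _ => ?_
  split_ifs
  · exact le_abs_self _
  · exact abs_nonneg _

/-- Posterior probability of an edge given earlier observations. -/
theorem posterior {G : SimpleGraph V} {μ : Measure (Set (Sym2 V))} (hμ : IsForestLaw G μ)
    (t : Lab V) {S : Finset (Sym2 V × ℕ)} {i : Sym2 V × ℕ}
    (hpast : ∀ j ∈ S, past t j i) (hi : i.1 ∈ G.edgeSet) {z : Sym2 V × ℕ → ℝ}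
    (hz : ∀ j ∈ S, z j ∈ Set.Icc (-1 : ℝ) 1) (hz0 : ∀ j, j ∉ S → z j = 0) :
    ∫⁻ x, (if i.1 ∈ x then dens G t S z x else 0) ∂μ =
      ENNReal.ofReal (mmE G (fld G t z i.2 (t i)) i.1) * ∫⁻ x, dens G t S z x ∂μ := by
  have := hμ.prob
  set h := fld G t z i.2 (t i) with hh
  set SE := S.image Prod.fst with hSE
  set c := ENNReal.ofReal (∏ j ∈ S, ((1 - str G t j.1 j.2 * z j) / 2)) with hc
  have hd : ∀ x, dens G t S z x = c * ENNReal.ofReal (tilt SE h x) :=
    fun x => dens_eq G t hpast hz hz0 x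
  have htp : ∀ x, 0 ≤ tilt SE h x := fun x => (Real.exp_pos _).le
  have hh0 : ∀ e, e ∉ SE → h e = 0 := by
    intro e he
    rw [hh, fld_eq_sum G t hpast hz0 e]
    refine Finset.sum_eq_zero fun j hj => ?_
    rw [Finset.mem_filter] at hj
    exact absurd (hj.2 ▸ Finset.mem_image_of_mem Prod.fst hj.1) he
  obtain ⟨⟨a, b⟩, hab⟩ : ∃ p : V × V, s(p.1, p.2) = i.1 := ⟨(Quot.out i.1), Quot.out_eq _⟩
  have hadj : G.Adj a b := by
    rw [← SimpleGraph.mem_edgeSet]
    rw [← hab] at hi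
    exact hi
  have key := hμ.tilt_eq SE h hh0 a b hadj
  have hint := integrable_tilt SE h μ
  have hmi : Measurable (fun x : Set (Sym2 V) => if i.1 ∈ x then tilt SE h x else 0) :=
    Measurable.ite (measurableSet_mem _) (measurable_tilt SE h) measurable_const
  have hint' : Integrable (fun x => if i.1 ∈ x then tilt SE h x else 0) μ := by
    refine hint.mono hmi.aestronglyMeasurable (Eventually.of_forall fun x => ?_)
    split_ifs
    · exact le_rfl
    · simp
  have e1 : ∫⁻ x, (if i.1 ∈ x then dens G t S z x else 0) ∂μ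
      = c * ENNReal.ofReal (∫ x, (if i.1 ∈ x then tilt SE h x else 0) ∂μ) := by
    rw [ofReal_integral_eq_lintegral_ofReal hint'
      (Eventually.of_forall fun x => by
        change (0 : ℝ) ≤ if i.1 ∈ x then tilt SE h x else 0
        split_ifs
        · exact htp x
        · exact le_rfl), ← lintegral_const_mul]
    · refine lintegral_congr fun x => ?_
      split_ifs
      · exact hd x
      · simp
    · exact ENNReal.measurable_ofReal.comp hmi
  have e2 : ∫⁻ x, dens G t S z x ∂μ = c * ENNReal.ofReal (∫ x, tilt SE h x ∂μ) := by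
    rw [ofReal_integral_eq_lintegral_ofReal hint (Eventually.of_forall htp),
      ← lintegral_const_mul]
    · exact lintegral_congr hd
    · exact ENNReal.measurable_ofReal.comp (measurable_tilt SE h)
  have e3 : ∫ x, (if i.1 ∈ x then tilt SE h x else 0) ∂μ
      = mmE G h i.1 * ∫ x, tilt SE h x ∂μ := by
    rw [← hab]
    exact key
  rw [e1, e2, e3, ENNReal.ofReal_mul (mmE_nonneg G h i.1)]
  ring

theorem measurable_dens_x (G : SimpleGraph V) (t : Lab V) (S : Finset (Sym2 V × ℕ))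
    (z : Sym2 V × ℕ → ℝ) : Measurable (fun x : Set (Sym2 V) => dens G t S z x) := by
  unfold dens
  refine Finset.measurable_prod _ fun j _ => ENNReal.measurable_ofReal.comp ?_
  exact ((((measurable_spin j.1).const_mul _).mul_const _).const_add 1).div_const 2

theorem dens_le_one (G : SimpleGraph V) (t : Lab V) {S : Finset (Sym2 V × ℕ)}
    {z : Sym2 V × ℕ → ℝ} (hz : ∀ j ∈ S, z j ∈ Set.Icc (-1 : ℝ) 1) (x : Set (Sym2 V)) :
    dens G t S z x ≤ 1 := by
  unfold dens
  refine Finset.prod_le_one' fun j hj => ?_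
  apply ENNReal.ofReal_le_one.2
  have h3 : |str G t j.1 j.2 * spin x j.1 * z j| ≤ 1 := by
    rw [abs_mul, abs_mul, abs_of_nonneg (str_nonneg G t j.1 j.2)]
    have h4 : |z j| ≤ 1 := abs_le.2 (hz j hj)
    have h5 := str_le G t j.1 j.2
    have h6 : |spin x j.1| ≤ 1 := abs_le.2 (spin_mem x j.1)
    have h7 : str G t j.1 j.2 * |spin x j.1| ≤ 1 := by
      nlinarith [abs_nonneg (spin x j.1), str_nonneg G t j.1 j.2]
    have h8 : 0 ≤ str G t j.1 j.2 * |spin x j.1| :=
      mul_nonneg (str_nonneg G t j.1 j.2) (abs_nonneg _)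
    nlinarith [abs_nonneg (z j)]
  rw [abs_le] at h3
  linarith

/-- splitting an integral according to `e ∈ x` and subtracting -/
theorem split_integral {μ : Measure (Set (Sym2 V))} (e : Sym2 V) {D : Set (Sym2 V) → ℝ≥0∞}
    (hD : Measurable D) {m : ℝ} (hm0 : 0 ≤ m) (hm1 : m ≤ 1) (hfin : ∫⁻ x, D x ∂μ ≠ ⊤)
    (h1 : ∫⁻ x, (if e ∈ x then D x else 0) ∂μ = ENNReal.ofReal m * ∫⁻ x, D x ∂μ) :
    ∫⁻ x, (if e ∈ x then 0 else D x) ∂μ = ENNReal.ofReal (1 - m) * ∫⁻ x, D x ∂μ := by
  have h2 : ∫⁻ x, D x ∂μ = ∫⁻ x, (if e ∈ x then D x else 0) ∂μ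
      + ∫⁻ x, (if e ∈ x then 0 else D x) ∂μ := by
    rw [← lintegral_add_left]
    · refine lintegral_congr fun x => ?_
      split_ifs <;> simp
    · exact Measurable.ite (measurableSet_mem _) hD measurable_const
  have h3 : ENNReal.ofReal m * ∫⁻ x, D x ∂μ
      + ENNReal.ofReal (1 - m) * ∫⁻ x, D x ∂μ = ∫⁻ x, D x ∂μ := by
    rw [← add_mul, ← ENNReal.ofReal_add hm0 (by linarith)]
    simp
  rw [h1] at h2
  have h4 := h3.trans h2
  have hfin' : ENNReal.ofReal m * ∫⁻ x, D x ∂μ ≠ ⊤ :=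
    ENNReal.mul_ne_top ENNReal.ofReal_ne_top hfin
  exact ((ENNReal.add_right_inj hfin').1 h4).symm

theorem posterior' {G : SimpleGraph V} {μ : Measure (Set (Sym2 V))} (hμ : IsForestLaw G μ)
    (t : Lab V) {S : Finset (Sym2 V × ℕ)} {i : Sym2 V × ℕ}
    (hpast : ∀ j ∈ S, past t j i) (hi : i.1 ∈ G.edgeSet) {z : Sym2 V × ℕ → ℝ}
    (hz : ∀ j ∈ S, z j ∈ Set.Icc (-1 : ℝ) 1) (hz0 : ∀ j, j ∉ S → z j = 0) :
    ∫⁻ x, (if i.1 ∈ x then 0 else dens G t S z x) ∂μ =
      ENNReal.ofReal (1 - mmE G (fld G t z i.2 (t i)) i.1) * ∫⁻ x, dens G t S z x ∂μ := by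
  have := hμ.prob
  refine split_integral i.1 (measurable_dens_x G t S z) (mmE_nonneg _ _ _) (mmE_le_one _ _ _) ?_
    (posterior hμ t hpast hi hz hz0)
  have : ∫⁻ x, dens G t S z x ∂μ ≤ ∫⁻ _x, 1 ∂μ :=
    lintegral_mono fun x => dens_le_one G t hz x
  rw [lintegral_one, measure_univ] at this
  exact (this.trans_lt ENNReal.one_lt_top).ne

end

end Vale.Agent.Fusf.Inn
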