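import Mathlib
import Vale.Agent.Lib.P143.Defs
import Vale.Agent.Lib.P143.Proj
import Vale.Agent.Lib.P143.Innov2

/-!
# Module INNOV, part 3: finitely many rings
-/

open MeasureTheory Filter Topology
open scoped ENNReal unitInterval Classical

namespace Vale.Agent.Fusf.Inn

noncomputable section

variable {V : Type*}

/-- Lebesgue measure on `[-1, 1]` -/
abbrev nu : Measure ℝ := (volume : Measure ℝ).restrict (Set.Icc (-1) 1)

/-- extension by zero -/
def upz (S : Finset (Sym2 V × ℕ)) (z : S → ℝ) : Sym2 V × ℕ → ℝ :=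
  Function.updateFinset (fun _ => (0 : ℝ)) S z

theorem measurable_upz (S : Finset (Sym2 V × ℕ)) : Measurable (upz S) :=
  measurable_updateFinset

theorem upz_of_mem {S : Finset (Sym2 V × ℕ)} (z : S → ℝ) {i : Sym2 V × ℕ} (hi : i ∈ S) :
    upz S z i = z ⟨i, hi⟩ := by
  simp [upz, Function.updateFinset, hi]

theorem upz_of_notMem {S : Finset (Sym2 V × ℕ)} (z : S → ℝ) {i : Sym2 V × ℕ} (hi : i ∉ S) :
    upz S z i = 0 := by
  simp [upz, Function.updateFinset, hi]

theorem yTrue_eq (G : SimpleGraph V) (x : Set (Sym2 V)) (t w : Lab V) :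
    yTrue G x t w = fun i => QQ (str G t i.1 i.2) (w i) (spin x i.1) := rfl

theorem measurable_yTrue_w (G : SimpleGraph V) (x : Set (Sym2 V)) (t : Lab V) :
    Measurable (fun w : Lab V => yTrue G x t w) := by
  refine measurable_pi_lambda _ fun i => ?_
  exact (measurable_QQ_left _ _).comp (measurable_subtype_coe.comp (measurable_pi_apply i))

theorem I_eq (G : SimpleGraph V) (t : Lab V) (S : Finset (Sym2 V × ℕ)) (x : Set (Sym2 V))
    {H : (Sym2 V × ℕ → ℝ) → ℝ≥0∞} (hH : Measurable H) (w0 : Lab V) :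
    lmarginal (fun _ => (volume : Measure I)) S (fun w : Lab V => H (trunc S (yTrue G x t w))) w0
      = ∫⁻ z : (S → ℝ), H (upz S z) * dens G t S (upz S z) x ∂(Measure.pi fun _ : S => nu) := by
  have h1 := lmarginal_QQ (a := fun i : Sym2 V × ℕ => str G t i.1 i.2)
    (τ := fun i => spin x i.1) (fun i => str_nonneg G t i.1 i.2) (fun i => str_le G t i.1 i.2)
    (fun i => spin_mem x i.1) (H := fun y => H (trunc S y)) (hH.comp (measurable_trunc S)) S w0
  have h2 : (fun w : Lab V => H (trunc S (yTrue G x t w)))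
      = fun w : Lab V => H (trunc S fun i => QQ (str G t i.1 i.2) (w i) (spin x i.1)) := rfl
  rw [h2]
  refine h1.trans ?_
  unfold lmarginal
  refine lintegral_congr fun z => ?_
  have h3 : ∀ base : Sym2 V × ℕ → ℝ, trunc S (Function.updateFinset base S z) = upz S z := by
    intro base
    ext i
    unfold trunc
    by_cases hi : i ∈ S
    · rw [if_pos hi, upz_of_mem z hi]
      simp [Function.updateFinset, hi]
    · rw [if_neg hi, upz_of_notMem z hi]
  beta_reduce
  rw [h3]
  congr 1
  unfold dens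
  refine Finset.prod_congr rfl fun i hi => ?_
  rw [upz_of_mem z hi]
  simp [Function.updateFinset, hi]

theorem measurable_dens_z (G : SimpleGraph V) (t : Lab V) (S : Finset (Sym2 V × ℕ)) :
    Measurable (fun p : Set (Sym2 V) × (S → ℝ) => dens G t S (upz S p.2) p.1) := by
  unfold dens
  refine Finset.measurable_prod _ fun j _ => ENNReal.measurable_ofReal.comp ?_
  have h1 : Measurable (fun p : Set (Sym2 V) × (S → ℝ) => spin p.1 j.1) :=
    (measurable_spin j.1).comp measurable_fst
  have h2 : Measurable (fun p : Set (Sym2 V) × (S → ℝ) => upz S p.2 j) :=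
    (measurable_pi_apply j).comp ((measurable_upz S).comp measurable_snd)
  exact (((h1.const_mul _).mul h2).const_add 1).div_const 2

theorem ae_mem_nu (S : Finset (Sym2 V × ℕ)) :
    ∀ᵐ z : (S → ℝ) ∂(Measure.pi fun _ : S => nu), ∀ i ∈ S, upz S z i ∈ Set.Icc (-1 : ℝ) 1 := by
  have h1 : ∀ i : S, ∀ᵐ z : (S → ℝ) ∂(Measure.pi fun _ : S => nu), z i ∈ Set.Icc (-1 : ℝ) 1 := by
    intro i
    have h2 : ∀ᵐ y ∂nu, y ∈ Set.Icc (-1 : ℝ) 1 := ae_restrict_mem measurableSet_Icc
    exact (Measure.tendsto_eval_ae_ae (μ := fun _ : S => nu) (i := i)).eventually h2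
  filter_upwards [eventually_all.2 h1] with z hz i hi
  rw [upz_of_mem z hi]
  exact hz ⟨i, hi⟩

/-- integrals against the indicator of the edge are posterior means -/
theorem post_H {G : SimpleGraph V} {μ : Measure (Set (Sym2 V))} [Countable V]
    (hμ : IsForestLaw G μ) (t : Lab V) {S : Finset (Sym2 V × ℕ)} {i : Sym2 V × ℕ}
    (hpast : ∀ j ∈ S, past t j i) (hi : i.1 ∈ G.edgeSet)
    {H : (Sym2 V × ℕ → ℝ) → ℝ≥0∞} (hH : Measurable H) (w0 : Lab V) :
    ∫⁻ x, (if i.1 ∈ x then lmarginal (fun _ => (volume : Measure I)) S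
        (fun w : Lab V => H (trunc S (yTrue G x t w))) w0 else 0) ∂μ =
      ∫⁻ x, lmarginal (fun _ => (volume : Measure I)) S
        (fun w : Lab V => (fun y => H y * ENNReal.ofReal (mmE G (fld G t y i.2 (t i)) i.1))
          (trunc S (yTrue G x t w))) w0 ∂μ := by
  have := hμ.prob
  have hm : Measurable (fun y : Sym2 V × ℕ → ℝ =>
      ENNReal.ofReal (mmE G (fld G t y i.2 (t i)) i.1)) :=
    ENNReal.measurable_ofReal.comp ((measurable_mmE G i.1).comp (measurable_fld_y G t _ _))
  have hHm : Measurable (fun y : Sym2 V × ℕ → ℝ =>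
      H y * ENNReal.ofReal (mmE G (fld G t y i.2 (t i)) i.1)) := hH.mul hm
  have hHz : Measurable (fun p : Set (Sym2 V) × (S → ℝ) => H (upz S p.2)) :=
    hH.comp ((measurable_upz S).comp measurable_snd)
  have hHz' : Measurable (fun p : Set (Sym2 V) × (S → ℝ) => H (upz S p.2) *
      ENNReal.ofReal (mmE G (fld G t (upz S p.2) i.2 (t i)) i.1)) :=
    hHm.comp ((measurable_upz S).comp measurable_snd)
  have e1 : ∀ x, (if i.1 ∈ x then lmarginal (fun _ => (volume : Measure I)) S
        (fun w : Lab V => H (trunc S (yTrue G x t w))) w0 else 0)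
      = ∫⁻ z : (S → ℝ), (if i.1 ∈ x then H (upz S z) * dens G t S (upz S z) x else 0)
        ∂(Measure.pi fun _ : S => nu) := by
    intro x
    by_cases hx : i.1 ∈ x
    · simp only [if_pos hx]
      exact I_eq G t S x hH w0
    · simp only [if_neg hx]
      simp
  have hms : MeasurableSet {p : Set (Sym2 V) × (S → ℝ) | i.1 ∈ p.1} :=
    measurable_fst (measurableSet_mem i.1)
  rw [lintegral_congr e1, lintegral_lintegral_swap
    (Measurable.ite hms (hHz.mul (measurable_dens_z G t S)) measurable_const).aemeasurable]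
  have e2 : ∀ x, lmarginal (fun _ => (volume : Measure I)) S
        (fun w : Lab V => (fun y => H y * ENNReal.ofReal (mmE G (fld G t y i.2 (t i)) i.1))
          (trunc S (yTrue G x t w))) w0
      = ∫⁻ z : (S → ℝ), (H (upz S z) * ENNReal.ofReal (mmE G (fld G t (upz S z) i.2 (t i)) i.1))
          * dens G t S (upz S z) x ∂(Measure.pi fun _ : S => nu) :=
    fun x => I_eq G t S x hHm w0
  rw [lintegral_congr e2]
  refine Eq.trans ?_ (lintegral_lintegral_swap (μ := μ) (ν := Measure.pi fun _ : S => nu)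
    (f := fun x z => (H (upz S z) * ENNReal.ofReal (mmE G (fld G t (upz S z) i.2 (t i)) i.1))
          * dens G t S (upz S z) x)
    (hHz'.mul (measurable_dens_z G t S)).aemeasurable).symm
  refine lintegral_congr_ae ?_
  filter_upwards [ae_mem_nu S] with z hz
  have hdx := measurable_dens_x G t S (upz S z)
  rw [lintegral_const_mul _ hdx, mul_assoc, ← posterior hμ t hpast hi hz
    (fun j hj => upz_of_notMem z hj), ← lintegral_const_mul]
  · refine lintegral_congr fun x => ?_
    split_ifs <;> simp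
  · exact Measurable.ite (measurableSet_mem _) hdx measurable_const

theorem post_H' {G : SimpleGraph V} {μ : Measure (Set (Sym2 V))} [Countable V]
    (hμ : IsForestLaw G μ) (t : Lab V) {S : Finset (Sym2 V × ℕ)} {i : Sym2 V × ℕ}
    (hpast : ∀ j ∈ S, past t j i) (hi : i.1 ∈ G.edgeSet)
    {H : (Sym2 V × ℕ → ℝ) → ℝ≥0∞} (hH : Measurable H) (w0 : Lab V) :
    ∫⁻ x, (if i.1 ∈ x then 0 else lmarginal (fun _ => (volume : Measure I)) S
        (fun w : Lab V => H (trunc S (yTrue G x t w))) w0) ∂μ =
      ∫⁻ x, lmarginal (fun _ => (volume : Measure I)) S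
        (fun w : Lab V => (fun y => H y * ENNReal.ofReal (1 - mmE G (fld G t y i.2 (t i)) i.1))
          (trunc S (yTrue G x t w))) w0 ∂μ := by
  have := hμ.prob
  have hm : Measurable (fun y : Sym2 V × ℕ → ℝ =>
      ENNReal.ofReal (1 - mmE G (fld G t y i.2 (t i)) i.1)) :=
    ENNReal.measurable_ofReal.comp
      (((measurable_mmE G i.1).comp (measurable_fld_y G t _ _)).const_sub 1)
  have hHm : Measurable (fun y : Sym2 V × ℕ → ℝ =>
      H y * ENNReal.ofReal (1 - mmE G (fld G t y i.2 (t i)) i.1)) := hH.mul hm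
  have hHz : Measurable (fun p : Set (Sym2 V) × (S → ℝ) => H (upz S p.2)) :=
    hH.comp ((measurable_upz S).comp measurable_snd)
  have hHz' : Measurable (fun p : Set (Sym2 V) × (S → ℝ) => H (upz S p.2) *
      ENNReal.ofReal (1 - mmE G (fld G t (upz S p.2) i.2 (t i)) i.1)) :=
    hHm.comp ((measurable_upz S).comp measurable_snd)
  have e1 : ∀ x, (if i.1 ∈ x then 0 else lmarginal (fun _ => (volume : Measure I)) S
        (fun w : Lab V => H (trunc S (yTrue G x t w))) w0)
      = ∫⁻ z : (S → ℝ), (if i.1 ∈ x then 0 else H (upz S z) * dens G t S (upz S z) x)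
        ∂(Measure.pi fun _ : S => nu) := by
    intro x
    by_cases hx : i.1 ∈ x
    · simp only [if_pos hx]
      simp
    · simp only [if_neg hx]
      exact I_eq G t S x hH w0
  have hms : MeasurableSet {p : Set (Sym2 V) × (S → ℝ) | i.1 ∈ p.1} :=
    measurable_fst (measurableSet_mem i.1)
  rw [lintegral_congr e1, lintegral_lintegral_swap
    (Measurable.ite hms measurable_const (hHz.mul (measurable_dens_z G t S))).aemeasurable]
  have e2 : ∀ x, lmarginal (fun _ => (volume : Measure I)) S
        (fun w : Lab V => (fun y => H y * ENNReal.ofReal (1 - mmE G (fld G t y i.2 (t i)) i.1))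
          (trunc S (yTrue G x t w))) w0
      = ∫⁻ z : (S → ℝ), (H (upz S z) *
          ENNReal.ofReal (1 - mmE G (fld G t (upz S z) i.2 (t i)) i.1))
          * dens G t S (upz S z) x ∂(Measure.pi fun _ : S => nu) :=
    fun x => I_eq G t S x hHm w0
  rw [lintegral_congr e2]
  refine Eq.trans ?_ (lintegral_lintegral_swap (μ := μ) (ν := Measure.pi fun _ : S => nu)
    (f := fun x z => (H (upz S z) *
          ENNReal.ofReal (1 - mmE G (fld G t (upz S z) i.2 (t i)) i.1))
          * dens G t S (upz S z) x)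
    (hHz'.mul (measurable_dens_z G t S)).aemeasurable).symm
  refine lintegral_congr_ae ?_
  filter_upwards [ae_mem_nu S] with z hz
  have hdx := measurable_dens_x G t S (upz S z)
  rw [lintegral_const_mul _ hdx, mul_assoc, ← posterior' hμ t hpast hi hz
    (fun j hj => upz_of_notMem z hj), ← lintegral_const_mul]
  · refine lintegral_congr fun x => ?_
    split_ifs <;> simp
  · exact Measurable.ite (measurableSet_mem _) measurable_const hdx

end

end Vale.Agent.Fusf.Inn
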