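import Mathlib
import Vale.Agent.Lib.P143.Defs
import Vale.Agent.Lib.P143.Proj
import Vale.Agent.Lib.P143.Innov3

/-!
# Module INNOV, part 4: the law of finitely many innovations
-/

open MeasureTheory Filter Topology
open scoped ENNReal unitInterval Classical

namespace Vale.Agent.Fusf.Inn

noncomputable section

variable {V : Type*}

/-- projection to the unit interval -/
abbrev pI (r : ℝ) : I := Set.projIcc (0 : ℝ) 1 zero_le_one r

theorem measurable_pI : Measurable pI := (continuous_projIcc (h := zero_le_one)).measurable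

theorem pI_coe (w : I) : pI (w : ℝ) = w := Set.projIcc_val _ w

/-- conditional expectation of `ψ (u)` given the spin and the posterior mean -/
def AA (ψ : I → ℝ≥0∞) (a τ M : ℝ) : ℝ≥0∞ := ∫⁻ z : I, ψ (pI (FF a (QQ a z τ) M))

theorem measurable_FF (a : ℝ) : Measurable (fun p : ℝ × ℝ => FF a p.1 p.2) := by
  unfold FF
  fun_prop

theorem measurable_FF_comp {Ω : Type*} [MeasurableSpace Ω] (a : ℝ) {f g : Ω → ℝ}
    (hf : Measurable f) (hg : Measurable g) : Measurable (fun x => FF a (f x) (g x)) := by
  unfold FF
  fun_prop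

theorem measurable_AA {ψ : I → ℝ≥0∞} (hψ : Measurable ψ) (a τ : ℝ) :
    Measurable (fun M : ℝ => AA ψ a τ M) := by
  unfold AA
  have h1 : Measurable (fun p : ℝ × I => (QQ a p.2 τ, p.1)) :=
    (((measurable_QQ_left a τ).comp measurable_subtype_coe).comp measurable_snd).prodMk
      measurable_fst
  have h2 : Measurable (fun p : ℝ × I => ψ (pI (FF a (QQ a p.2 τ) p.1))) :=
    hψ.comp (measurable_pI.comp ((measurable_FF a).comp h1))
  exact h2.lintegral_prod_right'

theorem AA_zero {ψ : I → ℝ≥0∞} {τ M : ℝ} (hτ : τ ∈ Set.Icc (-1 : ℝ) 1) :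
    AA ψ 0 τ M = ∫⁻ z : I, ψ z := by
  unfold AA
  refine lintegral_congr fun z => ?_
  have h1 : FF 0 (QQ 0 z τ) M = FF 0 (QQ 0 z τ) τ := by unfold FF; ring
  rw [h1, FF_QQ le_rfl (by norm_num) z.2 hτ, pI_coe]

theorem AA_mix {ψ : I → ℝ≥0∞} (hψ : Measurable ψ) {a m : ℝ} (ha : 0 ≤ a) (ha' : a ≤ 1 / 2)
    (hm0 : 0 ≤ m) (hm1 : m ≤ 1) :
    AA ψ a 1 (2 * m - 1) * ENNReal.ofReal m + AA ψ a (-1) (2 * m - 1) * ENNReal.ofReal (1 - m)
      = ∫⁻ z : I, ψ z := by
  have hM : 2 * m - 1 ∈ Set.Icc (-1 : ℝ) 1 := ⟨by linarith, by linarith⟩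
  have hf : Measurable (fun y : ℝ => ψ (pI (FF a y (2 * m - 1)))) := by
    refine hψ.comp (measurable_pI.comp ?_)
    exact (measurable_FF a).comp (measurable_id.prodMk measurable_const)
  have h1 := lintegral_QQ ha ha' (m := 1) (by constructor <;> norm_num)
    (fun y => ψ (pI (FF a y (2 * m - 1)))) hf
  have h2 := lintegral_QQ ha ha' (m := -1) (by constructor <;> norm_num)
    (fun y => ψ (pI (FF a y (2 * m - 1)))) hf
  have h3 := lintegral_FF ha ha' hM (fun r => ψ (pI r)) (hψ.comp measurable_pI)
  have h4 : ∫⁻ w : I, ψ (pI (w : ℝ)) = ∫⁻ z : I, ψ z :=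
    lintegral_congr fun w => by rw [pI_coe]
  rw [← h4, ← h3]
  unfold AA
  rw [h1, h2]
  have hm : ∀ c : ℝ, Measurable (fun y : ℝ => ψ (pI (FF a y (2 * m - 1))) *
      ENNReal.ofReal ((1 + a * c * y) / 2)) := fun c => hf.mul (by fun_prop)
  rw [← lintegral_mul_const _ (hm 1), ← lintegral_mul_const _ (hm (-1)),
    ← lintegral_add_left ((hm 1).mul_const _)]
  refine setLIntegral_congr_fun measurableSet_Icc fun y hy => ?_
  have hay : |a * y| ≤ 1 := by
    rw [abs_mul, abs_of_nonneg ha]
    have : |y| ≤ 1 := abs_le.2 hy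
    nlinarith [abs_nonneg y]
  rw [abs_le] at hay
  have h5 : ENNReal.ofReal ((1 + a * 1 * y) / 2) * ENNReal.ofReal m
      + ENNReal.ofReal ((1 + a * -1 * y) / 2) * ENNReal.ofReal (1 - m)
      = ENNReal.ofReal ((1 + a * (2 * m - 1) * y) / 2) := by
    rw [← ENNReal.ofReal_mul (by linarith), ← ENNReal.ofReal_mul (by linarith),
      ← ENNReal.ofReal_add (mul_nonneg (by linarith) hm0) (mul_nonneg (by linarith) (by linarith))]
    congr 1
    ring
  rw [← h5]
  ring

/-- innovations with history restricted to `S`, as a function of the observations -/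
def uY (G : SimpleGraph V) (t : Lab V) (y : Sym2 V × ℕ → ℝ) (i : Sym2 V × ℕ) : I :=
  pI (FF (str G t i.1 i.2) (y i) (postM G t y i))

theorem measurable_uY [Countable V] (G : SimpleGraph V) (t : Lab V) (i : Sym2 V × ℕ) :
    Measurable (fun y : Sym2 V × ℕ → ℝ => uY G t y i) := by
  unfold uY
  exact measurable_pI.comp (measurable_FF_comp _ (measurable_pi_apply i)
    (measurable_postM_y G t i))

/-- no ties -/
def NoTie (t : Lab V) : Prop := ∀ i j : Sym2 V × ℕ, i.2 = j.2 → t i = t j → i = j

theorem past_irrefl (t : Lab V) (i : Sym2 V × ℕ) : ¬ past t i i := by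
  rintro (h | ⟨_, h⟩)
  · exact lt_irrefl _ h
  · exact lt_irrefl _ h

theorem past_asymm (t : Lab V) {i j : Sym2 V × ℕ} (h : past t i j) : ¬ past t j i := by
  rintro (h' | ⟨h', h''⟩)
  · rcases h with h | ⟨h, _⟩ <;> omega
  · rcases h with h | ⟨_, h⟩
    · omega
    · exact lt_asymm h h''

theorem exists_last (t : Lab V) (ht : NoTie t) {S : Finset (Sym2 V × ℕ)} (hS : S.Nonempty) :
    ∃ i ∈ S, ∀ j ∈ S.erase i, past t j i := by
  obtain ⟨i, hi, hmax⟩ := S.exists_max_image (fun i => toLex (i.2, t i)) hS
  refine ⟨i, hi, fun j hj => ?_⟩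
  rw [Finset.mem_erase] at hj
  have h1 := hmax j hj.2
  rw [Prod.Lex.toLex_le_toLex] at h1
  rcases h1 with h1 | ⟨h1, h2⟩
  · exact Or.inl h1
  · refine Or.inr ⟨h1, lt_of_le_of_ne h2 fun h3 => hj.1 (ht j i h1 h3)⟩

theorem trunc_update_erase {S : Finset (Sym2 V × ℕ)} {i : Sym2 V × ℕ} (hi : i ∉ S)
    (y : Sym2 V × ℕ → ℝ) (c : ℝ) : trunc S (Function.update y i c) = trunc S y := by
  ext j
  unfold trunc
  by_cases hj : j ∈ S
  · rw [if_pos hj, if_pos hj, Function.update_of_ne (fun h => hi (by rw [← h]; exact hj))]
  · rw [if_neg hj, if_neg hj]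

theorem uY_congr (G : SimpleGraph V) (t : Lab V) {y y' : Sym2 V × ℕ → ℝ} {i : Sym2 V × ℕ}
    (h0 : y i = y' i) (h : ∀ j, past t j i → y j = y' j) : uY G t y i = uY G t y' i := by
  unfold uY
  rw [h0, postM_congr_past G t h]

theorem measurable_I (G : SimpleGraph V) (t : Lab V) (S : Finset (Sym2 V × ℕ))
    {H : (Sym2 V × ℕ → ℝ) → ℝ≥0∞} (hH : Measurable H) (w0 : Lab V) :
    Measurable (fun x : Set (Sym2 V) => lmarginal (fun _ => (volume : Measure I)) S
      (fun w : Lab V => H (trunc S (yTrue G x t w))) w0) := by
  have h1 : (fun x : Set (Sym2 V) => lmarginal (fun _ => (volume : Measure I)) S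
      (fun w : Lab V => H (trunc S (yTrue G x t w))) w0)
      = fun x => ∫⁻ z : (S → ℝ), H (upz S z) * dens G t S (upz S z) x
        ∂(Measure.pi fun _ : S => nu) := by
    ext x
    exact I_eq G t S x hH w0
  rw [h1]
  have hHz : Measurable (fun p : Set (Sym2 V) × (S → ℝ) => H (upz S p.2)) :=
    hH.comp ((measurable_upz S).comp measurable_snd)
  exact (hHz.mul (measurable_dens_z G t S)).lintegral_prod_right'

theorem lmarginal_const_mul' {S : Finset (Sym2 V × ℕ)} (c : ℝ≥0∞) {F : Lab V → ℝ≥0∞}
    (hF : Measurable F) (w0 : Lab V) :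
    lmarginal (fun _ => (volume : Measure I)) S (fun w => c * F w) w0
      = c * lmarginal (fun _ => (volume : Measure I)) S F w0 := by
  unfold lmarginal
  exact lintegral_const_mul c (f := fun y : (S → I) => F (Function.updateFinset w0 S y))
    (hF.comp measurable_updateFinset)

theorem lmarginal_add' {S : Finset (Sym2 V × ℕ)} {F F' : Lab V → ℝ≥0∞}
    (hF : Measurable F) {w0 : Lab V} :
    lmarginal (fun _ => (volume : Measure I)) S (fun w => F w + F' w) w0
      = lmarginal (fun _ => (volume : Measure I)) S F w0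
        + lmarginal (fun _ => (volume : Measure I)) S F' w0 := by
  unfold lmarginal
  exact lintegral_add_left (f := fun y : (S → I) => F (Function.updateFinset w0 S y))
    (hF.comp measurable_updateFinset) _

theorem finite_innov [Countable V] {G : SimpleGraph V} {μ : Measure (Set (Sym2 V))}
    (hμ : IsForestLaw G μ) (t : Lab V) (ht : NoTie t) (w0 : Lab V) :
    ∀ (n : ℕ) (S : Finset (Sym2 V × ℕ)), S.card = n →
    ∀ ψ : Sym2 V × ℕ → I → ℝ≥0∞, (∀ i, Measurable (ψ i)) →
    ∫⁻ x, lmarginal (fun _ => (volume : Measure I)) S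
      (fun w : Lab V => ∏ i ∈ S, ψ i (uY G t (trunc S (yTrue G x t w)) i)) w0 ∂μ
      = ∏ i ∈ S, ∫⁻ u : I, ψ i u := by
  have := hμ.prob
  intro n
  induction n with
  | zero =>
    intro S hS ψ hψ
    rw [Finset.card_eq_zero.1 hS]
    simp
  | succ n ih =>
    intro S hS ψ hψ
    obtain ⟨i, hi, hlast⟩ := exists_last t ht (Finset.card_pos.1 (by omega : 0 < S.card))
    set S' := S.erase i with hS'
    have hcard : S'.card = n := by
      rw [hS', Finset.card_erase_of_mem hi]
      omega
    have hiS' : i ∉ S' := Finset.notMem_erase i S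
    set a := str G t i.1 i.2 with ha
    -- functions of the observations of `S'`
    let H : (Sym2 V × ℕ → ℝ) → ℝ≥0∞ := fun y => ∏ j ∈ S', ψ j (uY G t y j)
    have hH : Measurable H :=
      Finset.measurable_prod _ fun j _ => (hψ j).comp (measurable_uY G t j)
    have hAm : ∀ τ : ℝ, Measurable (fun y : Sym2 V × ℕ → ℝ => AA (ψ i) a τ (postM G t y i)) :=
      fun τ => (measurable_AA (hψ i) a τ).comp (measurable_postM_y G t i)
    -- integrate out the last ring
    have e1 : ∀ x, lmarginal (fun _ => (volume : Measure I)) S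
        (fun w : Lab V => ∏ i ∈ S, ψ i (uY G t (trunc S (yTrue G x t w)) i)) w0
        = lmarginal (fun _ => (volume : Measure I)) S'
          (fun w : Lab V => (fun y => H y * AA (ψ i) a (spin x i.1) (postM G t y i))
            (trunc S' (yTrue G x t w))) w0 := by
      intro x
      have hmeas : Measurable (fun w : Lab V =>
          ∏ i ∈ S, ψ i (uY G t (trunc S (yTrue G x t w)) i)) := by
        refine Finset.measurable_prod _ fun j _ => (hψ j).comp ?_
        exact (measurable_uY G t j).comp ((measurable_trunc S).comp (measurable_yTrue_w G x t))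
      rw [lmarginal_erase' _ hmeas hi]
      congr 1
      ext w
      have h1 : ∀ z : I, yTrue G x t (Function.update w i z)
          = Function.update (yTrue G x t w) i (QQ a z (spin x i.1)) := by
        intro z
        ext j
        rw [yTrue_eq, yTrue_eq]
        by_cases hj : j = i
        · subst hj; simp [ha]
        · simp [Function.update_of_ne hj]
      have h2 : ∀ z : I, ∏ j ∈ S, ψ j (uY G t (trunc S (yTrue G x t (Function.update w i z))) j)
          = H (trunc S' (yTrue G x t w)) *
            ψ i (pI (FF a (QQ a z (spin x i.1)) (postM G t (trunc S' (yTrue G x t w)) i))) := by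
        intro z
        rw [h1, ← Finset.mul_prod_erase S _ hi, mul_comm]
        set y := yTrue G x t w with hy
        set y' := Function.update y i (QQ a z (spin x i.1)) with hy'
        have h3 : ∀ j, j ≠ i → trunc S y' j = trunc S' y j := by
          intro j hj
          unfold trunc
          rw [hy', Function.update_of_ne hj, hS']
          by_cases hjS : j ∈ S
          · rw [if_pos hjS, if_pos (Finset.mem_erase.2 ⟨hj, hjS⟩)]
          · rw [if_neg hjS, if_neg (fun h => hjS (Finset.mem_of_mem_erase h))]
        congr 1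
        · refine Finset.prod_congr rfl fun j hj => ?_
          have hji : j ≠ i := Finset.ne_of_mem_erase hj
          rw [uY_congr G t (y' := trunc S' y) (h3 j hji)]
          intro j' hj'
          refine h3 j' fun h => ?_
          subst h
          exact past_asymm t hj' (hlast j hj)
        · have h4 : trunc S y' i = QQ a z (spin x i.1) := by
            unfold trunc
            rw [if_pos hi, hy', Function.update_self]
          have h5 : postM G t (trunc S y') i = postM G t (trunc S' y) i :=
            postM_congr_past G t fun j hj => h3 j fun h => past_irrefl t i (h ▸ hj)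
          unfold uY
          rw [h4, h5]
      simp_rw [h2]
      rw [lintegral_const_mul]
      · rfl
      · exact (hψ i).comp (measurable_pI.comp (measurable_FF_comp a
          ((measurable_QQ_left a _).comp measurable_subtype_coe) measurable_const))
    rw [lintegral_congr e1]
    -- the goal after integrating
    have key : ∫⁻ x, lmarginal (fun _ => (volume : Measure I)) S'
          (fun w : Lab V => (fun y => H y * AA (ψ i) a (spin x i.1) (postM G t y i))
            (trunc S' (yTrue G x t w))) w0 ∂μ
        = ∫⁻ x, lmarginal (fun _ => (volume : Measure I)) S'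
          (fun w : Lab V => (∫⁻ u : I, ψ i u) * H (trunc S' (yTrue G x t w))) w0 ∂μ := by
      by_cases hie : i.1 ∈ G.edgeSet
      · have h1 : ∀ x, lmarginal (fun _ => (volume : Measure I)) S'
            (fun w : Lab V => (fun y => H y * AA (ψ i) a (spin x i.1) (postM G t y i))
              (trunc S' (yTrue G x t w))) w0
            = (if i.1 ∈ x then lmarginal (fun _ => (volume : Measure I)) S'
                (fun w : Lab V => (fun y => H y * AA (ψ i) a 1 (postM G t y i))
                  (trunc S' (yTrue G x t w))) w0 else 0)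
              + (if i.1 ∈ x then 0 else lmarginal (fun _ => (volume : Measure I)) S'
                (fun w : Lab V => (fun y => H y * AA (ψ i) a (-1) (postM G t y i))
                  (trunc S' (yTrue G x t w))) w0) := by
          intro x
          by_cases hx : i.1 ∈ x
          · have : spin x i.1 = 1 := by simp [spin, hx]
            rw [if_pos hx, if_pos hx, add_zero, this]
          · have : spin x i.1 = -1 := by simp [spin, hx]
            rw [if_neg hx, if_neg hx, zero_add, this]
        have hHp : Measurable (fun y : Sym2 V × ℕ → ℝ => H y * AA (ψ i) a 1 (postM G t y i)) :=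
          hH.mul (hAm 1)
        have hHn : Measurable (fun y : Sym2 V × ℕ → ℝ => H y * AA (ψ i) a (-1) (postM G t y i)) :=
          hH.mul (hAm (-1))
        have hmm : Measurable (fun y : Sym2 V × ℕ → ℝ =>
            ENNReal.ofReal (mmE G (fld G t y i.2 (t i)) i.1)) :=
          ENNReal.measurable_ofReal.comp ((measurable_mmE G i.1).comp (measurable_fld_y G t _ _))
        have hHpm : Measurable (fun y : Sym2 V × ℕ → ℝ => H y * AA (ψ i) a 1 (postM G t y i) *
            ENNReal.ofReal (mmE G (fld G t y i.2 (t i)) i.1)) := hHp.mul hmm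
        rw [lintegral_congr h1, lintegral_add_left (Measurable.ite (measurableSet_mem _)
            (measurable_I G t S' hHp w0) measurable_const), post_H hμ t hlast hie hHp w0,
          post_H' hμ t hlast hie hHn w0,
          ← lintegral_add_left (measurable_I G t S' hHpm w0)]
        refine lintegral_congr fun x => ?_
        have hw1 : Measurable (fun w : Lab V => (fun y : Sym2 V × ℕ → ℝ =>
            H y * AA (ψ i) a 1 (postM G t y i) *
              ENNReal.ofReal (mmE G (fld G t y i.2 (t i)) i.1)) (trunc S' (yTrue G x t w))) :=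
          (hHpm.comp (measurable_trunc S')).comp (measurable_yTrue_w G x t)
        beta_reduce at hw1 ⊢
        rw [← lmarginal_add' hw1]
        congr 1
        ext w
        set y := trunc S' (yTrue G x t w) with hy
        have h8 : postM G t y i = 2 * mmE G (fld G t y i.2 (t i)) i.1 - 1 := rfl
        have h9 := AA_mix (hψ i) (str_nonneg G t i.1 i.2) (str_le G t i.1 i.2)
          (mmE_nonneg G (fld G t y i.2 (t i)) i.1) (mmE_le_one G (fld G t y i.2 (t i)) i.1)
        rw [← h9, h8]
        ring
      · have ha0 : a = 0 := by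
          rw [ha]
          unfold str ok
          rw [if_neg (fun h => hie h.1.1)]
        refine lintegral_congr fun x => ?_
        congr 1
        ext w
        beta_reduce
        rw [ha0, AA_zero (spin_mem x i.1), mul_comm]
    rw [key]
    have hHw : ∀ x, Measurable (fun w : Lab V => H (trunc S' (yTrue G x t w))) := fun x =>
      hH.comp ((measurable_trunc S').comp (measurable_yTrue_w G x t))
    have h7 : ∀ x, lmarginal (fun _ => (volume : Measure I)) S'
          (fun w : Lab V => (∫⁻ u : I, ψ i u) * H (trunc S' (yTrue G x t w))) w0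
        = (∫⁻ u : I, ψ i u) * lmarginal (fun _ => (volume : Measure I)) S'
          (fun w : Lab V => H (trunc S' (yTrue G x t w))) w0 :=
      fun x => lmarginal_const_mul' _ (hHw x) w0
    rw [lintegral_congr h7, lintegral_const_mul _ (measurable_I G t S' hH w0),
      ← Finset.mul_prod_erase S _ hi, ← hS', ← ih S' hcard ψ hψ]

end

end Vale.Agent.Fusf.Inn
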