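import Vale.Agent.Lib.P143.Defs
import Vale.Agent.Lib.P143.Proj

/-!
# Module MEAS: measurability, equivariance and locality of the observation scheme
-/

open MeasureTheory Filter Topology
open scoped ENNReal unitInterval Classical

namespace Vale.Agent.Fusf

noncomputable section

variable {V : Type*}

/-! ### Measurability -/

lemma encard_le_iff_forall_finset (s : Set V) (k : ℕ) :
    s.encard ≤ k ↔ ∀ T : Finset V, (T : Set V) ⊆ s → T.card ≤ k := by
  constructor
  · intro h T hT
    have h1 := (Set.encard_le_encard hT).trans h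
    rw [Set.encard_coe_eq_coe_finsetCard] at h1
    exact_mod_cast h1
  · intro h
    by_contra h1
    rw [not_le] at h1
    have h2 : ((k + 1 : ℕ) : ℕ∞) ≤ s.encard := by
      push_cast
      exact Order.add_one_le_of_lt h1
    obtain ⟨t, hts, ht⟩ := Set.exists_subset_encard_eq h2
    have hfin : t.Finite := Set.finite_of_encard_eq_coe ht
    have h3 := h hfin.toFinset (by simpa using hts)
    have h4 : t.encard = hfin.toFinset.card := hfin.encard_eq_coe_toFinset_card
    rw [h4] at ht
    have h5 : hfin.toFinset.card = k + 1 := by exact_mod_cast ht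
    omega

lemma measurable_mem_edgeSet (e : Sym2 V) :
    Measurable (fun G : SimpleGraph V => e ∈ G.edgeSet) :=
  measurable_set_iff.1 SimpleGraph.measurable_edgeSet e

lemma measurable_ok [Countable V] (e : Sym2 V) (k : ℕ) :
    Measurable (fun G : SimpleGraph V => ok G e k) := by
  unfold ok
  refine (measurable_mem_edgeSet e).and (Measurable.forall fun v => ?_)
  refine Measurable.imp measurable_const ?_
  have h1 : (fun G : SimpleGraph V => (G.neighborSet v).encard ≤ (k : ℕ∞)) =
      fun G : SimpleGraph V => ∀ T : Finset V, (∀ w ∈ T, s(v, w) ∈ G.edgeSet) → T.card ≤ k := by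
    funext G
    rw [encard_le_iff_forall_finset]
    rfl
  rw [h1]
  refine Measurable.forall fun T => Measurable.imp ?_ measurable_const
  refine Measurable.forall fun w => Measurable.imp measurable_const ?_
  exact measurable_mem_edgeSet _

theorem measurable_str [Countable V] (e : Sym2 V) (k : ℕ) :
    Measurable (fun p : SimpleGraph V × Lab V => str p.1 p.2 e k) := by
  unfold str
  refine Measurable.ite ?_ measurable_const measurable_const
  rw [measurableSet_setOfPred]
  refine ((measurable_ok e k).comp measurable_fst).and ?_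
  rw [← measurableSet_setOfPred]
  refine measurableSet_lt ?_ measurable_const
  exact measurable_subtype_coe.comp ((measurable_pi_apply _).comp measurable_snd)

lemma measurable_gg : Measurable (fun p : ℝ × ℝ => gg p.1 p.2) := by
  unfold gg
  exact Real.measurable_log.comp (by fun_prop)

theorem measurable_fld [Countable V] (k : ℕ) (e : Sym2 V) :
    Measurable (fun p : (SimpleGraph V × Lab V) × (Sym2 V × ℕ → ℝ) × ℝ =>
      fld p.1.1 p.1.2 p.2.1 k p.2.2 e) := by
  have hg : ∀ l : ℕ, Measurable (fun p : (SimpleGraph V × Lab V) × (Sym2 V × ℕ → ℝ) × ℝ =>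
      gg (str p.1.1 p.1.2 e l) (p.2.1 (e, l))) := by
    intro l
    refine measurable_gg.comp (Measurable.prodMk ?_ ?_)
    · exact (measurable_str e l).comp measurable_fst
    · exact (measurable_pi_apply _).comp (measurable_fst.comp measurable_snd)
  unfold fld
  refine Measurable.add ?_ ?_
  · exact Finset.measurable_fun_sum _ fun l _ => hg l
  · refine Measurable.ite ?_ (hg k) measurable_const
    refine measurableSet_lt ?_ ?_
    · exact measurable_subtype_coe.comp
        ((measurable_pi_apply _).comp (measurable_snd.comp measurable_fst))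
    · exact measurable_snd.comp measurable_snd

section
attribute [local irreducible] mm fld

theorem measurable_postM [Countable V] (i : Sym2 V × ℕ) :
    Measurable (fun p : (SimpleGraph V × Lab V) × (Sym2 V × ℕ → ℝ) =>
      postM p.1.1 p.1.2 p.2 i) := by
  obtain ⟨e, k⟩ := i
  induction e using Sym2.ind with
  | _ a b =>
    unfold postM
    simp only [mmE_mk]
    refine Measurable.sub_const (Measurable.const_mul ?_ 2) 1
    have h1 : Measurable (fun p : (SimpleGraph V × Lab V) × (Sym2 V × ℕ → ℝ) =>
        (p.1.1, fld p.1.1 p.1.2 p.2 k (p.1.2 (s(a, b), k)))) := by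
      refine Measurable.prodMk (measurable_fst.comp measurable_fst) ?_
      rw [measurable_pi_iff]
      intro e
      have h2 : Measurable (fun p : (SimpleGraph V × Lab V) × (Sym2 V × ℕ → ℝ) =>
          (p.1, p.2, ((p.1.2 (s(a, b), k) : I) : ℝ))) := by
        refine Measurable.prodMk measurable_fst (Measurable.prodMk measurable_snd ?_)
        exact measurable_subtype_coe.comp
          ((measurable_pi_apply _).comp (measurable_snd.comp measurable_fst))
      exact (measurable_fld k e).comp h2
    exact (measurable_mm a b).comp h1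

end

section
attribute [local irreducible] postM yTrue str

lemma measurable_QQ : Measurable (fun p : ℝ × ℝ × ℝ => QQ p.1 p.2.1 p.2.2) := by
  unfold QQ
  fun_prop

lemma measurable_FF : Measurable (fun p : ℝ × ℝ × ℝ => FF p.1 p.2.1 p.2.2) := by
  unfold FF
  fun_prop

theorem measurable_yTrue [Countable V] (i : Sym2 V × ℕ) :
    Measurable (fun p : SimpleGraph V × Set (Sym2 V) × Lab V × Lab V =>
      yTrue p.1 p.2.1 p.2.2.1 p.2.2.2 i) := by
  unfold yTrue
  refine measurable_QQ.comp (Measurable.prodMk ?_ (Measurable.prodMk ?_ ?_))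
  · have h1 : Measurable (fun p : SimpleGraph V × Set (Sym2 V) × Lab V × Lab V =>
        (p.1, p.2.2.1)) := by fun_prop
    exact (measurable_str i.1 i.2).comp h1
  · exact measurable_subtype_coe.comp ((measurable_pi_apply _).comp (by fun_prop))
  · refine Measurable.ite ?_ measurable_const measurable_const
    rw [measurableSet_setOfPred]
    exact (measurable_set_mem i.1).comp (by fun_prop)

theorem measurable_innov [Countable V] :
    Measurable (fun p : SimpleGraph V × Set (Sym2 V) × Lab V × Lab V =>
      innov p.1 p.2.1 p.2.2.1 p.2.2.2) := by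
  rw [measurable_pi_iff]
  intro i
  unfold innov
  refine continuous_projIcc.measurable.comp ?_
  refine measurable_FF.comp (Measurable.prodMk ?_ (Measurable.prodMk ?_ ?_))
  · have h1 : Measurable (fun p : SimpleGraph V × Set (Sym2 V) × Lab V × Lab V =>
        (p.1, p.2.2.1)) := by fun_prop
    exact (measurable_str i.1 i.2).comp h1
  · exact measurable_yTrue i
  · have h1 : Measurable (fun p : SimpleGraph V × Set (Sym2 V) × Lab V × Lab V =>
        ((p.1, p.2.2.1), yTrue p.1 p.2.1 p.2.2.1 p.2.2.2)) := by
      refine Measurable.prodMk (by fun_prop) ?_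
      rw [measurable_pi_iff]
      exact fun j => measurable_yTrue j
    exact (measurable_postM i).comp h1

theorem measurable_yPic [Countable V] (j : ℕ) (i : Sym2 V × ℕ) :
    Measurable (fun p : SimpleGraph V × Lab V × Lab V => yPic p.1 p.2.1 p.2.2 j i) := by
  induction j generalizing i with
  | zero => exact measurable_const
  | succ j ih =>
    simp only [yPic]
    refine measurable_QQ.comp (Measurable.prodMk ?_ (Measurable.prodMk ?_ ?_))
    · have h1 : Measurable (fun p : SimpleGraph V × Lab V × Lab V => (p.1, p.2.1)) := by fun_prop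
      exact (measurable_str i.1 i.2).comp h1
    · exact measurable_subtype_coe.comp ((measurable_pi_apply _).comp (by fun_prop))
    · have h1 : Measurable (fun p : SimpleGraph V × Lab V × Lab V =>
          ((p.1, p.2.1), yPic p.1 p.2.1 p.2.2 j)) := by
        refine Measurable.prodMk (by fun_prop) ?_
        rw [measurable_pi_iff]
        exact fun i => ih i
      exact (measurable_postM i).comp h1

end

/-! ### Equivariance -/

lemma sym2_map_symm_map (g : Equiv.Perm V) (e : Sym2 V) :
    Sym2.map g.symm (Sym2.map g e) = e := by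
  rw [Sym2.map_map]
  simp

lemma sym2_map_map_symm (g : Equiv.Perm V) (e : Sym2 V) :
    Sym2.map g (Sym2.map g.symm e) = e := by
  rw [Sym2.map_map]
  simp

@[simp] lemma actL_apply_map (g : Equiv.Perm V) {α : Type*} (y : Sym2 V × ℕ → α) (e : Sym2 V)
    (k : ℕ) : actL g y (Sym2.map g e, k) = y (e, k) := by
  unfold actL
  simp only [sym2_map_symm_map]

lemma mem_edgeSet_map (g : Equiv.Perm V) (G : SimpleGraph V) (e : Sym2 V) :
    Sym2.map g e ∈ (G.map g.toEmbedding).edgeSet ↔ e ∈ G.edgeSet := by
  induction e using Sym2.ind with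
  | _ a b =>
    rw [Sym2.map_mk, SimpleGraph.mem_edgeSet, SimpleGraph.mem_edgeSet]
    exact SimpleGraph.map_adj_apply (f := g.toEmbedding)

lemma neighborSet_map_perm (g : Equiv.Perm V) (G : SimpleGraph V) (v : V) :
    (G.map g.toEmbedding).neighborSet (g v) = g '' (G.neighborSet v) := by
  ext w
  rw [SimpleGraph.mem_neighborSet, Set.mem_image]
  constructor
  · intro h
    refine ⟨g.symm w, ?_, by simp⟩
    rw [SimpleGraph.mem_neighborSet]
    have h1 : (G.map g.toEmbedding).Adj (g.toEmbedding v) (g.toEmbedding (g.symm w)) := by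
      simpa using h
    exact (SimpleGraph.map_adj_apply (f := g.toEmbedding)).1 h1
  · rintro ⟨u, hu, rfl⟩
    exact (SimpleGraph.map_adj_apply (f := g.toEmbedding)).2 hu

lemma ok_act (g : Equiv.Perm V) (G : SimpleGraph V) (e : Sym2 V) (k : ℕ) :
    ok (G.map g.toEmbedding) (Sym2.map g e) k ↔ ok G e k := by
  unfold ok
  rw [mem_edgeSet_map]
  refine and_congr_right fun _ => ?_
  constructor
  · intro h v hv
    have h1 := h (g v) (Sym2.mem_map.2 ⟨v, hv, rfl⟩)
    rwa [neighborSet_map_perm, Function.Injective.encard_image g.injective] at h1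
  · intro h v hv
    obtain ⟨u, hu, rfl⟩ := Sym2.mem_map.1 hv
    rw [neighborSet_map_perm, Function.Injective.encard_image g.injective]
    exact h u hu

theorem str_act (g : Equiv.Perm V) (G : SimpleGraph V) (t : Lab V) (e : Sym2 V) (k : ℕ) :
    str (G.map g.toEmbedding) (actL g t) (Sym2.map g e) k = str G t e k := by
  unfold str
  rw [actL_apply_map]
  simp only [ok_act]

theorem fld_act (g : Equiv.Perm V) (G : SimpleGraph V) (t : Lab V) (y : Sym2 V × ℕ → ℝ) (k : ℕ)
    (r : ℝ) : fld (G.map g.toEmbedding) (actL g t) (actL g y) k r = actF g (fld G t y k r) := by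
  funext e
  obtain ⟨e, rfl⟩ : ∃ e', e = Sym2.map g e' := ⟨_, (sym2_map_map_symm g e).symm⟩
  unfold actF
  rw [sym2_map_symm_map]
  unfold fld
  simp only [str_act, actL_apply_map]

lemma mmE_act (g : Equiv.Perm V) (G : SimpleGraph V) (h : Sym2 V → ℝ) (e : Sym2 V) :
    mmE (G.map g.toEmbedding) (actF g h) (Sym2.map g e) = mmE G h e := by
  induction e using Sym2.ind with
  | _ a b =>
    rw [Sym2.map_mk, mmE_mk, mmE_mk]
    exact mm_act g G h a b

theorem postM_act (g : Equiv.Perm V) (G : SimpleGraph V) (t : Lab V) (y : Sym2 V × ℕ → ℝ) :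
    postM (G.map g.toEmbedding) (actL g t) (actL g y) = actL g (postM G t y) := by
  funext i
  obtain ⟨e, k⟩ := i
  obtain ⟨e, rfl⟩ : ∃ e', e = Sym2.map g e' := ⟨_, (sym2_map_map_symm g e).symm⟩
  rw [actL_apply_map]
  unfold postM
  simp only [fld_act, actL_apply_map, mmE_act]

theorem yTrue_act (g : Equiv.Perm V) (G : SimpleGraph V) (x : Set (Sym2 V)) (t w : Lab V) :
    yTrue (G.map g.toEmbedding) (actS g x) (actL g t) (actL g w) = actL g (yTrue G x t w) := by
  funext i
  obtain ⟨e, k⟩ := i
  obtain ⟨e, rfl⟩ : ∃ e', e = Sym2.map g e' := ⟨_, (sym2_map_map_symm g e).symm⟩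
  rw [actL_apply_map]
  unfold yTrue
  simp only [str_act, actL_apply_map]
  have h1 : Sym2.map g e ∈ actS g x ↔ e ∈ x := by
    unfold actS
    rw [Set.mem_ofPred_eq, sym2_map_symm_map]
  simp only [h1]

theorem innov_act (g : Equiv.Perm V) (G : SimpleGraph V) (x : Set (Sym2 V)) (t w : Lab V) :
    innov (G.map g.toEmbedding) (actS g x) (actL g t) (actL g w) = actL g (innov G x t w) := by
  funext i
  obtain ⟨e, k⟩ := i
  obtain ⟨e, rfl⟩ : ∃ e', e = Sym2.map g e' := ⟨_, (sym2_map_map_symm g e).symm⟩
  rw [actL_apply_map]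
  unfold innov
  simp only [yTrue_act, postM_act, str_act, actL_apply_map]

theorem yPic_act (g : Equiv.Perm V) (G : SimpleGraph V) (t u : Lab V) (j : ℕ) :
    yPic (G.map g.toEmbedding) (actL g t) (actL g u) j = actL g (yPic G t u j) := by
  induction j with
  | zero => rfl
  | succ j ih =>
    funext i
    obtain ⟨e, k⟩ := i
    obtain ⟨e, rfl⟩ : ∃ e', e = Sym2.map g e' := ⟨_, (sym2_map_map_symm g e).symm⟩
    rw [actL_apply_map]
    simp only [yPic, ih, postM_act, str_act, actL_apply_map]

theorem measurable_actL (g : Equiv.Perm V) {α : Type*} [MeasurableSpace α] :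
    Measurable (actL g : (Sym2 V × ℕ → α) → _) := by
  rw [measurable_pi_iff]
  intro i
  exact measurable_pi_apply _

theorem measurable_actS (g : Equiv.Perm V) : Measurable (actS g : Set (Sym2 V) → _) := by
  rw [measurable_set_iff]
  intro e
  exact measurable_set_mem (Sym2.map g.symm e)

/-- The permutation of the rings. -/
def permRing (g : Equiv.Perm V) : Equiv.Perm (Sym2 V × ℕ) where
  toFun i := (Sym2.map g i.1, i.2)
  invFun i := (Sym2.map g.symm i.1, i.2)
  left_inv i := by simp [sym2_map_symm_map]
  right_inv i := by simp [sym2_map_map_symm]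

theorem map_actL_lam (g : Equiv.Perm V) : (lam V).map (actL g) = lam V := by
  have h := Measure.infinitePi_map_piCongrLeft (X := fun _ : Sym2 V × ℕ => I)
    (μ := fun _ : Sym2 V × ℕ => (volume : Measure I)) (permRing g)
  have h2 : (MeasurableEquiv.piCongrLeft (fun _ : Sym2 V × ℕ => I) (permRing g) :
      Lab V → Lab V) = actL g := by
    funext y i
    obtain ⟨j, rfl⟩ := (permRing g).surjective i
    rw [MeasurableEquiv.coe_piCongrLeft, Equiv.piCongrLeft_apply_apply]
    unfold actL permRing
    simp [sym2_map_symm_map]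
  rw [h2] at h
  exact h

/-! ### Locality -/

lemma str_congr (G : SimpleGraph V) {t t' : Lab V}
    (ht : ∀ e ∈ G.edgeSet, ∀ k, t (e, k) = t' (e, k)) (e : Sym2 V) (he : e ∈ G.edgeSet) (k : ℕ) :
    str G t e k = str G t' e k := by
  unfold str
  rw [ht e he k]

lemma postM_congr (G : SimpleGraph V) {t t' : Lab V} {y y' : Sym2 V × ℕ → ℝ}
    (ht : ∀ e ∈ G.edgeSet, ∀ k, t (e, k) = t' (e, k))
    (hy : ∀ e ∈ G.edgeSet, ∀ k, y (e, k) = y' (e, k)) (e : Sym2 V) (he : e ∈ G.edgeSet)
    (k : ℕ) : postM G t y (e, k) = postM G t' y' (e, k) := by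
  unfold postM
  simp only
  rw [ht e he k]
  have h1 : ∀ f ∈ G.edgeSet, fld G t y k (t' (e, k)) f = fld G t' y' k (t' (e, k)) f := by
    intro f hf
    unfold fld
    rw [ht f hf k, str_congr G ht f hf k, hy f hf k]
    congr 1
    refine Finset.sum_congr rfl fun l _ => ?_
    rw [str_congr G ht f hf l, hy f hf l]
  induction e using Sym2.ind with
  | _ a b =>
    rw [mmE_mk, mmE_mk, mm_congr G h1 a b]

/-- `yPic` on edges of `G` depends only on labels of edges of `G`. -/
theorem yPic_congr (G : SimpleGraph V) {t u t' u' : Lab V}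
    (ht : ∀ e ∈ G.edgeSet, ∀ k, t (e, k) = t' (e, k))
    (hu : ∀ e ∈ G.edgeSet, ∀ k, u (e, k) = u' (e, k)) (j : ℕ) (e : Sym2 V) (he : e ∈ G.edgeSet)
    (k : ℕ) : yPic G t u j (e, k) = yPic G t' u' j (e, k) := by
  induction j generalizing e k with
  | zero => rfl
  | succ j ih =>
    simp only [yPic]
    rw [str_congr G ht e he k, hu e he k, postM_congr G ht (fun f hf l => ih f hf l) e he k]

end

end Vale.Agent.Fusf
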