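import Vale.Agent.Lib.P143.Defs

/-!
# Resampling one coordinate of an iid family
-/

open MeasureTheory Filter Topology
open scoped ENNReal unitInterval Classical

namespace Vale.Agent.Fusf

noncomputable section

section general

variable {ι : Type*} [DecidableEq ι]

theorem measurable_update_pair (i : ι) :
    Measurable (fun p : (ι → I) × I => Function.update p.1 i p.2) := by
  rw [measurable_pi_iff]
  intro j
  by_cases hj : j = i
  · subst hj
    simpa using measurable_snd
  · simp only [Function.update_of_ne hj]
    exact (measurable_pi_apply j).comp measurable_fst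

/-- Resampling one coordinate preserves the product measure. -/
theorem resample (i : ι) :
    MeasurePreserving (fun p : (ι → I) × I => Function.update p.1 i p.2)
      ((Measure.infinitePi (fun _ : ι => (volume : Measure I))).prod volume)
      (Measure.infinitePi (fun _ : ι => (volume : Measure I))) := by
  refine ⟨measurable_update_pair i, ?_⟩
  refine Measure.eq_infinitePi _ fun s T hT => ?_
  have hms : MeasurableSet (Set.pi (s : Set ι) T) :=
    MeasurableSet.pi s.countable_toSet fun j _ => hT j
  rw [Measure.map_apply (measurable_update_pair i) hms]
  by_cases hi : i ∈ s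
  · have hpre : (fun p : (ι → I) × I => Function.update p.1 i p.2) ⁻¹' (Set.pi (s : Set ι) T)
        = (Set.pi ((s.erase i : Finset ι) : Set ι) T) ×ˢ (T i) := by
      ext p
      simp only [Set.mem_preimage, Set.mem_pi, Set.mem_prod, Finset.mem_coe, Finset.mem_erase]
      constructor
      · intro h
        refine ⟨fun j hj => ?_, ?_⟩
        · have := h j hj.2
          rwa [Function.update_of_ne hj.1] at this
        · have := h i hi
          rwa [Function.update_self] at this
      · rintro ⟨h1, h2⟩ j hj
        by_cases hji : j = i
        · subst hji
          rwa [Function.update_self]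
        · rw [Function.update_of_ne hji]
          exact h1 j ⟨hji, hj⟩
    rw [hpre, Measure.prod_prod, Measure.infinitePi_pi _ (fun j _ => hT j),
      Finset.prod_erase_mul _ _ hi]
  · have hpre : (fun p : (ι → I) × I => Function.update p.1 i p.2) ⁻¹' (Set.pi (s : Set ι) T)
        = (Set.pi (s : Set ι) T) ×ˢ Set.univ := by
      ext p
      simp only [Set.mem_preimage, Set.mem_pi, Set.mem_prod, Finset.mem_coe, Set.mem_univ,
        and_true]
      refine forall₂_congr fun j hj => ?_
      have : j ≠ i := fun h => hi (h ▸ hj)
      rw [Function.update_of_ne this]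
    rw [hpre, Measure.prod_prod, Measure.infinitePi_pi _ (fun j _ => hT j), measure_univ, mul_one]

/-- If `K s t` does not depend on the coordinate `t i` as long as `t i ≥ s`, then the integral at
the random time `s = t i` is controlled by the integral at fixed times. -/
theorem lintegral_at_time_le (i : ι) (r : ℝ) {K : I × (ι → I) → ℝ≥0∞} (hK : Measurable K)
    (hcaus : ∀ (s s' : I) (t : ι → I), s ≤ s' → K (s, Function.update t i s) =
      K (s, Function.update t i s')) :
    ∫⁻ t, (if ((t i : I) : ℝ) < 1 / 2 ∧ ((t i : I) : ℝ) < r then K (t i, t) else 0)
        ∂(Measure.infinitePi (fun _ : ι => (volume : Measure I))) ≤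
      2 * ∫⁻ s : I, (if (s : ℝ) < 1 / 2 ∧ (s : ℝ) < r then
        ∫⁻ t, K (s, t) ∂(Measure.infinitePi (fun _ : ι => (volume : Measure I))) else 0) := by
  set μ := Measure.infinitePi (fun _ : ι => (volume : Measure I)) with hμ
  have hset : MeasurableSet {s : I | (s : ℝ) < 1 / 2 ∧ (s : ℝ) < r} :=
    (measurableSet_lt measurable_subtype_coe measurable_const).inter
      (measurableSet_lt measurable_subtype_coe measurable_const)
  have hH : Measurable (fun t : ι → I =>
      if ((t i : I) : ℝ) < 1 / 2 ∧ ((t i : I) : ℝ) < r then K (t i, t) else 0) := by
    refine Measurable.ite ?_ ?_ measurable_const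
    · exact (measurable_pi_apply i : Measurable fun t : ι → I => t i) hset
    · exact hK.comp ((measurable_pi_apply i).prodMk measurable_id)
  rw [← (resample i).lintegral_comp hH]
  have hF : Measurable (fun p : (ι → I) × I => if ((p.2 : I) : ℝ) < 1 / 2 ∧ ((p.2 : I) : ℝ) < r then
      K (p.2, Function.update p.1 i p.2) else 0) := by
    refine Measurable.ite ?_ ?_ measurable_const
    · exact measurable_snd hset
    · exact hK.comp (measurable_snd.prodMk (measurable_update_pair i))
  simp only [Function.update_self]
  rw [lintegral_prod_symm' _ hF, ← lintegral_const_mul']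
  · refine lintegral_mono fun s => ?_
    by_cases hs : (s : ℝ) < 1 / 2 ∧ (s : ℝ) < r
    · simp only [hs, and_self, if_true]
      have hres : ∫⁻ t, K (s, t) ∂μ = ∫⁻ t, (∫⁻ s' : I, K (s, Function.update t i s')) ∂μ := by
        have hKs : Measurable (fun t : ι → I => K (s, t)) :=
          hK.comp (measurable_const.prodMk measurable_id)
        rw [← (resample i).lintegral_comp hKs]
        exact lintegral_prod _ (hKs.comp (measurable_update_pair i)).aemeasurable
      rw [hres, ← lintegral_const_mul' _ _ (by norm_num)]
      refine lintegral_mono fun t => ?_
      have hge : K (s, Function.update t i s) * (2 : ℝ≥0∞)⁻¹ ≤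
          ∫⁻ s' : I, K (s, Function.update t i s') := by
        calc K (s, Function.update t i s) * (2 : ℝ≥0∞)⁻¹
            = ∫⁻ _ in Set.Ici (⟨1 / 2, by norm_num, by norm_num⟩ : I),
                K (s, Function.update t i s) := by
              rw [setLIntegral_const, unitInterval.volume_Ici]
              congr 1
              simp only
              rw [show (1 - 1 / 2 : ℝ) = (2 : ℝ)⁻¹ by norm_num,
                ENNReal.ofReal_inv_of_pos (by norm_num)]
              simp
          _ = ∫⁻ s' in Set.Ici (⟨1 / 2, by norm_num, by norm_num⟩ : I),
                K (s, Function.update t i s') := by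
              refine setLIntegral_congr_fun measurableSet_Ici fun s' hs' => ?_
              refine hcaus s s' t ?_
              have h1 : (1 / 2 : ℝ) ≤ s' := hs'
              exact Subtype.coe_le_coe.1 (hs.1.le.trans h1)
          _ ≤ _ := setLIntegral_le_lintegral _ _
      calc K (s, Function.update t i s)
          = 2 * (K (s, Function.update t i s) * (2 : ℝ≥0∞)⁻¹) := by
            rw [mul_comm (K _), ← mul_assoc, ENNReal.mul_inv_cancel (by norm_num) (by norm_num),
              one_mul]
        _ ≤ 2 * ∫⁻ s' : I, K (s, Function.update t i s') := by gcongr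
    · simp only [hs, if_false, lintegral_zero, mul_zero, le_refl]
  · norm_num

end general

end

end Vale.Agent.Fusf
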