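import Mathlib
import Vale.Agent.Lib.P143.Defs
import Vale.Agent.Lib.P143.Proj
import Vale.Agent.Lib.P143.Meas
import Vale.Agent.Lib.P143.Resample
import Vale.Agent.Lib.P143.Innov4

/-!
# Module INNOV, part 5: all innovations at once
-/

open MeasureTheory Filter Topology
open scoped ENNReal NNReal unitInterval Classical BoundedContinuousFunction

namespace Vale.Agent.Fusf.Inn

noncomputable section

variable {V : Type*}

theorem lintegral_lam_eq {S : Finset (Sym2 V × ℕ)} {F : Lab V → ℝ≥0∞} (hF : Measurable F)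
    (hdep : ∀ w w' : Lab V, (∀ i ∈ S, w i = w' i) → F w = F w') (w0 : Lab V) :
    ∫⁻ w, F w ∂(lam V) = lmarginal (fun _ => (volume : Measure I)) S F w0 := by
  have h1 : ∀ w : Lab V,
      F w = (fun z : (S → I) => F (Function.updateFinset w0 S z)) (S.restrict w) := by
    intro w
    refine hdep _ _ fun i hi => ?_
    simp [Function.updateFinset, hi]
  rw [lintegral_congr h1]
  unfold lam
  exact lintegral_restrict_infinitePi (μ := fun _ : Sym2 V × ℕ => (volume : Measure I))
    (hF.comp measurable_updateFinset)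

theorem measurable_yTrue_xw [Countable V] (G : SimpleGraph V) (t : Lab V) :
    Measurable (fun p : Set (Sym2 V) × Lab V => yTrue G p.1 t p.2) := by
  rw [measurable_pi_iff]
  intro i
  have h1 : Measurable (fun p : Set (Sym2 V) × Lab V => (G, p.1, t, p.2)) := by fun_prop
  exact (measurable_yTrue i).comp h1

theorem measurable_innov_xw [Countable V] (G : SimpleGraph V) (t : Lab V) :
    Measurable (fun p : Set (Sym2 V) × Lab V => innov G p.1 t p.2) := by
  have h1 : Measurable (fun p : Set (Sym2 V) × Lab V => (G, p.1, t, p.2)) := by fun_prop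
  have h2 := (measurable_innov (V := V)).comp h1
  exact h2

theorem finite_law [Countable V] {G : SimpleGraph V} {μ : Measure (Set (Sym2 V))}
    (hμ : IsForestLaw G μ) {t : Lab V} (ht : NoTie t) {s S : Finset (Sym2 V × ℕ)} (hs : s ⊆ S) :
    (μ.prod (lam V)).map (fun p => fun i : s => uY G t (trunc S (yTrue G p.1 t p.2)) i) =
      Measure.pi (fun _ : s => (volume : Measure I)) := by
  have := hμ.prob
  symm
  refine Measure.pi_eq fun T hT => ?_
  have huY : ∀ i, Measurable (fun p : Set (Sym2 V) × Lab V =>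
      uY G t (trunc S (yTrue G p.1 t p.2)) i) :=
    fun i => (measurable_uY G t i).comp ((measurable_trunc S).comp (measurable_yTrue_xw G t))
  have hmap : Measurable (fun p : Set (Sym2 V) × Lab V =>
      fun i : s => uY G t (trunc S (yTrue G p.1 t p.2)) i) :=
    measurable_pi_lambda _ fun i => huY i
  rw [Measure.map_apply hmap (MeasurableSet.univ_pi hT),
    ← lintegral_indicator_one (hmap (MeasurableSet.univ_pi hT))]
  let ψ : Sym2 V × ℕ → I → ℝ≥0∞ := fun i => if h : i ∈ s then (T ⟨i, h⟩).indicator 1 else 1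
  have hψ : ∀ i, Measurable (ψ i) := by
    intro i
    by_cases h : i ∈ s
    · simp only [ψ, dif_pos h]
      exact measurable_one.indicator (hT ⟨i, h⟩)
    · simp only [ψ, dif_neg h]
      exact measurable_one
  have h1 : ∀ p : Set (Sym2 V) × Lab V,
      ((fun p : Set (Sym2 V) × Lab V => fun i : s => uY G t (trunc S (yTrue G p.1 t p.2)) i) ⁻¹'
        (Set.univ.pi T)).indicator (1 : Set (Sym2 V) × Lab V → ℝ≥0∞) p
      = ∏ i ∈ S, ψ i (uY G t (trunc S (yTrue G p.1 t p.2)) i) := by
    intro p
    by_cases hp : ∀ i : s, uY G t (trunc S (yTrue G p.1 t p.2)) i ∈ T i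
    · rw [Set.indicator_of_mem (by
        simp only [Set.mem_preimage, Set.mem_pi, Set.mem_univ, forall_const]; exact hp)]
      symm
      refine Finset.prod_eq_one fun i hi => ?_
      by_cases h : i ∈ s
      · simp only [ψ, dif_pos h]
        rw [Set.indicator_of_mem (hp ⟨i, h⟩)]
        rfl
      · simp only [ψ, dif_neg h]
        rfl
    · rw [Set.indicator_of_notMem (by
        simp only [Set.mem_preimage, Set.mem_pi, Set.mem_univ, forall_const]; exact hp)]
      push Not at hp
      obtain ⟨i, hi⟩ := hp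
      symm
      refine Finset.prod_eq_zero (hs i.2) ?_
      simp only [ψ, dif_pos i.2]
      exact Set.indicator_of_notMem hi _
  have hprodm : Measurable (fun p : Set (Sym2 V) × Lab V =>
      ∏ i ∈ S, ψ i (uY G t (trunc S (yTrue G p.1 t p.2)) i)) :=
    Finset.measurable_prod _ fun i _ => (hψ i).comp (huY i)
  rw [lintegral_congr h1, lintegral_prod _ hprodm.aemeasurable]
  let w0 : Lab V := fun _ => 0
  have h2 : ∀ x, ∫⁻ w, ∏ i ∈ S, ψ i (uY G t (trunc S (yTrue G x t w)) i) ∂(lam V)
      = lmarginal (fun _ => (volume : Measure I)) S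
        (fun w : Lab V => ∏ i ∈ S, ψ i (uY G t (trunc S (yTrue G x t w)) i)) w0 := by
    intro x
    refine lintegral_lam_eq (hprodm.comp measurable_prodMk_left) ?_ w0
    intro w w' hww
    have h3 : trunc S (yTrue G x t w) = trunc S (yTrue G x t w') := by
      ext j
      unfold trunc
      by_cases hj : j ∈ S
      · rw [if_pos hj, if_pos hj, yTrue_eq, yTrue_eq]
        beta_reduce
        rw [hww j hj]
      · rw [if_neg hj, if_neg hj]
    simp only [Function.comp_apply]
    rw [h3]
  rw [lintegral_congr h2, finite_innov hμ t ht w0 S.card S rfl ψ hψ]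
  have h4 : ∀ i ∈ S, i ∉ s → ∫⁻ u : I, ψ i u = 1 := by
    intro i _ h
    simp only [ψ, dif_neg h]
    simp
  rw [← Finset.prod_subset hs h4, ← Finset.prod_coe_sort s (fun i => ∫⁻ u : I, ψ i u)]
  refine Finset.prod_congr rfl fun i _ => ?_
  simp only [ψ, dif_pos i.2]
  rw [lintegral_indicator_one (hT i)]

theorem abs_fld_le {G : SimpleGraph V} {t : Lab V} {y : Sym2 V × ℕ → ℝ}
    (hy : ∀ i, y i ∈ Set.Icc (-1 : ℝ) 1) (k : ℕ) (r : ℝ) (e : Sym2 V) :
    |fld G t y k r e| ≤ 2 * (k + 1) := by
  unfold fld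
  have h1 : |∑ l ∈ Finset.range k, gg (str G t e l) (y (e, l))| ≤ ∑ _l ∈ Finset.range k, (2 : ℝ) :=
    (Finset.abs_sum_le_sum_abs _ _).trans (Finset.sum_le_sum fun l _ =>
      abs_gg_le (str_nonneg G t e l) (str_le G t e l) (hy _))
  rw [Finset.sum_const, Finset.card_range, nsmul_eq_mul] at h1
  have h2 : |if (t (e, k) : ℝ) < r then gg (str G t e k) (y (e, k)) else 0| ≤ 2 := by
    split_ifs
    · exact abs_gg_le (str_nonneg G t e k) (str_le G t e k) (hy _)
    · norm_num
  refine (abs_add_le _ _).trans ?_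
  linarith

theorem trunc_mem {y : Sym2 V × ℕ → ℝ} (hy : ∀ i, y i ∈ Set.Icc (-1 : ℝ) 1)
    (S : Finset (Sym2 V × ℕ)) (i : Sym2 V × ℕ) : trunc S y i ∈ Set.Icc (-1 : ℝ) 1 := by
  unfold trunc
  split_ifs
  · exact hy i
  · constructor <;> norm_num

theorem eventually_trunc (y : Sym2 V × ℕ → ℝ) (i : Sym2 V × ℕ) :
    ∀ᶠ S : Finset (Sym2 V × ℕ) in atTop, trunc S y i = y i := by
  filter_upwards [eventually_ge_atTop {i}] with S hS
  unfold trunc
  rw [if_pos (hS (Finset.mem_singleton_self i))]

theorem tendsto_uY (G : SimpleGraph V) (t : Lab V) {y : Sym2 V × ℕ → ℝ}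
    (hy : ∀ i, y i ∈ Set.Icc (-1 : ℝ) 1) (i : Sym2 V × ℕ) :
    Tendsto (fun S : Finset (Sym2 V × ℕ) => uY G t (trunc S y) i) atTop (𝓝 (uY G t y i)) := by
  have hfld : ∀ e, Tendsto (fun S : Finset (Sym2 V × ℕ) => fld G t (trunc S y) i.2 (t i) e) atTop
      (𝓝 (fld G t y i.2 (t i) e)) := by
    intro e
    refine tendsto_const_nhds.congr' ?_
    have h1 : ∀ᶠ S : Finset (Sym2 V × ℕ) in atTop, ∀ l ∈ Finset.range (i.2 + 1),
        trunc S y (e, l) = y (e, l) :=
      (Finset.eventually_all _).2 fun l _ => eventually_trunc y (e, l)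
    filter_upwards [h1] with S hS
    unfold fld
    rw [hS i.2 (by simp)]
    congr 1
    refine Finset.sum_congr rfl fun l hl => ?_
    rw [hS l (by rw [Finset.mem_range] at hl ⊢; omega)]
  have hpost : Tendsto (fun S : Finset (Sym2 V × ℕ) => postM G t (trunc S y) i) atTop
      (𝓝 (postM G t y i)) := by
    unfold postM
    refine Tendsto.sub_const (Tendsto.const_mul 2 ?_) 1
    obtain ⟨e, k⟩ := i
    induction e using Sym2.ind with
    | _ a b =>
      exact tendsto_mm G (Eventually.of_forall fun S e => abs_fld_le (trunc_mem hy S) _ _ e)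
        (fun e => abs_fld_le hy _ _ e) hfld a b
  have hFF : Tendsto (fun S : Finset (Sym2 V × ℕ) =>
      FF (str G t i.1 i.2) (y i) (postM G t (trunc S y) i)) atTop
      (𝓝 (FF (str G t i.1 i.2) (y i) (postM G t y i))) := by
    have hc : Continuous (fun m : ℝ => FF (str G t i.1 i.2) (y i) m) := by
      unfold FF
      fun_prop
    exact (hc.tendsto _).comp hpost
  unfold uY
  refine ((continuous_projIcc (h := zero_le_one)).tendsto _).comp (hFF.congr' ?_)
  filter_upwards [eventually_trunc y i] with S hS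
  rw [hS]

theorem yTrue_mem (G : SimpleGraph V) (x : Set (Sym2 V)) (t w : Lab V) (i : Sym2 V × ℕ) :
    yTrue G x t w i ∈ Set.Icc (-1 : ℝ) 1 := by
  rw [yTrue_eq]
  exact QQ_mem (str_nonneg G t _ _) (str_le G t _ _) (w i).2 (spin_mem x i.1)

theorem marginal_law [Countable V] {G : SimpleGraph V} {μ : Measure (Set (Sym2 V))}
    (hμ : IsForestLaw G μ) {t : Lab V} (ht : NoTie t) (s : Finset (Sym2 V × ℕ)) :
    (μ.prod (lam V)).map (fun p => fun i : s => innov G p.1 t p.2 i) =
      Measure.pi (fun _ : s => (volume : Measure I)) := by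
  have := hμ.prob
  have hmi : Measurable (fun p : Set (Sym2 V) × Lab V => fun i : s => innov G p.1 t p.2 i) :=
    measurable_pi_lambda _ fun i => (measurable_pi_apply _).comp (measurable_innov_xw G t)
  refine ext_of_forall_lintegral_eq_of_IsFiniteMeasure fun f => ?_
  have hfm : Measurable (fun z : s → I => (f z : ℝ≥0∞)) :=
    measurable_coe_nnreal_ennreal.comp f.continuous.measurable
  have huY : ∀ S i, Measurable (fun p : Set (Sym2 V) × Lab V =>
      uY G t (trunc S (yTrue G p.1 t p.2)) i) :=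
    fun S i => (measurable_uY G t i).comp ((measurable_trunc S).comp (measurable_yTrue_xw G t))
  have hmap : ∀ S, Measurable (fun p : Set (Sym2 V) × Lab V =>
      fun i : s => uY G t (trunc S (yTrue G p.1 t p.2)) i) :=
    fun S => measurable_pi_lambda _ fun i => huY S i
  rw [lintegral_map hfm hmi]
  have h1 : Tendsto (fun S : Finset (Sym2 V × ℕ) => ∫⁻ p, (f (fun i : s =>
      uY G t (trunc S (yTrue G p.1 t p.2)) i) : ℝ≥0∞) ∂(μ.prod (lam V))) atTop
      (𝓝 (∫⁻ p, (f (fun i : s => innov G p.1 t p.2 i) : ℝ≥0∞) ∂(μ.prod (lam V)))) := by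
    refine tendsto_lintegral_filter_of_dominated_convergence (fun _ => (nndist f 0 : ℝ≥0∞))
      (Eventually.of_forall fun S => hfm.comp (hmap S)) (Eventually.of_forall fun S =>
        ae_of_all _ fun p => ?_) (by simp) (ae_of_all _ fun p => ?_)
    · have := BoundedContinuousFunction.NNReal.upper_bound f (fun i : s =>
        uY G t (trunc S (yTrue G p.1 t p.2)) i)
      exact_mod_cast this
    · refine (ENNReal.continuous_coe.tendsto _).comp ((f.continuous.tendsto _).comp ?_)
      rw [tendsto_pi_nhds]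
      intro i
      exact tendsto_uY G t (yTrue_mem G p.1 t p.2) i
  have h2 : ∀ᶠ S : Finset (Sym2 V × ℕ) in atTop,
      ∫⁻ z, (f z : ℝ≥0∞) ∂(Measure.pi (fun _ : s => (volume : Measure I)))
      = ∫⁻ p, (f (fun i : s =>
      uY G t (trunc S (yTrue G p.1 t p.2)) i) : ℝ≥0∞) ∂(μ.prod (lam V)) := by
    filter_upwards [eventually_ge_atTop s] with S hS
    rw [← finite_law hμ ht hS, lintegral_map hfm (hmap S)]
  exact tendsto_nhds_unique h1 (tendsto_const_nhds.congr' h2)

theorem innov_law_t [Countable V] {G : SimpleGraph V} {μ : Measure (Set (Sym2 V))}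
    (hμ : IsForestLaw G μ) {t : Lab V} (ht : NoTie t) :
    (μ.prod (lam V)).map (fun p => innov G p.1 t p.2) = lam V := by
  have := hμ.prob
  refine Measure.eq_infinitePi _ fun s T hT => ?_
  have hm := measurable_innov_xw G t
  have hmi : Measurable (fun p : Set (Sym2 V) × Lab V => fun i : s => innov G p.1 t p.2 i) :=
    measurable_pi_lambda _ fun i => (measurable_pi_apply _).comp hm
  have h1 := marginal_law hμ ht s
  have hms : MeasurableSet (Set.pi (s : Set (Sym2 V × ℕ)) T) :=
    MeasurableSet.pi s.countable_toSet fun j _ => hT j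
  have h2 : (fun p : Set (Sym2 V) × Lab V => innov G p.1 t p.2) ⁻¹' (Set.pi (s : Set _) T)
      = (fun p : Set (Sym2 V) × Lab V => fun i : s => innov G p.1 t p.2 i) ⁻¹'
        (Set.univ.pi fun i : s => T i) := by
    ext p
    simp only [Set.mem_preimage, Set.mem_pi, Finset.mem_coe, Set.mem_univ, forall_const,
      Subtype.forall]
  rw [Measure.map_apply hm hms, h2, ← Measure.map_apply hmi
    (MeasurableSet.univ_pi fun i => hT i), h1, Measure.pi_pi,
    Finset.prod_coe_sort s (fun i => (volume : Measure I) (T i))]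

theorem ae_ne [Countable V] {i j : Sym2 V × ℕ} (hij : i ≠ j) : ∀ᵐ t ∂(lam V), t i ≠ t j := by
  have h1 : MeasurableSet {t : Lab V | t i = t j} :=
    measurableSet_eq_fun (measurable_pi_apply i) (measurable_pi_apply j)
  have h2 := (resample i).measure_preimage (s := {t : Lab V | t i = t j})
    h1.nullMeasurableSet
  rw [ae_iff]
  simp only [ne_eq, not_not]
  change (lam V) {t : Lab V | t i = t j} = 0
  unfold lam
  rw [← h2]
  have h3 : MeasurableSet ((fun p : (Sym2 V × ℕ → I) × I => Function.update p.1 i p.2) ⁻¹'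
      {t : Lab V | t i = t j}) := (measurable_update_pair i) h1
  rw [Measure.measure_prod_null h3]
  refine ae_of_all _ fun t => ?_
  have h4 : Prod.mk t ⁻¹' ((fun p : (Sym2 V × ℕ → I) × I => Function.update p.1 i p.2) ⁻¹'
      {t : Lab V | t i = t j}) = {t j} := by
    ext z
    simp only [Set.mem_preimage, Set.mem_ofPred_eq, Function.update_self,
      Function.update_of_ne hij.symm, Set.mem_singleton_iff]
  change volume (Prod.mk t ⁻¹' ((fun p : (Sym2 V × ℕ → I) × I => Function.update p.1 i p.2) ⁻¹'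
      {t : Lab V | t i = t j})) = 0
  rw [h4]
  simp

theorem ae_noTie [Countable V] : ∀ᵐ t ∂(lam V), NoTie t := by
  have h1 : ∀ᵐ t ∂(lam V), ∀ i j : Sym2 V × ℕ, i ≠ j → t i ≠ t j := by
    rw [ae_all_iff]
    intro i
    rw [ae_all_iff]
    intro j
    by_cases hij : i = j
    · exact ae_of_all _ fun t h => absurd hij h
    · filter_upwards [ae_ne hij] with t ht _ using ht
  filter_upwards [h1] with t ht i j _ htij
  by_contra h
  exact ht i j h htij

end

end Vale.Agent.Fusf.Inn
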