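import Mathlib
import Vale.Agent.Lib.P143.Defs
import Vale.Agent.Lib.P143.Innov5

/-!
# Module INNOV: the innovations are independent, uniform, and independent of the times
-/

open MeasureTheory Filter Topology
open scoped ENNReal unitInterval Classical

namespace Vale.Agent.Fusf

noncomputable section

variable {V : Type*}

/-- The times and the innovations are independent families of independent uniform variables. -/
theorem innov_law [Countable V] {G : SimpleGraph V} {μ : Measure (Set (Sym2 V))}
    (hμ : IsForestLaw G μ) :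
    (μ.prod ((lam V).prod (lam V))).map (fun p => (p.2.1, innov G p.1 p.2.1 p.2.2)) =
      (lam V).prod (lam V) := by
  have := hμ.prob
  have h1 : Measurable (fun p : Set (Sym2 V) × Lab V × Lab V => (G, p.1, p.2.1, p.2.2)) := by
    fun_prop
  have h2 := (measurable_innov (V := V)).comp h1
  have h3 : Measurable (fun p : Set (Sym2 V) × Lab V × Lab V => innov G p.1 p.2.1 p.2.2) := h2
  have h4 : Measurable (fun p : Set (Sym2 V) × Lab V × Lab V =>
      (p.2.1, innov G p.1 p.2.1 p.2.2)) := (measurable_fst.comp measurable_snd).prodMk h3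
  refine Measure.ext fun A hA => ?_
  rw [Measure.map_apply h4 hA, Measure.prod_apply (h4 hA), Measure.prod_apply hA]
  have h5 : ∀ x : Set (Sym2 V), ((lam V).prod (lam V)) (Prod.mk x ⁻¹'
      ((fun p : Set (Sym2 V) × Lab V × Lab V => (p.2.1, innov G p.1 p.2.1 p.2.2)) ⁻¹' A))
      = ∫⁻ t, (lam V) {w | (t, innov G x t w) ∈ A} ∂(lam V) := by
    intro x
    rw [Measure.prod_apply (measurable_prodMk_left (h4 hA))]
    rfl
  rw [lintegral_congr h5]
  have h6 : Measurable (fun q : Set (Sym2 V) × Lab V =>
      (lam V) {w | (q.2, innov G q.1 q.2 w) ∈ A}) := by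
    have h7 : Measurable (fun p : (Set (Sym2 V) × Lab V) × Lab V => (p.1.1, p.1.2, p.2)) := by
      fun_prop
    exact measurable_measure_prodMk_left (h7 (h4 hA))
  rw [lintegral_lintegral_swap h6.aemeasurable]
  refine lintegral_congr_ae ?_
  filter_upwards [Inn.ae_noTie (V := V)] with t ht
  have h8 := Inn.innov_law_t hμ ht
  have h9 : MeasurableSet (Prod.mk t ⁻¹' A) := measurable_prodMk_left hA
  conv_rhs => rw [← h8]
  rw [Measure.map_apply (Inn.measurable_innov_xw G t) h9,
    Measure.prod_apply ((Inn.measurable_innov_xw G t) h9)]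
  rfl

end

end Vale.Agent.Fusf
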