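import Mathlib

/-!
# Zipping of infinite product measures
-/

open MeasureTheory Filter Topology

namespace Vale.Agent.Fusf

section

variable {ι : Type*} {X Y : ι → Type*} {mX : ∀ i, MeasurableSpace (X i)}
  {mY : ∀ i, MeasurableSpace (Y i)} (μ : ∀ i, Measure (X i)) (ν : ∀ i, Measure (Y i))
  [hμ : ∀ i, IsProbabilityMeasure (μ i)] [hν : ∀ i, IsProbabilityMeasure (ν i)]

/-- Unzipping a product of products. -/
theorem map_unzip :
    (Measure.infinitePi (fun i => (μ i).prod (ν i))).map
      (fun z => ((fun i => (z i).1, fun i => (z i).2) : (∀ i, X i) × (∀ i, Y i))) =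
      (Measure.infinitePi μ).prod (Measure.infinitePi ν) := by
  classical
  have hm : Measurable (fun z : ∀ i, X i × Y i =>
      ((fun i => (z i).1, fun i => (z i).2) : (∀ i, X i) × (∀ i, Y i))) := by fun_prop
  symm
  have spanX : (Measure.infinitePi μ).FiniteSpanningSetsIn
      (squareCylinders fun i => {s : Set (X i) | MeasurableSet s}) :=
    ⟨fun _ => Set.univ, fun _ => ⟨∅, fun _ => Set.univ, by simp, by simp⟩,
      fun _ => measure_lt_top _ _, Set.iUnion_const _⟩
  have spanY : (Measure.infinitePi ν).FiniteSpanningSetsIn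
      (squareCylinders fun i => {s : Set (Y i) | MeasurableSet s}) :=
    ⟨fun _ => Set.univ, fun _ => ⟨∅, fun _ => Set.univ, by simp, by simp⟩,
      fun _ => measure_lt_top _ _, Set.iUnion_const _⟩
  refine Measure.prod_eq_generateFrom generateFrom_squareCylinders generateFrom_squareCylinders
    (isPiSystem_squareCylinders (fun _ => MeasurableSpace.isPiSystem_measurableSet) (by simp))
    (isPiSystem_squareCylinders (fun _ => MeasurableSpace.isPiSystem_measurableSet) (by simp))
    spanX spanY ?_
  rintro _ ⟨s, S, hS, rfl⟩ _ ⟨t, T, hT, rfl⟩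
  have hS' : ∀ i, MeasurableSet (S i) := fun i => hS i (Set.mem_univ i)
  have hT' : ∀ i, MeasurableSet (T i) := fun i => hT i (Set.mem_univ i)
  have mS : MeasurableSet ((s : Set ι).pi S) :=
    .pi s.countable_toSet fun _ _ => hS' _
  have mT : MeasurableSet ((t : Set ι).pi T) :=
    .pi t.countable_toSet fun _ _ => hT' _
  rw [Measure.map_apply hm (mS.prod mT)]
  have e1 : (fun z : ∀ i, X i × Y i =>
      ((fun i => (z i).1, fun i => (z i).2) : (∀ i, X i) × (∀ i, Y i))) ⁻¹'
      (((s : Set ι).pi S) ×ˢ ((t : Set ι).pi T)) =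
      ((s ∪ t : Finset ι) : Set ι).pi (fun i => (if i ∈ s then S i else Set.univ) ×ˢ
        (if i ∈ t then T i else Set.univ)) := by
    ext z
    simp only [Set.mem_preimage, Set.mem_prod, Set.mem_pi, Finset.coe_union, Set.mem_union,
      Finset.mem_coe]
    constructor
    · rintro ⟨h1, h2⟩ i _
      constructor
      · split_ifs with hi
        · exact h1 i hi
        · trivial
      · split_ifs with hi
        · exact h2 i hi
        · trivial
    · intro h
      refine ⟨fun i hi => ?_, fun i hi => ?_⟩
      · have := (h i (Or.inl hi)).1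
        rwa [if_pos hi] at this
      · have := (h i (Or.inr hi)).2
        rwa [if_pos hi] at this
  have mif : ∀ i, MeasurableSet (if i ∈ s then S i else Set.univ) := fun i => by
    split_ifs
    exacts [hS' i, .univ]
  have mif' : ∀ i, MeasurableSet (if i ∈ t then T i else Set.univ) := fun i => by
    split_ifs
    exacts [hT' i, .univ]
  rw [e1, Measure.infinitePi_pi _ (fun i _ => (mif i).prod (mif' i)),
    Measure.infinitePi_pi _ (fun i _ => hS' i), Measure.infinitePi_pi _ (fun i _ => hT' i)]
  simp only [Measure.prod_prod, Finset.prod_mul_distrib]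
  congr 1
  · rw [← Finset.prod_subset (Finset.subset_union_left (s₁ := s) (s₂ := t))]
    · exact Finset.prod_congr rfl fun i hi => by rw [if_pos hi]
    · intro i _ hi
      rw [if_neg hi, measure_univ]
  · rw [← Finset.prod_subset (Finset.subset_union_right (s₁ := s) (s₂ := t))]
    · exact Finset.prod_congr rfl fun i hi => by rw [if_pos hi]
    · intro i _ hi
      rw [if_neg hi, measure_univ]

/-- Zipping two product measures. -/
theorem map_zip :
    ((Measure.infinitePi μ).prod (Measure.infinitePi ν)).map
      (fun p : (∀ i, X i) × (∀ i, Y i) => (fun i => (p.1 i, p.2 i) : ∀ i, X i × Y i)) =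
      Measure.infinitePi (fun i => (μ i).prod (ν i)) := by
  rw [← map_unzip, Measure.map_map (by fun_prop) (by fun_prop)]
  exact Measure.map_id

end

end Vale.Agent.Fusf
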