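import Vale.Agent.Lib.P143.Defs
import Vale.Agent.Lib.P143.Zip

/-!
# Ring labels as an equivariant function of vertex labels
-/

open MeasureTheory Filter Topology
open scoped ENNReal unitInterval Classical

namespace Vale.Agent.Fusf

noncomputable section

variable {V : Type*}

/-- Splitting one uniform label into a uniform label and a sequence of pairs of labels. -/
theorem exists_split : ∃ φ : I → I × (ℕ × ℕ → I × I), Measurable φ ∧
    (volume : Measure I).map φ = (volume : Measure I).prod
      (Measure.infinitePi (fun _ : ℕ × ℕ => (volume : Measure I).prod (volume : Measure I))) :=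
  Measure.exists_measurable_map_eq _

/-- Rank of the vertex `b` among the neighbours of `a` (for the order given by `s`). -/
def rk (G : SimpleGraph V) (s : V → I) (a b : V) : ℕ :=
  ⌊(∑' w, if G.Adj a w ∧ s w < s b then (1 : ℝ≥0∞) else 0).toReal⌋₊

/-- The label of an ordered pair. -/
def lb (G : SimpleGraph V) (s : V → I) (l : V → ℕ × ℕ → I × I) (k : ℕ) (a b : V) : I × I :=
  if G.Adj a b ∧ s a < s b then l a (rk G s a b, k) else
    if G.Adj b a ∧ s b < s a then l b (rk G s b a, k) else (0, 0)

theorem lb_swap (G : SimpleGraph V) (s : V → I) (l : V → ℕ × ℕ → I × I) (k : ℕ) (a b : V) :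
    lb G s l k a b = lb G s l k b a := by
  unfold lb
  by_cases h1 : G.Adj a b ∧ s a < s b
  · have h2 : ¬ (G.Adj b a ∧ s b < s a) := fun h => (h.2.trans h1.2).false
    rw [if_pos h1, if_neg h2, if_pos h1]
  · rw [if_neg h1]
    by_cases h2 : G.Adj b a ∧ s b < s a
    · rw [if_pos h2, if_pos h2]
    · rw [if_neg h2, if_neg h2, if_neg h1]

/-- The label of a ring. -/
def lbE (G : SimpleGraph V) (s : V → I) (l : V → ℕ × ℕ → I × I) (i : Sym2 V × ℕ) : I × I :=
  Sym2.lift ⟨fun a b => lb G s l i.2 a b, fun a b => lb_swap G s l i.2 a b⟩ i.1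

@[simp] theorem lbE_mk (G : SimpleGraph V) (s : V → I) (l : V → ℕ × ℕ → I × I) (a b : V) (k : ℕ) :
    lbE G s l (s(a, b), k) = lb G s l k a b := rfl

/-! ### Equivariance -/

theorem rk_act (g : Equiv.Perm V) (G : SimpleGraph V) (s : V → I) (a b : V) :
    rk (G.map g.toEmbedding) (s ∘ g.symm) a b = rk G s (g.symm a) (g.symm b) := by
  unfold rk
  congr 2
  rw [← Equiv.tsum_eq g]
  congr 1
  funext w
  have h1 : (G.map g.toEmbedding).Adj a (g w) ↔ G.Adj (g.symm a) w := by
    rw [show a = g.toEmbedding (g.symm a) by simp, show g w = g.toEmbedding w from rfl,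
      SimpleGraph.map_adj_apply]
    simp
  simp only [h1, Function.comp_apply, Equiv.symm_apply_apply]

theorem lb_act (g : Equiv.Perm V) (G : SimpleGraph V) (s : V → I) (l : V → ℕ × ℕ → I × I) (k : ℕ)
    (a b : V) : lb (G.map g.toEmbedding) (s ∘ g.symm) (l ∘ g.symm) k a b =
      lb G s l k (g.symm a) (g.symm b) := by
  unfold lb
  have h1 : ∀ a b, (G.map g.toEmbedding).Adj a b ↔ G.Adj (g.symm a) (g.symm b) := by
    intro a b
    conv_lhs => rw [show a = g.toEmbedding (g.symm a) by simp,
      show b = g.toEmbedding (g.symm b) by simp]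
    rw [SimpleGraph.map_adj_apply]
  simp only [h1, Function.comp_apply, rk_act]

theorem lbE_act (g : Equiv.Perm V) (G : SimpleGraph V) (s : V → I) (l : V → ℕ × ℕ → I × I)
    (i : Sym2 V × ℕ) : lbE (G.map g.toEmbedding) (s ∘ g.symm) (l ∘ g.symm) i =
      lbE G s l (Sym2.map g.symm i.1, i.2) := by
  obtain ⟨e, k⟩ := i
  induction e using Sym2.ind with
  | _ a b => simp only [lbE_mk, Sym2.map_mk, lb_act]

/-! ### Measurability -/

theorem measurable_rk [Countable V] (a b : V) :
    Measurable (fun p : SimpleGraph V × (V → I) => rk p.1 p.2 a b) := by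
  unfold rk
  apply Nat.measurable_floor.comp
  apply ENNReal.measurable_toReal.comp
  apply Measurable.tsum
  intro w
  apply Measurable.ite _ measurable_const measurable_const
  apply MeasurableSet.inter
  · exact measurableSet_setOfPred.2 (by fun_prop)
  · exact measurableSet_lt (by fun_prop) (by fun_prop)

theorem measurable_lb [Countable V] (k : ℕ) (a b : V) :
    Measurable (fun p : SimpleGraph V × (V → I) × (V → ℕ × ℕ → I × I) =>
      lb p.1 p.2.1 p.2.2 k a b) := by
  have h1 : ∀ a b, Measurable (fun p : SimpleGraph V × (V → I) × (V → ℕ × ℕ → I × I) =>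
      p.2.2 a (rk p.1 p.2.1 a b, k)) := by
    intro a b
    have h2 : Measurable (fun q : (SimpleGraph V × (V → I) × (V → ℕ × ℕ → I × I)) × ℕ =>
        q.1.2.2 a (q.2, k)) := by
      apply measurable_from_prod_countable_left
      intro n
      exact (measurable_pi_apply (n, k)).comp
        ((measurable_pi_apply a).comp (measurable_snd.comp measurable_snd))
    have h3 : Measurable (fun p : SimpleGraph V × (V → I) × (V → ℕ × ℕ → I × I) =>
        rk p.1 p.2.1 a b) :=
      (measurable_rk a b).comp (f := fun p : SimpleGraph V × (V → I) × (V → ℕ × ℕ → I × I) =>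
        (p.1, p.2.1)) (by fun_prop)
    exact h2.comp (measurable_id.prodMk h3)
  have h4 : ∀ a b, MeasurableSet {p : SimpleGraph V × (V → I) × (V → ℕ × ℕ → I × I) |
      p.1.Adj a b ∧ p.2.1 a < p.2.1 b} := by
    intro a b
    apply MeasurableSet.inter
    · exact measurableSet_setOfPred.2 (by fun_prop)
    · exact measurableSet_lt (by fun_prop) (by fun_prop)
  unfold lb
  exact Measurable.ite (h4 a b) (h1 a b) (Measurable.ite (h4 b a) (h1 b a) measurable_const)

theorem measurable_lbE [Countable V] (i : Sym2 V × ℕ) :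
    Measurable (fun p : SimpleGraph V × (V → I) × (V → ℕ × ℕ → I × I) =>
      lbE p.1 p.2.1 p.2.2 i) := by
  obtain ⟨e, k⟩ := i
  induction e using Sym2.ind with
  | _ a b => exact measurable_lb k a b

/-! ### Injectivity -/

theorem rk_eq {G : SimpleGraph V} (hlf : ∀ v, (G.neighborSet v).Finite) (s : V → I) (a b : V) :
    rk G s a b = {w | G.Adj a w ∧ s w < s b}.ncard := by
  have hfin : {w | G.Adj a w ∧ s w < s b}.Finite := (hlf a).subset fun w hw => hw.1
  unfold rk
  have h1 : (∑' w, if G.Adj a w ∧ s w < s b then (1 : ℝ≥0∞) else 0) =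
      (({w | G.Adj a w ∧ s w < s b}.ncard : ℕ) : ℝ≥0∞) := by
    rw [Set.ncard_eq_toFinset_card _ hfin, tsum_eq_sum (s := hfin.toFinset)]
    · rw [Finset.sum_congr rfl (g := fun _ => (1 : ℝ≥0∞))]
      · simp
      · intro w hw
        rw [Set.Finite.mem_toFinset] at hw
        exact if_pos hw
    · intro w hw
      rw [Set.Finite.mem_toFinset] at hw
      exact if_neg hw
  rw [h1]
  simp

theorem rk_inj {G : SimpleGraph V} (hlf : ∀ v, (G.neighborSet v).Finite) {s : V → I}
    (hs : Function.Injective s) {a b b' : V} (hb : G.Adj a b) (hb' : G.Adj a b')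
    (h : rk G s a b = rk G s a b') : b = b' := by
  have key : ∀ b b' : V, G.Adj a b → s b < s b' → rk G s a b < rk G s a b' := by
    intro b b' hb hlt
    rw [rk_eq hlf, rk_eq hlf]
    apply Set.ncard_lt_ncard _ ((hlf a).subset fun w hw => hw.1)
    rw [Set.ssubset_iff_of_subset]
    · exact ⟨b, ⟨hb, hlt⟩, fun h => (lt_irrefl _ h.2)⟩
    · exact fun w hw => ⟨hw.1, hw.2.trans hlt⟩
  rcases lt_trichotomy (s b) (s b') with h1 | h1 | h1
  · exact absurd h (key b b' hb h1).ne
  · exact hs h1
  · exact absurd h (key b' b hb' h1).ne'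

theorem exists_owner {G : SimpleGraph V} {s : V → I} (hs : Function.Injective s)
    (e : G.edgeSet) : ∃ p : V × V, (e : Sym2 V) = s(p.1, p.2) ∧ G.Adj p.1 p.2 ∧ s p.1 < s p.2 := by
  obtain ⟨e, he⟩ := e
  induction e using Sym2.ind with
  | _ a b =>
    have hab : G.Adj a b := he
    rcases lt_or_gt_of_ne (hs.ne hab.ne) with h | h
    · exact ⟨(a, b), rfl, hab, h⟩
    · exact ⟨(b, a), Sym2.eq_swap, hab.symm, h⟩

/-- For injective `s` the labels of the edges of `G` are read from different places. -/
theorem exists_index {G : SimpleGraph V} (hlf : ∀ v, (G.neighborSet v).Finite) {s : V → I}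
    (hs : Function.Injective s) : ∃ j : G.edgeSet × ℕ → V × (ℕ × ℕ), Function.Injective j ∧
      ∀ (l : V → ℕ × ℕ → I × I) (i : G.edgeSet × ℕ),
        lbE G s l ((i.1 : Sym2 V), i.2) = l (j i).1 (j i).2 := by
  choose p hp using exists_owner (G := G) hs
  refine ⟨fun i => ((p i.1).1, (rk G s (p i.1).1 (p i.1).2, i.2)), ?_, ?_⟩
  · rintro ⟨e, k⟩ ⟨e', k'⟩ h
    simp only [Prod.mk.injEq] at h
    obtain ⟨h1, h2, rfl⟩ := h
    have h3 : (p e).2 = (p e').2 := by
      apply rk_inj hlf hs (hp e).2.1 _ _
      · rw [h1]; exact (hp e').2.1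
      · rw [h2, h1]
    have h4 : e = e' := by
      apply Subtype.ext
      rw [(hp e).1, (hp e').1, h1, h3]
    rw [h4]
  · intro l i
    have h1 := hp i.1
    rw [h1.1, lbE_mk]
    unfold lb
    rw [if_pos h1.2]

/-! ### The law -/

theorem ae_injective [Countable V] :
    ∀ᵐ s ∂(Measure.infinitePi (fun _ : V => (volume : Measure I))), Function.Injective s := by
  have h : ∀ᵐ s ∂(Measure.infinitePi (fun _ : V => (volume : Measure I))),
      ∀ a b : V, a ≠ b → s a ≠ s b := by
    rw [ae_all_iff]
    intro a
    rw [ae_all_iff]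
    intro b
    by_cases hab : a = b
    · exact Eventually.of_forall fun s h => absurd hab h
    · have h1 := Measure.infinitePi_map_eval_prod (P := fun _ : V => (volume : Measure I)) hab
      have h2 : ∀ᵐ p ∂((volume : Measure I).prod (volume : Measure I)), p.1 ≠ p.2 := by
        have hd : MeasurableSet {p : I × I | p.1 = p.2} := measurableSet_diagonal
        rw [ae_iff]
        simp only [ne_eq, not_not]
        rw [Measure.measure_prod_null hd]
        apply Eventually.of_forall
        intro x
        have : Prod.mk x ⁻¹' {p : I × I | p.1 = p.2} = {x} := by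
          ext y
          simp [eq_comm]
        change volume (Prod.mk x ⁻¹' {p : I × I | p.1 = p.2}) = 0
        rw [this]
        simp
      rw [← h1] at h2
      have h3 := ae_of_ae_map (Measurable.aemeasurable (by fun_prop)) h2
      filter_upwards [h3] with s hs _
      exact hs
  filter_upwards [h] with s hs a b hab
  by_contra hne
  exact hs a b hne hab

/-- Pairs of labels at all edges. -/
abbrev mI : Measure (I × I) := (volume : Measure I).prod (volume : Measure I)

theorem law_index {G : SimpleGraph V} (hlf : ∀ v, (G.neighborSet v).Finite) {s : V → I}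
    (hs : Function.Injective s) :
    (Measure.infinitePi (fun _ : V => Measure.infinitePi (fun _ : ℕ × ℕ => mI))).map
      (fun l => fun i : G.edgeSet × ℕ => lbE G s l ((i.1 : Sym2 V), i.2)) =
    Measure.infinitePi (fun _ : G.edgeSet × ℕ => mI) := by
  obtain ⟨j, hj, hl⟩ := exists_index hlf hs
  simp_rw [hl]
  have h1 := Measure.infinitePi_map_curry_symm (fun (_ : V) (_ : ℕ × ℕ) => mI)
  have h2 := Measure.map_infinitePi_infinitePi_of_inj (P := fun _ : V × (ℕ × ℕ) => mI) hj
  rw [← h1, Measure.map_map (by fun_prop) (by fun_prop)] at h2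
  exact h2

theorem law_labels [Countable V] {G : SimpleGraph V} (hlf : ∀ v, (G.neighborSet v).Finite) :
    ((Measure.infinitePi (fun _ : V => (volume : Measure I))).prod
      (Measure.infinitePi (fun _ : V => Measure.infinitePi (fun _ : ℕ × ℕ => mI)))).map
      (fun p => fun i : G.edgeSet × ℕ => lbE G p.1 p.2 ((i.1 : Sym2 V), i.2)) =
    Measure.infinitePi (fun _ : G.edgeSet × ℕ => mI) := by
  have hm : Measurable (fun p : (V → I) × (V → ℕ × ℕ → I × I) =>
      fun i : G.edgeSet × ℕ => lbE G p.1 p.2 ((i.1 : Sym2 V), i.2)) := by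
    apply measurable_pi_iff.2
    intro i
    exact (measurable_lbE ((i.1 : Sym2 V), i.2)).comp
      (f := fun p : (V → I) × (V → ℕ × ℕ → I × I) => (G, p.1, p.2)) (by fun_prop)
  ext S hS
  rw [Measure.map_apply hm hS, Measure.prod_apply (hm hS)]
  have h1 : ∀ᵐ s ∂(Measure.infinitePi (fun _ : V => (volume : Measure I))),
      (Measure.infinitePi (fun _ : V => Measure.infinitePi (fun _ : ℕ × ℕ => mI)))
        (Prod.mk s ⁻¹' ((fun p : (V → I) × (V → ℕ × ℕ → I × I) =>
          fun i : G.edgeSet × ℕ => lbE G p.1 p.2 ((i.1 : Sym2 V), i.2)) ⁻¹' S)) =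
      Measure.infinitePi (fun _ : G.edgeSet × ℕ => mI) S := by
    filter_upwards [ae_injective] with s hs
    rw [← law_index hlf hs, Measure.map_apply _ hS]
    · rfl
    · exact hm.comp (measurable_const.prodMk measurable_id)
  rw [lintegral_congr_ae h1]
  simp

theorem exists_labels [Countable V] :
    ∃ L : SimpleGraph V × (V → I) → Lab V × Lab V, Measurable L ∧
      (∀ (g : Equiv.Perm V) (G : SimpleGraph V) (W : V → I),
        L (G.map g.toEmbedding, W ∘ g.symm) = (actL g (L (G, W)).1, actL g (L (G, W)).2)) ∧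
      ∀ G : SimpleGraph V, (∀ v, (G.neighborSet v).Finite) →
        ∀ F : Lab V × Lab V → Set (Sym2 V), Measurable F →
          (∀ t u t' u', (∀ e ∈ G.edgeSet, ∀ k, t (e, k) = t' (e, k)) →
            (∀ e ∈ G.edgeSet, ∀ k, u (e, k) = u' (e, k)) → F (t, u) = F (t', u')) →
          (Measure.infinitePi (fun _ : V => (volume : Measure I))).map (fun W => F (L (G, W))) =
            ((lam V).prod (lam V)).map F := by
  obtain ⟨φ, hφm, hφ⟩ := exists_split
  refine ⟨fun q => (fun i => (lbE q.1 (fun v => (φ (q.2 v)).1) (fun v => (φ (q.2 v)).2) i).1,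
    fun i => (lbE q.1 (fun v => (φ (q.2 v)).1) (fun v => (φ (q.2 v)).2) i).2), ?_, ?_, ?_⟩
  · have h1 : ∀ i : Sym2 V × ℕ, Measurable (fun q : SimpleGraph V × (V → I) =>
        lbE q.1 (fun v => (φ (q.2 v)).1) (fun v => (φ (q.2 v)).2) i) := fun i =>
      (measurable_lbE i).comp (f := fun q : SimpleGraph V × (V → I) =>
        (q.1, (fun v => (φ (q.2 v)).1), (fun v => (φ (q.2 v)).2))) (by fun_prop)
    exact (measurable_pi_iff.2 fun i => (h1 i).fst).prodMk (measurable_pi_iff.2 fun i => (h1 i).snd)
  · intro g G W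
    have h1 := fun i => lbE_act g G (fun v => (φ (W v)).1) (fun v => (φ (W v)).2) i
    ext i
    · exact congrArg (fun z => ((z.1 : I) : ℝ)) (h1 i)
    · exact congrArg (fun z => ((z.2 : I) : ℝ)) (h1 i)
  · intro G hlf F hF hFG
    obtain ⟨E, hE⟩ : ∃ E : (G.edgeSet × ℕ → I × I) → Lab V × Lab V, E = fun z =>
      (fun i => if h : i.1 ∈ G.edgeSet then (z (⟨i.1, h⟩, i.2)).1 else 0,
        fun i => if h : i.1 ∈ G.edgeSet then (z (⟨i.1, h⟩, i.2)).2 else 0) := ⟨_, rfl⟩
    have hEm : Measurable E := by
      rw [hE]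
      apply Measurable.prodMk
      · apply measurable_pi_iff.2
        intro i
        by_cases h : i.1 ∈ G.edgeSet
        · simp only [h, dif_pos]
          fun_prop
        · simp only [h]
          exact measurable_const
      · apply measurable_pi_iff.2
        intro i
        by_cases h : i.1 ∈ G.edgeSet
        · simp only [h, dif_pos]
          fun_prop
        · simp only [h]
          exact measurable_const
    have hFE : ∀ t u, F (t, u) = F (E (fun i => (t ((i.1 : Sym2 V), i.2), u ((i.1 : Sym2 V), i.2)))) := by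
      intro t u
      rw [hE]
      apply hFG
      · intro e he k
        simp only [he, dif_pos]
      · intro e he k
        simp only [he, dif_pos]
    have hR : ((lam V).prod (lam V)).map F =
        (Measure.infinitePi (fun _ : G.edgeSet × ℕ => mI)).map (F ∘ E) := by
      have h1 := map_zip (fun _ : Sym2 V × ℕ => (volume : Measure I))
        (fun _ : Sym2 V × ℕ => (volume : Measure I))
      have hinj : Function.Injective (fun i : G.edgeSet × ℕ => ((i.1 : Sym2 V), i.2)) := by
        rintro ⟨e, k⟩ ⟨e', k'⟩ h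
        simp only [Prod.mk.injEq] at h
        exact Prod.ext (Subtype.ext h.1) h.2
      have h2 := Measure.map_infinitePi_infinitePi_of_inj (P := fun _ : Sym2 V × ℕ => mI) hinj
      have hr : Measurable (fun (ω : Sym2 V × ℕ → I × I) (i : G.edgeSet × ℕ) =>
        ω ((i.1 : Sym2 V), i.2)) := by fun_prop
      rw [← h2, ← h1, Measure.map_map (hF.comp hEm) hr, Measure.map_map
        ((hF.comp hEm).comp hr) (by fun_prop)]
      congr 1
      funext p
      exact hFE p.1 p.2
    have hL : (Measure.infinitePi (fun _ : V => (volume : Measure I))).map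
        (fun W => ((fun v => (φ (W v)).1, fun v => (φ (W v)).2) :
          (V → I) × (V → ℕ × ℕ → I × I))) =
        (Measure.infinitePi (fun _ : V => (volume : Measure I))).prod
        (Measure.infinitePi (fun _ : V => Measure.infinitePi (fun _ : ℕ × ℕ => mI))) := by
      rw [← map_unzip]
      have h1 := Measure.infinitePi_map_pi (fun _ : V => (volume : Measure I))
        (f := fun _ : V => φ) (fun _ => hφm)
      rw [hφ] at h1
      rw [← h1, Measure.map_map (by fun_prop) (by fun_prop)]
      rfl
    have hm : Measurable (fun p : (V → I) × (V → ℕ × ℕ → I × I) =>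
        fun i : G.edgeSet × ℕ => lbE G p.1 p.2 ((i.1 : Sym2 V), i.2)) := by
      apply measurable_pi_iff.2
      intro i
      exact (measurable_lbE ((i.1 : Sym2 V), i.2)).comp
        (f := fun p : (V → I) × (V → ℕ × ℕ → I × I) => (G, p.1, p.2)) (by fun_prop)
    rw [hR, ← law_labels hlf, ← hL, Measure.map_map (hF.comp hEm) hm,
      Measure.map_map ((hF.comp hEm).comp hm) (by fun_prop)]
    congr 1
    funext W
    exact hFE _ _

end

end Vale.Agent.Fusf
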