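import Vale.Agent.Lib.P143.Proj
import Vale.Agent.Lib.P143.Kirchhoff

/-!
# Module LAW: existence, measurability and equivariance of the limit measures
-/

open MeasureTheory Filter Topology
open scoped ENNReal unitInterval Classical

namespace Vale.Agent.Fusf

noncomputable section

variable {V : Type*}

/-! ### Finitely supported tilts and their span -/

/-- Exponential of a finitely supported field summed over `x`. -/
def tl (h : Sym2 V →₀ ℝ) (x : Set (Sym2 V)) : ℝ :=
  Real.exp (h.sum fun e c => if e ∈ x then c else 0)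

theorem tl_zero : tl (0 : Sym2 V →₀ ℝ) = 1 := by
  ext x; simp [tl]

theorem tl_add (h h' : Sym2 V →₀ ℝ) : tl (h + h') = tl h * tl h' := by
  ext x
  simp only [tl, Pi.mul_apply]
  rw [Finsupp.sum_add_index' (by intros; simp) (by intros; split_ifs <;> simp), Real.exp_add]

theorem tl_single (e : Sym2 V) (c : ℝ) (x : Set (Sym2 V)) :
    tl (Finsupp.single e c) x = if e ∈ x then Real.exp c else 1 := by
  simp only [tl]
  rw [Finsupp.sum_single_index (by simp)]
  split_ifs <;> simp

theorem tl_pos (h : Sym2 V →₀ ℝ) (x : Set (Sym2 V)) : 0 < tl h x := Real.exp_pos _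

/-- Indicator of `e ∈ x`. -/
def ie (e : Sym2 V) (x : Set (Sym2 V)) : ℝ := if e ∈ x then 1 else 0

/-- Linear span of the tilts. -/
def W (V : Type*) : Submodule ℝ (Set (Sym2 V) → ℝ) := Submodule.span ℝ (Set.range tl)

theorem tl_mem_W (h : Sym2 V →₀ ℝ) : tl h ∈ W V := Submodule.subset_span ⟨h, rfl⟩

theorem one_mem_W : (1 : Set (Sym2 V) → ℝ) ∈ W V := by
  rw [← tl_zero]; exact tl_mem_W 0

theorem mul_mem_W {f f' : Set (Sym2 V) → ℝ} (hf : f ∈ W V) (hf' : f' ∈ W V) : f * f' ∈ W V := by
  have := Submodule.mul_mem_mul hf hf'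
  rw [W, Submodule.span_mul_span] at this
  refine Submodule.span_mono ?_ this
  rintro _ ⟨_, ⟨h, rfl⟩, _, ⟨h', rfl⟩, rfl⟩
  exact ⟨h + h', tl_add h h'⟩

theorem tl_single_eq (e : Sym2 V) (c : ℝ) :
    tl (Finsupp.single e c) = 1 + (Real.exp c - 1) • ie e := by
  ext x
  rw [tl_single]
  simp only [Pi.add_apply, Pi.one_apply, Pi.smul_apply, smul_eq_mul, ie]
  split_ifs <;> ring

theorem ie_eq (e : Sym2 V) : ie e = tl (Finsupp.single e (Real.log 2)) - 1 := by
  rw [tl_single_eq, Real.exp_log two_pos]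
  norm_num

theorem ie_mem_W (e : Sym2 V) : ie e ∈ W V := by
  rw [ie_eq]; exact (W V).sub_mem (tl_mem_W _) one_mem_W

/-- Indicator of a cylinder. -/
def ind (S A : Finset (Sym2 V)) (x : Set (Sym2 V)) : ℝ :=
  if ∀ e ∈ S, (e ∈ x ↔ e ∈ A) then 1 else 0

theorem ind_mem_W (S A : Finset (Sym2 V)) : ind S A ∈ W V := by
  induction S using Finset.induction_on with
  | empty =>
    have : ind (∅ : Finset (Sym2 V)) A = 1 := by ext x; simp [ind]
    rw [this]; exact one_mem_W
  | insert e S he ih =>
    have : ind (insert e S) A = (if e ∈ A then ie e else 1 - ie e) * ind S A := by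
      ext x
      simp only [ind, Finset.forall_mem_insert, Pi.mul_apply]
      by_cases h1 : e ∈ A <;> by_cases h2 : e ∈ x <;> simp [h1, h2, ie]
    rw [this]
    refine mul_mem_W ?_ ih
    split_ifs
    · exact ie_mem_W e
    · exact (W V).sub_mem one_mem_W (ie_mem_W e)

/-- Indicator of `S ⊆ x`. -/
def up (S : Finset (Sym2 V)) (x : Set (Sym2 V)) : ℝ := if ↑S ⊆ x then 1 else 0

theorem up_mem_W (S : Finset (Sym2 V)) : up S ∈ W V := by
  have : up S = ind S S := by
    ext x
    simp only [up, ind]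
    congr 1
    apply propext
    constructor
    · intro h e he; exact ⟨fun _ => he, fun _ => h he⟩
    · intro h e he; exact (h e he).2 he
  rw [this]; exact ind_mem_W S S

/-! ### Analytic properties of the functions in the span -/

theorem measurable_tl (h : Sym2 V →₀ ℝ) : Measurable (tl h) := by
  unfold tl Finsupp.sum
  refine Real.measurable_exp.comp (Finset.measurable_sum _ fun e _ => ?_)
  exact Measurable.ite (measurableSet_mem e) measurable_const measurable_const

theorem measurable_of_mem_W {f : Set (Sym2 V) → ℝ} (hf : f ∈ W V) : Measurable f := by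
  induction hf using Submodule.span_induction with
  | mem f hf => obtain ⟨h, rfl⟩ := hf; exact measurable_tl h
  | zero => exact measurable_const
  | add f g _ _ hf hg => exact hf.add hg
  | smul c f _ hf => exact hf.const_smul c

theorem bounded_of_mem_W {f : Set (Sym2 V) → ℝ} (hf : f ∈ W V) : ∃ C : ℝ, ∀ x, |f x| ≤ C := by
  induction hf using Submodule.span_induction with
  | mem f hf =>
    obtain ⟨h, rfl⟩ := hf
    refine ⟨Real.exp (h.sum fun _ c => |c|), fun x => ?_⟩
    rw [abs_of_pos (tl_pos h x)]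
    refine Real.exp_le_exp.2 (Finset.sum_le_sum fun e _ => ?_)
    dsimp only
    split_ifs
    · exact le_abs_self _
    · exact abs_nonneg _
  | zero => exact ⟨0, fun x => by simp⟩
  | add f g _ _ hf hg =>
    obtain ⟨C, hC⟩ := hf
    obtain ⟨D, hD⟩ := hg
    exact ⟨C + D, fun x => (abs_add_le _ _).trans (add_le_add (hC x) (hD x))⟩
  | smul c f _ hf =>
    obtain ⟨C, hC⟩ := hf
    refine ⟨|c| * C, fun x => ?_⟩
    rw [Pi.smul_apply, smul_eq_mul, abs_mul]
    exact mul_le_mul_of_nonneg_left (hC x) (abs_nonneg c)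

theorem integrable_of_mem_W {f : Set (Sym2 V) → ℝ} (hf : f ∈ W V) (μ : Measure (Set (Sym2 V)))
    [IsFiniteMeasure μ] : Integrable f μ := by
  obtain ⟨C, hC⟩ := bounded_of_mem_W hf
  refine Integrable.of_bound (measurable_of_mem_W hf).aestronglyMeasurable C ?_
  exact Filter.Eventually.of_forall fun x => by rw [Real.norm_eq_abs]; exact hC x

/-- Boolean configurations as sets. -/
def toSet (x : Sym2 V → Bool) : Set (Sym2 V) := {e | x e = true}

theorem measurable_toSet : Measurable (toSet : (Sym2 V → Bool) → Set (Sym2 V)) := by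
  refine measurable_set_iff.2 fun e => ?_
  exact (measurable_of_countable fun b : Bool => b = true).comp (measurable_pi_apply e)

theorem continuous_of_mem_W {f : Set (Sym2 V) → ℝ} (hf : f ∈ W V) :
    Continuous (fun x => f (toSet x)) := by
  induction hf using Submodule.span_induction with
  | mem f hf =>
    obtain ⟨h, rfl⟩ := hf
    unfold tl Finsupp.sum
    refine Real.continuous_exp.comp (continuous_finsetSum _ fun e _ => ?_)
    have h1 : Continuous fun b : Bool => if b = true then h e else 0 :=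
      continuous_of_discreteTopology
    have h2 : Continuous fun x : Sym2 V → Bool => x e := continuous_apply e
    refine (h1.comp h2).congr fun x => ?_
    by_cases hx : x e = true <;> simp [toSet, hx]
  | zero => exact continuous_const
  | add f g _ _ hf hg => exact hf.add hg
  | smul c f _ hf => exact hf.const_smul c

/-! ### Uniqueness -/

theorem generateFrom_up : (Set.instMeasurableSpace : MeasurableSpace (Set (Sym2 V))) =
    MeasurableSpace.generateFrom
      (Set.range fun S : Finset (Sym2 V) => {x : Set (Sym2 V) | ↑S ⊆ x}) := by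
  apply le_antisymm
  · have h1 : ∀ e : Sym2 V, @Measurable _ _ (MeasurableSpace.generateFrom
        (Set.range fun S : Finset (Sym2 V) => {x : Set (Sym2 V) | ↑S ⊆ x})) _
        (fun x : Set (Sym2 V) => e ∈ x) := by
      intro e
      refine (@measurableSet_setOfPred _ (MeasurableSpace.generateFrom
        (Set.range fun S : Finset (Sym2 V) => {x : Set (Sym2 V) | ↑S ⊆ x})) _).1 ?_
      refine MeasurableSpace.measurableSet_generateFrom ⟨{e}, ?_⟩
      ext x; simp
    have h2 : @Measurable _ _ (MeasurableSpace.generateFrom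
        (Set.range fun S : Finset (Sym2 V) => {x : Set (Sym2 V) | ↑S ⊆ x})) _
        (fun x : Set (Sym2 V) => x) :=
      (@measurable_set_iff _ _ (MeasurableSpace.generateFrom
        (Set.range fun S : Finset (Sym2 V) => {x : Set (Sym2 V) | ↑S ⊆ x})) _).2 h1
    intro s hs
    exact h2 hs
  · refine MeasurableSpace.generateFrom_le ?_
    rintro _ ⟨S, rfl⟩
    have : {x : Set (Sym2 V) | ↑S ⊆ x} = ⋂ e ∈ S, {x : Set (Sym2 V) | e ∈ x} := by
      ext x; simp [Set.subset_def]
    dsimp only
    rw [this]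
    exact Finset.measurableSet_biInter _ fun e _ => measurableSet_mem e

theorem isPiSystem_up :
    IsPiSystem (Set.range fun S : Finset (Sym2 V) => {x : Set (Sym2 V) | ↑S ⊆ x}) := by
  rintro _ ⟨S, rfl⟩ _ ⟨T, rfl⟩ _
  refine ⟨S ∪ T, ?_⟩
  ext x; simp

theorem measurableSet_up (S : Finset (Sym2 V)) : MeasurableSet {x : Set (Sym2 V) | ↑S ⊆ x} := by
  rw [generateFrom_up]
  exact MeasurableSpace.measurableSet_generateFrom ⟨S, rfl⟩

theorem integral_up (μ : Measure (Set (Sym2 V))) (S : Finset (Sym2 V)) :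
    ∫ x, up S x ∂μ = μ.real {x | ↑S ⊆ x} := by
  have : up S = Set.indicator {x : Set (Sym2 V) | ↑S ⊆ x} (fun _ => (1 : ℝ)) := by
    ext x; simp [up, Set.indicator]
  rw [this, integral_indicator (measurableSet_up S)]
  simp

theorem measure_ext_W {μ ν : Measure (Set (Sym2 V))} [IsProbabilityMeasure μ]
    [IsProbabilityMeasure ν] (h : ∀ f ∈ W V, ∫ x, f x ∂μ = ∫ x, f x ∂ν) : μ = ν := by
  refine ext_of_generate_finite _ generateFrom_up isPiSystem_up ?_ (by simp)
  rintro _ ⟨S, rfl⟩
  have := h (up S) (up_mem_W S)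
  rw [integral_up, integral_up] at this
  exact (measureReal_eq_measureReal_iff (by finiteness) (by finiteness)).1 this

/-! ### Finite expectations -/

/-- Expectation for the uniform maximal spanning forest of a finite edge set. -/
def Ex (E : Finset (Sym2 V)) (f : Set (Sym2 V) → ℝ) : ℝ :=
  (∑ T ∈ trees E, f ↑T) / (trees E).card

theorem Ex_add (E : Finset (Sym2 V)) (f g : Set (Sym2 V) → ℝ) : Ex E (f + g) = Ex E f + Ex E g := by
  simp [Ex, Finset.sum_add_distrib, add_div]

theorem Ex_smul (E : Finset (Sym2 V)) (c : ℝ) (f : Set (Sym2 V) → ℝ) :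
    Ex E (c • f) = c * Ex E f := by
  simp only [Ex, Pi.smul_apply, smul_eq_mul, ← Finset.mul_sum, mul_div_assoc]

theorem card_trees_pos (E : Finset (Sym2 V)) : (0 : ℝ) < (trees E).card :=
  Nat.cast_pos.2 (Finset.card_pos.2 (trees_nonempty E))

theorem subset_of_mem_trees {E T : Finset (Sym2 V)} (hT : T ∈ trees E) : T ⊆ E := by
  rw [trees, Finset.mem_filter] at hT
  exact hT.2.1

theorem tl_eq_wgt (h : Sym2 V →₀ ℝ) (T : Finset (Sym2 V)) : tl h ↑T = wgt h T := by
  unfold tl wgt Finsupp.sum
  congr 1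
  have h1 : ∑ e ∈ T, h e = ∑ e ∈ T.filter (fun e => e ∈ h.support), h e := by
    rw [Finset.sum_filter]
    refine Finset.sum_congr rfl fun e _ => ?_
    split_ifs with h1
    · rfl
    · exact Finsupp.notMem_support_iff.1 h1
  rw [h1]
  simp only [Finset.mem_coe]
  rw [← Finset.sum_filter, Finset.filter_mem_eq_inter, Finset.filter_mem_eq_inter,
    Finset.inter_comm]

theorem Ex_ie_tl {E : Finset (Sym2 V)} (hE : ∀ e ∈ E, ¬ e.IsDiag) (h : Sym2 V →₀ ℝ) {a b : V}
    (hab : s(a, b) ∈ E) :
    Ex E (ie s(a, b) * tl h) =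
      mm (SimpleGraph.fromEdgeSet (E : Set (Sym2 V))) h a b * Ex E (tl h) := by
  unfold Ex
  rw [← mul_div_assoc]
  congr 1
  have h1 := kirchhoff hE h hab
  simp only [tl_eq_wgt, Pi.mul_apply]
  rw [← h1, Finset.sum_filter]
  refine Finset.sum_congr rfl fun T _ => ?_
  simp only [ie, Finset.mem_coe]
  split_ifs <;> simp

theorem Ex_ie_tl_eq_zero {E : Finset (Sym2 V)} (h : Sym2 V →₀ ℝ) {e : Sym2 V} (he : e ∉ E) :
    Ex E (ie e * tl h) = 0 := by
  unfold Ex
  rw [div_eq_zero_iff]
  left
  refine Finset.sum_eq_zero fun T hT => ?_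
  have : e ∉ T := fun h => he (subset_of_mem_trees hT h)
  simp [ie, this]

/-- `Es` is an increasing exhaustion of the edge set of `G`. -/
structure IsExh (G : SimpleGraph V) (Es : ℕ → Finset (Sym2 V)) : Prop where
  mono : Monotone Es
  sub : ∀ n, ↑(Es n) ⊆ G.edgeSet
  ex : ∀ e ∈ G.edgeSet, ∃ n, e ∈ Es n

theorem IsExh.tendsto_mm {G : SimpleGraph V} {Es : ℕ → Finset (Sym2 V)} (hEs : IsExh G Es)
    (h : Sym2 V → ℝ) (a b : V) :
    Tendsto (fun n => mm (SimpleGraph.fromEdgeSet (Es n : Set (Sym2 V))) h a b) atTop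
      (𝓝 (mm G h a b)) := by
  refine tendsto_mm_graph ?_ ?_ ?_ h a b
  · intro m n hmn
    exact SimpleGraph.fromEdgeSet_mono (Finset.coe_subset.2 (hEs.mono hmn))
  · intro n x y hxy
    rw [SimpleGraph.fromEdgeSet_adj] at hxy
    exact hEs.sub n hxy.1
  · intro x y hxy
    obtain ⟨n, hn⟩ := hEs.ex s(x, y) hxy
    exact ⟨n, (SimpleGraph.fromEdgeSet_adj _).2 ⟨hn, hxy.ne⟩⟩

theorem IsExh.tendsto_ie {G : SimpleGraph V} {Es : ℕ → Finset (Sym2 V)} (hEs : IsExh G Es)
    {h : Sym2 V →₀ ℝ} {a b : V} (hab : G.Adj a b) {L : ℝ}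
    (hL : Tendsto (fun n => Ex (Es n) (tl h)) atTop (𝓝 L)) :
    Tendsto (fun n => Ex (Es n) (ie s(a, b) * tl h)) atTop (𝓝 (mm G h a b * L)) := by
  refine ((hEs.tendsto_mm h a b).mul hL).congr' ?_
  obtain ⟨n0, hn0⟩ := hEs.ex s(a, b) hab
  filter_upwards [eventually_ge_atTop n0] with n hn
  refine (Ex_ie_tl (fun e he => ?_) h (hEs.mono hn hn0)).symm
  exact G.not_isDiag_of_mem_edgeSet (hEs.sub n he)

theorem IsExh.ie_zero {G : SimpleGraph V} {Es : ℕ → Finset (Sym2 V)} (hEs : IsExh G Es)
    (h : Sym2 V →₀ ℝ) {e : Sym2 V} (he : e ∉ G.edgeSet) (n : ℕ) :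
    Ex (Es n) (ie e * tl h) = 0 :=
  Ex_ie_tl_eq_zero h fun h' => he (hEs.sub n h')

theorem tl_single_add (h : Sym2 V →₀ ℝ) (e : Sym2 V) (c : ℝ) :
    tl (Finsupp.single e c + h) = tl h + (Real.exp c - 1) • (ie e * tl h) := by
  rw [tl_add, tl_single_eq]
  ext x
  simp only [Pi.mul_apply, Pi.add_apply, Pi.one_apply, Pi.smul_apply, smul_eq_mul]
  ring

theorem exists_lim_tl (G : SimpleGraph V) (h : Sym2 V →₀ ℝ) :
    ∃ L : ℝ, ∀ Es, IsExh G Es → Tendsto (fun n => Ex (Es n) (tl h)) atTop (𝓝 L) := by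
  induction h using Finsupp.induction with
  | zero =>
    refine ⟨1, fun Es _ => ?_⟩
    refine tendsto_const_nhds.congr fun n => ?_
    rw [tl_zero]
    simp [Ex, (card_trees_pos (Es n)).ne']
  | single_add e c h _ _ ih =>
    obtain ⟨L, hL⟩ := ih
    by_cases he : e ∈ G.edgeSet
    · induction e using Sym2.ind with
      | _ a b =>
        refine ⟨L + (Real.exp c - 1) * (mm G h a b * L), fun Es hEs => ?_⟩
        simp only [tl_single_add, Ex_add, Ex_smul]
        exact (hL Es hEs).add ((hEs.tendsto_ie he (hL Es hEs)).const_mul _)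
    · refine ⟨L, fun Es hEs => ?_⟩
      simp only [tl_single_add, Ex_add, Ex_smul, hEs.ie_zero h he, mul_zero, add_zero]
      exact hL Es hEs

theorem exists_lim (G : SimpleGraph V) {f : Set (Sym2 V) → ℝ} (hf : f ∈ W V) :
    ∃ L : ℝ, ∀ Es, IsExh G Es → Tendsto (fun n => Ex (Es n) f) atTop (𝓝 L) := by
  induction hf using Submodule.span_induction with
  | mem f hf => obtain ⟨h, rfl⟩ := hf; exact exists_lim_tl G h
  | zero => exact ⟨0, fun Es _ => by simp [Ex]⟩
  | add f g _ _ hf hg =>
    obtain ⟨L, hL⟩ := hf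
    obtain ⟨M, hM⟩ := hg
    refine ⟨L + M, fun Es hEs => ?_⟩
    simp only [Ex_add]
    exact (hL Es hEs).add (hM Es hEs)
  | smul c f _ hf =>
    obtain ⟨L, hL⟩ := hf
    refine ⟨c * L, fun Es hEs => ?_⟩
    simp only [Ex_smul]
    exact (hL Es hEs).const_mul c

theorem isExh_tr {E : ℕ → Finset (Sym2 V)} (hE : Monotone E) (hE' : ∀ e, ∃ n, e ∈ E n)
    (G : SimpleGraph V) : IsExh G (fun n => tr (E n) G) where
  mono := fun _ _ hmn => Finset.filter_subset_filter _ (hE hmn)
  sub := fun n e he => (Finset.mem_filter.1 (Finset.mem_coe.1 he)).2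
  ex := fun e he => by
    obtain ⟨n, hn⟩ := hE' e
    exact ⟨n, Finset.mem_filter.2 ⟨hn, he⟩⟩

/-! ### Existence -/

/-- Law of the uniform maximal spanning forest. -/
def ustLaw (E : Finset (Sym2 V)) : Measure (Sym2 V → Bool) :=
  ((trees E).card : ℝ≥0∞)⁻¹ • ∑ T ∈ trees E, Measure.dirac (fun e => decide (e ∈ T))

theorem isProbabilityMeasure_ustLaw (E : Finset (Sym2 V)) : IsProbabilityMeasure (ustLaw E) := by
  constructor
  have h1 : ((trees E).card : ℝ≥0∞) ≠ 0 := by
    exact_mod_cast (Finset.card_pos.2 (trees_nonempty E)).ne'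
  simp only [ustLaw, Measure.smul_apply, Measure.finsetSum_apply, measure_univ, smul_eq_mul,
    Finset.sum_const, nsmul_eq_mul, mul_one]
  exact ENNReal.inv_mul_cancel h1 (ENNReal.natCast_ne_top _)

theorem integral_ustLaw [Countable V] (E : Finset (Sym2 V)) (f : Set (Sym2 V) → ℝ) :
    ∫ x, f (toSet x) ∂(ustLaw E) = Ex E f := by
  unfold ustLaw Ex
  rw [integral_smul_measure, integral_finsetSum_measure]
  · simp only [integral_dirac]
    rw [ENNReal.toReal_inv, ENNReal.toReal_natCast, smul_eq_mul, div_eq_inv_mul]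
    congr 1
    refine Finset.sum_congr rfl fun T _ => ?_
    congr 1
    ext e; simp [toSet]
  · intro T _
    exact integrable_dirac (by simp)

theorem exists_measure [Countable V] (G : SimpleGraph V) :
    ∃ μ : Measure (Set (Sym2 V)), IsProbabilityMeasure μ ∧ ∀ f ∈ W V, ∀ Es, IsExh G Es →
      Tendsto (fun n => Ex (Es n) f) atTop (𝓝 (∫ x, f x ∂μ)) := by
  obtain ⟨E, hE, hE'⟩ := exists_exhaustion (V := V)
  have hexh := isExh_tr hE hE' G
  let P : ℕ → ProbabilityMeasure (Sym2 V → Bool) := fun n =>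
    ⟨ustLaw (tr (E n) G), isProbabilityMeasure_ustLaw _⟩
  let F : Ultrafilter ℕ := Ultrafilter.of atTop
  have hF : (F : Filter ℕ) ≤ atTop := Ultrafilter.of_le _
  let ν : ProbabilityMeasure (Sym2 V → Bool) := (F.map P).lim
  have hν : Tendsto P F (𝓝 ν) := (F.map P).le_nhds_lim
  refine ⟨(ν : Measure (Sym2 V → Bool)).map toSet, ?_, ?_⟩
  · exact Measure.isProbabilityMeasure_map measurable_toSet.aemeasurable
  · intro f hf Es hEs
    obtain ⟨L, hL⟩ := exists_lim G hf
    have h1 : ∫ x, f x ∂((ν : Measure (Sym2 V → Bool)).map toSet) = L := by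
      rw [integral_map measurable_toSet.aemeasurable
        (measurable_of_mem_W hf).aestronglyMeasurable]
      rw [ProbabilityMeasure.tendsto_iff_forall_integral_tendsto] at hν
      have h2 := hν (BoundedContinuousFunction.mkOfCompact ⟨_, continuous_of_mem_W hf⟩)
      have h3 : Tendsto (fun n => Ex (tr (E n) G) f) F
          (𝓝 (∫ x, f (toSet x) ∂(ν : Measure (Sym2 V → Bool)))) := by
        refine h2.congr fun n => ?_
        exact integral_ustLaw _ f
      exact tendsto_nhds_unique h3 ((hL _ hexh).mono_left hF)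
    rw [h1]
    exact hL Es hEs

/-! ### Uniqueness from the tilted marginals -/

/-- Tilted marginals of a measure. -/
structure Tilted (G : SimpleGraph V) (μ : Measure (Set (Sym2 V))) : Prop where
  prob : IsProbabilityMeasure μ
  eq : ∀ (h : Sym2 V →₀ ℝ) (a b : V), G.Adj a b →
    ∫ x, (ie s(a, b) * tl h) x ∂μ = mm G h a b * ∫ x, tl h x ∂μ
  zero : ∀ (h : Sym2 V →₀ ℝ) (e : Sym2 V), e ∉ G.edgeSet → ∫ x, (ie e * tl h) x ∂μ = 0

theorem integral_tl_single_add (μ : Measure (Set (Sym2 V))) [IsProbabilityMeasure μ]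
    (h : Sym2 V →₀ ℝ) (e : Sym2 V) (c : ℝ) :
    ∫ x, tl (Finsupp.single e c + h) x ∂μ =
      ∫ x, tl h x ∂μ + (Real.exp c - 1) * ∫ x, (ie e * tl h) x ∂μ := by
  rw [tl_single_add]
  simp only [Pi.add_apply, Pi.smul_apply, smul_eq_mul]
  rw [integral_add (integrable_of_mem_W (tl_mem_W h) μ)
    ((integrable_of_mem_W (mul_mem_W (ie_mem_W e) (tl_mem_W h)) μ).const_mul _),
    integral_const_mul]

theorem Tilted.unique {G : SimpleGraph V} {μ ν : Measure (Set (Sym2 V))} (hμ : Tilted G μ)
    (hν : Tilted G ν) : μ = ν := by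
  have := hμ.prob
  have := hν.prob
  refine measure_ext_W fun f hf => ?_
  induction hf using Submodule.span_induction with
  | mem f hf =>
    obtain ⟨h, rfl⟩ := hf
    induction h using Finsupp.induction with
    | zero => rw [tl_zero]; simp
    | single_add e c h _ _ ih =>
      rw [integral_tl_single_add, integral_tl_single_add, ih]
      congr 2
      by_cases he : e ∈ G.edgeSet
      · induction e using Sym2.ind with
        | _ a b => rw [hμ.eq h a b he, hν.eq h a b he, ih]
      · rw [hμ.zero h e he, hν.zero h e he]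
  | zero => simp
  | add f g hf hg hf' hg' =>
    simp only [Pi.add_apply]
    rw [integral_add (integrable_of_mem_W hf μ) (integrable_of_mem_W hg μ),
      integral_add (integrable_of_mem_W hf ν) (integrable_of_mem_W hg ν), hf', hg']
  | smul c f _ hf' =>
    simp only [Pi.smul_apply, smul_eq_mul]
    rw [integral_const_mul, integral_const_mul, hf']

theorem tilted_of_conv [Countable V] {G : SimpleGraph V} {μ : Measure (Set (Sym2 V))}
    (hμ : IsProbabilityMeasure μ)
    (h : ∀ f ∈ W V, ∀ Es, IsExh G Es →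
      Tendsto (fun n => Ex (Es n) f) atTop (𝓝 (∫ x, f x ∂μ))) : Tilted G μ := by
  obtain ⟨E, hE, hE'⟩ := exists_exhaustion (V := V)
  have hexh := isExh_tr hE hE' G
  refine ⟨hμ, fun k a b hab => ?_, fun k e he => ?_⟩
  · exact tendsto_nhds_unique (h _ (mul_mem_W (ie_mem_W _) (tl_mem_W k)) _ hexh)
      (hexh.tendsto_ie hab (h _ (tl_mem_W k) _ hexh))
  · refine tendsto_nhds_unique (h _ (mul_mem_W (ie_mem_W _) (tl_mem_W k)) _ hexh) ?_
    simp only [hexh.ie_zero k he]
    exact tendsto_const_nhds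

/-! ### Equivariance -/

theorem mem_actS (g : Equiv.Perm V) (x : Set (Sym2 V)) (e : Sym2 V) :
    e ∈ actS g x ↔ Sym2.map g.symm e ∈ x := Iff.rfl

theorem measurable_actS' (g : Equiv.Perm V) : Measurable (actS g : Set (Sym2 V) → _) := by
  refine measurable_set_iff.2 fun e => ?_
  exact measurable_set_mem (Sym2.map g.symm e)

theorem ie_actS (g : Equiv.Perm V) (x : Set (Sym2 V)) (e : Sym2 V) :
    ie e (actS g x) = ie (Sym2.map g.symm e) x := rfl

theorem tl_actS (g : Equiv.Perm V) (h : Sym2 V →₀ ℝ) (x : Set (Sym2 V)) :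
    tl h (actS g x) = tl (h.mapDomain (Sym2.map g.symm)) x := by
  unfold tl
  rw [Finsupp.sum_mapDomain_index (by intros; simp) (by intros; split_ifs <;> simp)]
  rfl

theorem actF_mapDomain (g : Equiv.Perm V) (h : Sym2 V →₀ ℝ) :
    actF g ⇑(h.mapDomain (Sym2.map g.symm)) = ⇑h := by
  ext e
  unfold actF
  exact Finsupp.mapDomain_apply (Sym2.map.injective g.symm.injective) h e

theorem Tilted.act {G : SimpleGraph V} {μ : Measure (Set (Sym2 V))} (hμ : Tilted G μ)
    (g : Equiv.Perm V) : Tilted (G.map g.toEmbedding) (μ.map (actS g)) := by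
  have := hμ.prob
  have key : ∀ (h : Sym2 V →₀ ℝ) (e : Sym2 V), ∫ x, (ie e * tl h) x ∂(μ.map (actS g)) =
      ∫ x, (ie (Sym2.map g.symm e) * tl (h.mapDomain (Sym2.map g.symm))) x ∂μ := by
    intro h e
    rw [integral_map (measurable_actS' g).aemeasurable
      (measurable_of_mem_W (mul_mem_W (ie_mem_W _) (tl_mem_W _))).aestronglyMeasurable]
    simp only [Pi.mul_apply, ie_actS, tl_actS]
  have key2 : ∀ h : Sym2 V →₀ ℝ, ∫ x, tl h x ∂(μ.map (actS g)) =
      ∫ x, tl (h.mapDomain (Sym2.map g.symm)) x ∂μ := by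
    intro h
    rw [integral_map (measurable_actS' g).aemeasurable
      (measurable_tl h).aestronglyMeasurable]
    simp only [tl_actS]
  refine ⟨Measure.isProbabilityMeasure_map (measurable_actS' g).aemeasurable,
    fun h a b hab => ?_, fun h e he => ?_⟩
  · rw [key, key2, Sym2.map_mk]
    have hab' : G.Adj (g.symm a) (g.symm b) := by
      obtain ⟨_, u, v, huv, rfl, rfl⟩ := hab
      simpa using huv
    have h1 := mm_act g G (h.mapDomain (Sym2.map g.symm)) (g.symm a) (g.symm b)
    rw [actF_mapDomain, Equiv.apply_symm_apply, Equiv.apply_symm_apply] at h1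
    rw [h1]
    exact hμ.eq _ _ _ hab'
  · rw [key]
    refine hμ.zero _ _ fun he' => he ?_
    induction e using Sym2.ind with
    | _ a b =>
      rw [Sym2.map_mk, SimpleGraph.mem_edgeSet] at he'
      rw [SimpleGraph.mem_edgeSet]
      exact ⟨fun hab => he'.ne (by rw [hab]), _, _, he', by simp, by simp⟩

/-! ### Assembly -/

theorem measurable_Ex_tr (E : Finset (Sym2 V)) (f : Set (Sym2 V) → ℝ) :
    Measurable (fun G : SimpleGraph V => Ex (tr E G) f) := by
  intro s _
  have h1 : (fun G : SimpleGraph V => Ex (tr E G) f) ⁻¹' s =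
      ⋃ F ∈ E.powerset.filter (fun F => Ex F f ∈ s), {G : SimpleGraph V | tr E G = F} := by
    ext G
    simp only [Set.mem_preimage, Set.mem_iUnion, Set.mem_ofPred_eq, exists_prop]
    constructor
    · intro h
      exact ⟨tr E G, Finset.mem_filter.2 ⟨Finset.mem_powerset.2 (Finset.filter_subset _ _), h⟩,
        rfl⟩
    · rintro ⟨F, hF, rfl⟩
      exact (Finset.mem_filter.1 hF).2
  rw [h1]
  exact Finset.measurableSet_biUnion _ fun F _ => measurable_tr E F

theorem exists_forestLaw [Countable V] :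
    ∃ κ : SimpleGraph V → Measure (Set (Sym2 V)), Measurable κ ∧ (∀ G, IsForestLaw G (κ G)) ∧
      ∀ (g : Equiv.Perm V) (G : SimpleGraph V),
        κ (G.map g.toEmbedding) = (κ G).map (actS g) := by
  choose κ hκ1 hκ2 using exists_measure (V := V)
  obtain ⟨E, hE, hE'⟩ := exists_exhaustion (V := V)
  have htil : ∀ G, Tilted G (κ G) := fun G => tilted_of_conv (hκ1 G) (hκ2 G)
  refine ⟨κ, ?_, ?_, ?_⟩
  · refine Measurable.measure_of_isPiSystem_of_isProbabilityMeasure generateFrom_up
      isPiSystem_up ?_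
    rintro _ ⟨S, rfl⟩
    have h1 : (fun G => κ G {x : Set (Sym2 V) | ↑S ⊆ x}) =
        fun G => ENNReal.ofReal (∫ x, up S x ∂(κ G)) := by
      ext G
      rw [integral_up, ofReal_measureReal]
    rw [h1]
    refine ENNReal.measurable_ofReal.comp ?_
    refine measurable_of_tendsto_metrizable (fun n => measurable_Ex_tr (E n) (up S)) ?_
    rw [tendsto_pi_nhds]
    intro G
    exact hκ2 G _ (up_mem_W S) _ (isExh_tr hE hE' G)
  · intro G
    refine ⟨hκ1 G, ?_, ?_, ?_⟩
    · intro Es h1 h2 h3 S A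
      have h4 := hκ2 G _ (ind_mem_W S A) Es ⟨h1, h2, h3⟩
      have h5 : ∫ x, ind S A x ∂(κ G) = (κ G).real {x | ∀ e ∈ S, (e ∈ x ↔ e ∈ A)} := by
        have hm : MeasurableSet {x : Set (Sym2 V) | ∀ e ∈ S, (e ∈ x ↔ e ∈ A)} := by
          have := measurable_of_mem_W (ind_mem_W S A) (measurableSet_singleton 1)
          convert this using 1
          ext x
          simp [ind]
        have : ind S A = Set.indicator {x : Set (Sym2 V) | ∀ e ∈ S, (e ∈ x ↔ e ∈ A)}
            (fun _ => (1 : ℝ)) := by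
          ext x; simp [ind, Set.indicator]
        rw [this, integral_indicator hm]
        simp
      rw [h5] at h4
      refine h4.congr fun n => ?_
      unfold Ex ind
      congr 1
      rw [Finset.card_filter]
      push_cast
      refine Finset.sum_congr rfl fun T _ => ?_
      simp only [Finset.mem_coe]
    · intro S h hS a b hab
      let k : Sym2 V →₀ ℝ := Finsupp.onFinset S h fun e he => by
        by_contra h'; exact he (hS e h')
      have hk : (k : Sym2 V → ℝ) = h := rfl
      have h1 : ∀ x, tilt S h x = tl k x := by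
        intro x
        unfold tilt tl
        rw [Finsupp.onFinset_sum _ (by intros; simp)]
      have h2 := (htil G).eq k a b hab
      rw [hk] at h2
      simp only [h1]
      rw [← h2]
      congr 1
      ext x
      simp only [Pi.mul_apply, ie]
      split_ifs <;> simp
    · intro e he
      have h1 := (htil G).zero 0 e he
      have h2 : (fun x : Set (Sym2 V) => (ie e * tl 0 : Set (Sym2 V) → ℝ) x) =
          Set.indicator {x : Set (Sym2 V) | e ∈ x} (fun _ => (1 : ℝ)) := by
        ext x; simp [ie, tl_zero, Set.indicator]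
      have := hκ1 G
      rw [h2, integral_indicator (measurableSet_mem e)] at h1
      simpa [measureReal_eq_zero_iff] using h1
  · intro g G
    exact (htil (G.map g.toEmbedding)).unique ((htil G).act g)

end

end Vale.Agent.Fusf
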