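import Vale.Agent.Lib.P143.Defs
import Vale.Agent.Lib.P143.Zip

/-!
# Reconstruction of the forest from the observations (strong law of large numbers)
-/

open MeasureTheory Filter Topology
open scoped ENNReal unitInterval Classical

namespace Vale.Agent.Fusf

noncomputable section

variable {V : Type*}

theorem QQ_half_one {u : ℝ} (hu : 0 ≤ u) : QQ (1 / 2) u 1 = √(1 + 8 * u) - 2 := by
  unfold QQ
  have h1 : (1 / 4 + 1 / 2 * 1 * (u - 1 / 2 + 1 / 2 * 1 / 4) : ℝ) = (1 + 8 * u) / 4 ^ 2 := by ring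
  rw [h1, Real.sqrt_div (by positivity), Real.sqrt_sq (by norm_num)]
  have h2 : √(1 + 8 * u) ^ 2 = 1 + 8 * u := Real.sq_sqrt (by positivity)
  have h3 : 0 ≤ √(1 + 8 * u) := Real.sqrt_nonneg _
  obtain ⟨s, hs⟩ : ∃ s, s = √(1 + 8 * u) := ⟨_, rfl⟩
  rw [← hs] at h2 h3 ⊢
  have h4 : (1 / 2 + s / 4) ≠ 0 := by positivity
  rw [div_eq_iff h4]
  linarith [h2]

theorem QQ_half_neg {u : ℝ} (hu : u ≤ 1) : QQ (1 / 2) u (-1) = 2 - √(9 - 8 * u) := by
  unfold QQ
  have h1 : (1 / 4 + 1 / 2 * (-1) * (u - 1 / 2 + 1 / 2 * (-1) / 4) : ℝ) = (9 - 8 * u) / 4 ^ 2 := by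
    ring
  have h0 : (0 : ℝ) ≤ 9 - 8 * u := by linarith
  rw [h1, Real.sqrt_div h0, Real.sqrt_sq (by norm_num)]
  have h2 : √(9 - 8 * u) ^ 2 = 9 - 8 * u := Real.sq_sqrt h0
  have h3 : 0 ≤ √(9 - 8 * u) := Real.sqrt_nonneg _
  obtain ⟨s, hs⟩ : ∃ s, s = √(9 - 8 * u) := ⟨_, rfl⟩
  rw [← hs] at h2 h3 ⊢
  have h4 : (1 / 2 + s / 4) ≠ 0 := by positivity
  rw [div_eq_iff h4]
  linarith [h2]

theorem integral_I (f : ℝ → ℝ) : ∫ u : I, f u = ∫ u in (0 : ℝ)..1, f u := by
  rw [unitInterval.volume_def, integral_subtype_comap measurableSet_Icc f,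
    intervalIntegral.integral_of_le zero_le_one, integral_Icc_eq_integral_Ioc]

theorem integral_sqrt_aux : ∫ u in (0 : ℝ)..1, √(1 + 8 * u) = 13 / 6 := by
  have h : ∀ u ∈ Set.uIcc (0 : ℝ) 1, HasDerivAt (fun u => (1 + 8 * u) * √(1 + 8 * u) / 12)
      (√(1 + 8 * u)) u := by
    intro u hu
    rw [Set.uIcc_of_le zero_le_one] at hu
    have hp : 0 < 1 + 8 * u := by linarith [hu.1]
    have h1 : HasDerivAt (fun u : ℝ => 1 + 8 * u) 8 u := by
      simpa using ((hasDerivAt_id u).const_mul 8).const_add 1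
    have h2 := (h1.mul (h1.sqrt hp.ne')).div_const 12
    have h3 : √(1 + 8 * u) * √(1 + 8 * u) = 1 + 8 * u := Real.mul_self_sqrt hp.le
    have h4 : 0 < √(1 + 8 * u) := Real.sqrt_pos.2 hp
    have h5 : (8 * √(1 + 8 * u) + (1 + 8 * u) * (8 / (2 * √(1 + 8 * u)))) / 12 =
        √(1 + 8 * u) := by
      obtain ⟨s, hs⟩ : ∃ s, s = √(1 + 8 * u) := ⟨_, rfl⟩
      rw [← hs] at h3 h4 ⊢
      rw [← h3]
      field_simp
      ring
    rw [h5] at h2
    exact h2
  rw [intervalIntegral.integral_eq_sub_of_hasDerivAt h]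
  · have : √(1 + 8 * 1) = 3 := by
      rw [show (1 + 8 * 1 : ℝ) = 3 ^ 2 by norm_num, Real.sqrt_sq (by norm_num)]
    rw [this]
    norm_num
  · apply Continuous.intervalIntegrable
    fun_prop

theorem integral_sqrt_aux' : ∫ u in (0 : ℝ)..1, √(9 - 8 * u) = 13 / 6 := by
  rw [← integral_sqrt_aux]
  have := intervalIntegral.integral_comp_sub_left (fun u : ℝ => √(1 + 8 * u)) (a := 0) (b := 1) 1
  simp only [sub_self, sub_zero] at this
  rw [← this]
  congr 1
  funext u
  congr 1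
  ring

theorem integral_QQ_half {τ : ℝ} (hτ : τ = 1 ∨ τ = -1) : ∫ u : I, QQ (1 / 2) u τ = τ / 6 := by
  rcases hτ with rfl | rfl
  · have : ∀ u : I, QQ (1 / 2) u 1 = (fun u : ℝ => √(1 + 8 * u) - 2) u :=
      fun u => QQ_half_one u.2.1
    simp_rw [this]
    rw [integral_I (fun u : ℝ => √(1 + 8 * u) - 2), intervalIntegral.integral_sub,
      integral_sqrt_aux]
    · norm_num
    · apply Continuous.intervalIntegrable
      fun_prop
    · simp
  · have : ∀ u : I, QQ (1 / 2) u (-1) = (fun u : ℝ => 2 - √(9 - 8 * u)) u :=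
      fun u => QQ_half_neg u.2.2
    simp_rw [this]
    rw [integral_I (fun u : ℝ => 2 - √(9 - 8 * u)), intervalIntegral.integral_sub,
      integral_sqrt_aux']
    · norm_num
    · simp
    · apply Continuous.intervalIntegrable
      fun_prop

theorem abs_QQ_half {τ : ℝ} (hτ : τ = 1 ∨ τ = -1) (u : I) : |QQ (1 / 2) u τ| ≤ 1 := by
  obtain ⟨h0, h1⟩ := u.2
  rcases hτ with rfl | rfl
  · rw [QQ_half_one h0, abs_le]
    constructor
    · have : 1 ≤ √(1 + 8 * (u : ℝ)) := Real.one_le_sqrt.2 (by linarith)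
      linarith
    · have : √(1 + 8 * (u : ℝ)) ≤ 3 := Real.sqrt_le_iff.2 ⟨by norm_num, by linarith⟩
      linarith
  · rw [QQ_half_neg h1, abs_le]
    constructor
    · have : √(9 - 8 * (u : ℝ)) ≤ 3 := Real.sqrt_le_iff.2 ⟨by norm_num, by linarith⟩
      linarith
    · have : 1 ≤ √(9 - 8 * (u : ℝ)) := Real.one_le_sqrt.2 (by linarith)
      linarith

/-- The summand of the average of the observations. -/
def phi (τ : ℝ) (p : I × I) : ℝ := if (p.1 : ℝ) < 1 / 2 then QQ (1 / 2) p.2 τ else 0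

theorem measurable_QQ_half (τ : ℝ) : Measurable (fun u : I => QQ (1 / 2) u τ) := by
  unfold QQ
  fun_prop

theorem measurable_phi (τ : ℝ) : Measurable (phi τ) := by
  unfold phi
  refine Measurable.ite ?_ ((measurable_QQ_half τ).comp measurable_snd) measurable_const
  exact measurableSet_lt (by fun_prop) measurable_const

theorem abs_phi {τ : ℝ} (hτ : τ = 1 ∨ τ = -1) (p : I × I) : |phi τ p| ≤ 1 := by
  unfold phi
  split_ifs
  · exact abs_QQ_half hτ _
  · simp

theorem integrable_phi {τ : ℝ} (hτ : τ = 1 ∨ τ = -1) :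
    Integrable (phi τ) ((volume : Measure I).prod (volume : Measure I)) := by
  apply Integrable.of_bound (measurable_phi τ).aestronglyMeasurable 1
  exact Eventually.of_forall fun p => by
    rw [Real.norm_eq_abs]; exact abs_phi hτ p

theorem integral_phi {τ : ℝ} (hτ : τ = 1 ∨ τ = -1) :
    ∫ p, phi τ p ∂((volume : Measure I).prod (volume : Measure I)) = τ / 12 := by
  have h : ∀ p : I × I, phi τ p =
      (Set.indicator (Set.Iio (1 / 2 : ℝ)) (fun _ => (1 : ℝ)) p.1) * QQ (1 / 2) p.2 τ := by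
    intro p
    unfold phi Set.indicator
    simp only [Set.mem_Iio]
    split_ifs <;> simp
  simp_rw [h]
  rw [integral_prod_mul (fun s : I => Set.indicator (Set.Iio (1 / 2 : ℝ)) (fun _ => (1 : ℝ)) s)
    (fun u : I => QQ (1 / 2) u τ), integral_QQ_half hτ, integral_I]
  have : ∫ u in (0 : ℝ)..1, Set.indicator (Set.Iio (1 / 2 : ℝ)) (fun _ => (1 : ℝ)) u = 1 / 2 := by
    rw [intervalIntegral.integral_of_le zero_le_one, integral_indicator measurableSet_Iio,
      Measure.restrict_restrict measurableSet_Iio]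
    have e : Set.Iio (1 / 2 : ℝ) ∩ Set.Ioc 0 1 = Set.Ioo 0 (1 / 2) := by
      ext x
      simp only [Set.mem_inter_iff, Set.mem_Iio, Set.mem_Ioc, Set.mem_Ioo]
      constructor
      · rintro ⟨h1, h2, h3⟩
        exact ⟨h2, h1⟩
      · rintro ⟨h1, h2⟩
        exact ⟨h2, h1, by linarith⟩
    rw [e]
    simp
  rw [this]
  ring

theorem slln {τ : ℝ} (hτ : τ = 1 ∨ τ = -1) (e : Sym2 V) :
    ∀ᵐ p ∂((lam V).prod (lam V)), Tendsto (fun n : ℕ =>
      (∑ k ∈ Finset.range n, phi τ (p.1 (e, k), p.2 (e, k))) / n) atTop (𝓝 (τ / 12)) := by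
  have hmap := map_zip (fun _ : Sym2 V × ℕ => (volume : Measure I))
    (fun _ : Sym2 V × ℕ => (volume : Measure I))
  obtain ⟨P, hP⟩ : ∃ P : Measure (Sym2 V × ℕ → I × I), P = Measure.infinitePi
    (fun _ : Sym2 V × ℕ => (volume : Measure I).prod (volume : Measure I)) := ⟨_, rfl⟩
  have hPp : IsProbabilityMeasure P := by rw [hP]; infer_instance
  have heval : ∀ i, P.map (fun z => z i) = (volume : Measure I).prod (volume : Measure I) := by
    intro i
    rw [hP, Measure.infinitePi_map_eval]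
  have hind : ProbabilityTheory.iIndepFun
      (fun (i : Sym2 V × ℕ) (z : Sym2 V × ℕ → I × I) => phi τ (z i)) P := by
    rw [hP]
    exact ProbabilityTheory.iIndepFun_infinitePi (fun _ => measurable_phi τ)
  have hint : ∀ i, Integrable (fun z : Sym2 V × ℕ → I × I => phi τ (z i)) P := by
    intro i
    apply Integrable.of_bound ((measurable_phi τ).comp (measurable_pi_apply i)).aestronglyMeasurable
      1
    exact Eventually.of_forall fun p => by
      rw [Real.norm_eq_abs]; exact abs_phi hτ _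
  have hmean : ∫ z, phi τ (z (e, 0)) ∂P = τ / 12 := by
    rw [← integral_phi hτ, ← heval (e, 0), integral_map (measurable_pi_apply _).aemeasurable
      (measurable_phi τ).aestronglyMeasurable]
  have h := ProbabilityTheory.strong_law_ae_real (μ := P) (fun k z => phi τ (z (e, k)))
    (hint (e, 0)) (fun j k hjk => hind.indepFun (by simpa using hjk))
    (fun k => ⟨((measurable_phi τ).comp (measurable_pi_apply (e, k))).aemeasurable,
      ((measurable_phi τ).comp (measurable_pi_apply (e, 0))).aemeasurable, by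
        have h1 := Measure.map_map (μ := P) (measurable_phi τ) (measurable_pi_apply (e, k))
        have h2 := Measure.map_map (μ := P) (measurable_phi τ) (measurable_pi_apply (e, 0))
        have h3 := heval (e, k)
        have h4 := heval (e, 0)
        rw [← h3] at h4
        calc _ = Measure.map (phi τ) (Measure.map (fun z => z (e, k)) P) := h1.symm
          _ = Measure.map (phi τ) (Measure.map (fun z => z (e, 0)) P) := by rw [h4]
          _ = _ := h2⟩)
  rw [hmean, hP, ← hmap] at h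
  exact ae_of_ae_map (Measurable.aemeasurable (by fun_prop)) h

theorem exists_ok {G : SimpleGraph V} (hlf : ∀ v, (G.neighborSet v).Finite) {e : Sym2 V}
    (he : e ∈ G.edgeSet) : ∃ K : ℕ, ∀ k ≥ K, ok G e k := by
  induction e using Sym2.ind with
  | _ a b =>
    refine ⟨max (G.neighborSet a).ncard (G.neighborSet b).ncard, fun k hk => ⟨he, ?_⟩⟩
    intro v hv
    have hle : (G.neighborSet v).ncard ≤ k := by
      rw [Sym2.mem_iff] at hv
      rcases hv with rfl | rfl
      · exact (le_max_left _ _).trans hk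
      · exact (le_max_right _ _).trans hk
    rw [← (hlf v).cast_ncard_eq]
    exact_mod_cast hle

theorem summand_eq {G : SimpleGraph V} {x : Set (Sym2 V)} {t w : Lab V} {e : Sym2 V} {k : ℕ}
    (h : ok G e k) : (if 0 < str G t e k then yTrue G x t w (e, k) else 0) =
      phi (if e ∈ x then 1 else -1) (t (e, k), w (e, k)) := by
  unfold yTrue phi str
  simp only [h, true_and]
  by_cases ht : (t (e, k) : ℝ) < 1 / 2
  · rw [if_pos ht, if_pos ht, if_pos (by norm_num)]
  · rw [if_neg ht, if_neg ht, if_neg (lt_irrefl _)]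

theorem tendsto_avg {G : SimpleGraph V} (hlf : ∀ v, (G.neighborSet v).Finite) {e : Sym2 V}
    (he : e ∈ G.edgeSet) {x : Set (Sym2 V)} {t w : Lab V} {c : ℝ}
    (h : Tendsto (fun n : ℕ => (∑ k ∈ Finset.range n,
      phi (if e ∈ x then 1 else -1) (t (e, k), w (e, k))) / n) atTop (𝓝 c)) :
    Tendsto (avg G t (yTrue G x t w) e) atTop (𝓝 c) := by
  obtain ⟨K, hK⟩ := exists_ok hlf he
  obtain ⟨s, hs⟩ : ∃ s : ℕ → ℝ, s = fun k => if 0 < str G t e k then yTrue G x t w (e, k) else 0 :=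
    ⟨_, rfl⟩
  obtain ⟨f, hf⟩ : ∃ f : ℕ → ℝ, f = fun k =>
    phi (if e ∈ x then 1 else -1) (t (e, k), w (e, k)) := ⟨_, rfl⟩
  have hsf : ∀ k ≥ K, s k = f k := by
    intro k hk
    rw [hs, hf]
    exact summand_eq (hK k hk)
  have h2 : Tendsto (fun n : ℕ => (∑ k ∈ Finset.range K, (s k - f k)) / (n : ℝ)) atTop (𝓝 0) :=
    tendsto_const_div_atTop_nhds_zero_nat _
  have h3 := h.add h2
  rw [add_zero] at h3
  refine h3.congr' ?_
  filter_upwards [eventually_ge_atTop K] with n hn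
  unfold avg
  rw [← add_div]
  congr 1
  have e1 : ∑ k ∈ Finset.range K, (s k - f k) = ∑ k ∈ Finset.range n, (s k - f k) := by
    apply Finset.sum_subset (Finset.range_mono hn)
    intro k _ hk
    rw [Finset.mem_range, not_lt] at hk
    rw [hsf k hk, sub_self]
  rw [e1, Finset.sum_sub_distrib, hs, hf]
  ring

theorem recon [Countable V] {G : SimpleGraph V} (μ : Measure (Set (Sym2 V)))
    [IsProbabilityMeasure μ] (hlf : ∀ v, (G.neighborSet v).Finite) :
    ∀ᵐ q ∂(μ.prod ((lam V).prod (lam V))), ∀ e ∈ G.edgeSet,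
      (e ∈ q.1 ↔ 0 < limsup (avg G q.2.1 (yTrue G q.1 q.2.1 q.2.2) e) atTop) := by
  have hc : Countable (Sym2 V) := inferInstance
  have h1 : ∀ᵐ p ∂((lam V).prod (lam V)), ∀ e : Sym2 V,
      Tendsto (fun n : ℕ => (∑ k ∈ Finset.range n, phi 1 (p.1 (e, k), p.2 (e, k))) / n) atTop
        (𝓝 (1 / 12)) ∧
      Tendsto (fun n : ℕ => (∑ k ∈ Finset.range n, phi (-1) (p.1 (e, k), p.2 (e, k))) / n) atTop
        (𝓝 (-1 / 12)) := by
    rw [ae_all_iff]
    intro e
    filter_upwards [slln (Or.inl rfl) e, slln (Or.inr rfl) e] with p hp1 hp2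
    exact ⟨hp1, hp2⟩
  have h2 : ∀ᵐ q ∂(μ.prod ((lam V).prod (lam V))), ∀ e : Sym2 V,
      Tendsto (fun n : ℕ => (∑ k ∈ Finset.range n, phi 1 (q.2.1 (e, k), q.2.2 (e, k))) / n) atTop
        (𝓝 (1 / 12)) ∧
      Tendsto (fun n : ℕ => (∑ k ∈ Finset.range n, phi (-1) (q.2.1 (e, k), q.2.2 (e, k))) / n)
        atTop (𝓝 (-1 / 12)) :=
    Measure.quasiMeasurePreserving_snd.ae h1
  filter_upwards [h2] with q hq e he
  by_cases hx : e ∈ q.1
  · have h3 : Tendsto (avg G q.2.1 (yTrue G q.1 q.2.1 q.2.2) e) atTop (𝓝 (1 / 12)) := by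
      apply tendsto_avg hlf he
      simp only [hx, if_true]
      exact (hq e).1
    rw [h3.limsup_eq]
    simp [hx]
  · have h3 : Tendsto (avg G q.2.1 (yTrue G q.1 q.2.1 q.2.2) e) atTop (𝓝 (-1 / 12)) := by
      apply tendsto_avg hlf he
      simp only [hx, if_false]
      exact (hq e).2
    rw [h3.limsup_eq]
    simp only [hx, false_iff]
    norm_num

end

end Vale.Agent.Fusf
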