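import Vale.Agent.Lib.P143.Gron
import Vale.Agent.Lib.P143.Statement
import Vale.Agent.Lib.P143.Law
import Vale.Agent.Lib.P143.Recon
import Vale.Agent.Lib.P143.Labels
import Vale.Agent.Lib.P143.Exhaust
import Vale.Agent.Lib.P143.Innov

/-!
# Assembly: the free uniform spanning forest as a factor of IID
-/

open MeasureTheory Filter Topology ProbabilityTheory
open scoped ENNReal unitInterval Classical

namespace Vale.Agent.Fusf

noncomputable section

variable {V : Type*}

/-- Limits of the Picard iterates. -/
def yLim (G : SimpleGraph V) (t u : Lab V) (i : Sym2 V × ℕ) : ℝ :=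
  limsup (fun j => yPic G t u j i) atTop

/-- The forest reconstructed from times and innovations. -/
def Xmap (G : SimpleGraph V) (L : Lab V × Lab V) : Set (Sym2 V) :=
  {e | e ∈ G.edgeSet ∧ 0 < limsup (avg G L.1 (yLim G L.1 L.2) e) atTop}

theorem measurable_yLim [Countable V] (i : Sym2 V × ℕ) :
    Measurable (fun p : SimpleGraph V × Lab V × Lab V => yLim p.1 p.2.1 p.2.2 i) := by
  unfold yLim
  exact Measurable.limsup fun j => measurable_yPic j i

theorem measurable_strO [Countable V] (e : Sym2 V) (k : ℕ) :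
    Measurable (fun p : SimpleGraph V × Lab V × Lab V => str p.1 p.2.1 e k) := by
  have h1 : Measurable (fun p : SimpleGraph V × Lab V × Lab V => (p.1, p.2.1)) :=
    Measurable.prodMk measurable_fst (measurable_fst.comp measurable_snd)
  have h2 := (measurable_str (V := V) e k).comp h1
  exact h2

theorem measurable_avgLim [Countable V] (e : Sym2 V) (n : ℕ) :
    Measurable (fun p : SimpleGraph V × Lab V × Lab V =>
      avg p.1 p.2.1 (yLim p.1 p.2.1 p.2.2) e n) := by
  unfold avg
  refine Measurable.div_const ?_ _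
  refine Finset.measurable_fun_sum _ fun k _ => ?_
  exact Measurable.ite (measurableSet_lt measurable_const (measurable_strO e k))
    (measurable_yLim (e, k)) measurable_const

theorem measurable_Xmap [Countable V] :
    Measurable (fun p : SimpleGraph V × Lab V × Lab V => Xmap p.1 p.2) := by
  rw [measurable_set_iff]
  intro e
  have h1 : Measurable (fun p : SimpleGraph V × Lab V × Lab V => e ∈ p.1.edgeSet) :=
    ((measurable_set_iff.1 SimpleGraph.measurable_edgeSet) e).comp measurable_fst
  have h2 : Measurable (fun p : SimpleGraph V × Lab V × Lab V =>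
      0 < limsup (avg p.1 p.2.1 (yLim p.1 p.2.1 p.2.2) e) atTop) := by
    refine measurableSet_setOfPred.1 (measurableSet_lt measurable_const ?_)
    exact Measurable.limsup fun n => measurable_avgLim e n
  exact h1.and h2

theorem mem_edgeSet_act (g : Equiv.Perm V) (G : SimpleGraph V) (e : Sym2 V) :
    Sym2.map g e ∈ (G.map g.toEmbedding).edgeSet ↔ e ∈ G.edgeSet := by
  induction e using Sym2.ind with
  | _ a b => exact SimpleGraph.map_adj_apply (f := g.toEmbedding)

theorem sym2_symm_self (g : Equiv.Perm V) (e : Sym2 V) : Sym2.map g.symm (Sym2.map g e) = e := by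
  rw [Sym2.map_map]
  have : (g.symm ∘ g : V → V) = id := by
    funext v
    simp
  rw [this, Sym2.map_id]
  rfl

theorem sym2_self_symm (g : Equiv.Perm V) (e : Sym2 V) : Sym2.map g (Sym2.map g.symm e) = e := by
  rw [Sym2.map_map]
  have : (g ∘ g.symm : V → V) = id := by
    funext v
    simp
  rw [this, Sym2.map_id]
  rfl

theorem yLim_act (g : Equiv.Perm V) (G : SimpleGraph V) (t u : Lab V) :
    yLim (G.map g.toEmbedding) (actL g t) (actL g u) = actL g (yLim G t u) := by
  funext i
  unfold yLim
  simp_rw [yPic_act]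
  rfl

theorem Xmap_act (g : Equiv.Perm V) (G : SimpleGraph V) (L : Lab V × Lab V) :
    Xmap (G.map g.toEmbedding) (actL g L.1, actL g L.2) = actS g (Xmap G L) := by
  ext e
  obtain ⟨e, rfl⟩ : ∃ e', e = Sym2.map g e' := ⟨Sym2.map g.symm e, (sym2_self_symm g e).symm⟩
  unfold Xmap actS
  simp only [Set.mem_ofPred_eq, sym2_symm_self]
  rw [mem_edgeSet_act, yLim_act]
  have h : avg (G.map g.toEmbedding) (actL g L.1) (actL g (yLim G L.1 L.2)) (Sym2.map g e) =
      avg G L.1 (yLim G L.1 L.2) e := by
    funext n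
    unfold avg
    simp_rw [str_act]
    simp only [actL, sym2_symm_self]
  rw [h]

theorem actS_eq_image (g : Equiv.Perm V) (x : Set (Sym2 V)) : actS g x = Sym2.map g '' x := by
  ext e
  constructor
  · intro h
    exact ⟨Sym2.map g.symm e, h, sym2_self_symm g e⟩
  · rintro ⟨e', he', rfl⟩
    change Sym2.map g.symm (Sym2.map g e') ∈ x
    rw [sym2_symm_self]
    exact he'

/-- The law of the reconstructed forest. -/
theorem map_Xmap [Countable V] {κ : SimpleGraph V → Measure (Set (Sym2 V))}
    (hκ : ∀ G, IsForestLaw G (κ G)) (G : SimpleGraph V) (hlf : ∀ v, (G.neighborSet v).Finite)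
    (hG : ∀ᵐ q ∂((κ G).prod ((lam V).prod (lam V))), ∀ i : Sym2 V × ℕ, i.1 ∈ G.edgeSet →
        Tendsto (fun j => yPic G q.2.1 (innov G q.1 q.2.1 q.2.2) j i) atTop
          (𝓝 (yTrue G q.1 q.2.1 q.2.2 i))) :
    ((lam V).prod (lam V)).map (Xmap G) = κ G := by
  have hp := (hκ G).prob
  have hXm : Measurable (Xmap G) := by
    have h1 := (measurable_Xmap (V := V)).comp (measurable_prodMk_left (x := G))
    exact h1
  have hin : Measurable (fun q : Set (Sym2 V) × Lab V × Lab V =>
      (q.2.1, innov G q.1 q.2.1 q.2.2)) := by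
    have h1 := (measurable_innov (V := V)).comp (measurable_prodMk_left (x := G))
    exact Measurable.prodMk (measurable_fst.comp measurable_snd) h1
  rw [← innov_law (hκ G), Measure.map_map hXm hin]
  have hae : ∀ᵐ q ∂((κ G).prod ((lam V).prod (lam V))),
      (Xmap G ∘ fun q : Set (Sym2 V) × Lab V × Lab V => (q.2.1, innov G q.1 q.2.1 q.2.2)) q =
        q.1 := by
    have hsupp : ∀ᵐ q ∂((κ G).prod ((lam V).prod (lam V))), ∀ e, e ∉ G.edgeSet → e ∉ q.1 := by
      have h1 : ∀ᵐ x ∂(κ G), ∀ e, e ∉ G.edgeSet → e ∉ x := by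
        rw [ae_all_iff]
        intro e
        by_cases he : e ∈ G.edgeSet
        · exact ae_of_all _ fun x h => absurd he h
        · have h2 := (hκ G).supp e he
          rw [measure_eq_zero_iff_ae_notMem] at h2
          filter_upwards [h2] with x hx _ using hx
      exact Measure.quasiMeasurePreserving_fst.ae h1
    filter_upwards [hG, recon (κ G) hlf, hsupp] with q h1 h2 h3
    ext e
    simp only [Function.comp, Xmap, Set.mem_ofPred_eq]
    by_cases he : e ∈ G.edgeSet
    · have h4 : avg G q.2.1 (yLim G q.2.1 (innov G q.1 q.2.1 q.2.2)) e =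
          avg G q.2.1 (yTrue G q.1 q.2.1 q.2.2) e := by
        funext n
        unfold avg
        congr 1
        refine Finset.sum_congr rfl fun k _ => ?_
        have h5 : yLim G q.2.1 (innov G q.1 q.2.1 q.2.2) (e, k) =
            yTrue G q.1 q.2.1 q.2.2 (e, k) := (h1 (e, k) he).limsup_eq
        rw [h5]
      rw [h4]
      constructor
      · rintro ⟨_, h6⟩
        exact (h2 e he).2 h6
      · intro h6
        exact ⟨he, (h2 e he).1 h6⟩
    · constructor
      · rintro ⟨h6, _⟩
        exact absurd h6 he
      · intro h6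
        exact absurd h6 (h3 e he)
  rw [Measure.map_congr hae]
  exact Measure.map_fst_prod.trans (by simp)

/-- The core theorem for random rooted graphs with the mass transport principle. -/
theorem core [Countable V] [MeasurableSpace V] [MeasurableSingletonClass V] :
    ∃ Φ : SimpleGraph V × (V → I) → Set (Sym2 V), Measurable Φ ∧
      (∀ (g : Equiv.Perm V) (G : SimpleGraph V) (W : V → I),
        Φ (G.map g.toEmbedding, W ∘ g.symm) = actS g (Φ (G, W))) ∧
      ∀ P : Measure (SimpleGraph V × V), IsProbabilityMeasure P → MTP P →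
        (∀ᵐ p ∂P, ∀ v, (p.1.neighborSet v).Finite) → (∀ᵐ p ∂P, p.1.Connected) →
        ∀ᵐ p ∂P, IsFUSF p.1 ((iidLabels V).map fun W => Φ (p.1, W)) := by
  obtain ⟨κ, hκm, hκ, hκg⟩ := exists_forestLaw (V := V)
  obtain ⟨L, hLm, hLact, hLlaw⟩ := exists_labels (V := V)
  refine ⟨fun z => Xmap z.1 (L z), ?_, ?_, ?_⟩
  · have h1 : Measurable (fun z : SimpleGraph V × (V → I) => (z.1, L z)) :=
      Measurable.prodMk measurable_fst hLm
    have h2 := (measurable_Xmap (V := V)).comp h1
    exact h2
  · intro g G W
    simp only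
    rw [hLact, Xmap_act]
  · intro P hPp hP hlf hconn
    have hdata : LawData κ := ⟨hκm, fun G => (hκ G).prob, hκg⟩
    filter_upwards [picard_converges_aux hdata hP, hlf, hconn] with p hp hlfp hconnp
    have hXm : Measurable (Xmap p.1) := by
      have h1 := (measurable_Xmap (V := V)).comp (measurable_prodMk_left (x := p.1))
      exact h1
    have h1 := hLlaw p.1 hlfp (Xmap p.1) hXm ?_
    · have h2 : (iidLabels V).map (fun W => Xmap p.1 (L (p.1, W))) = κ p.1 := by
        unfold iidLabels
        rw [h1]
        exact map_Xmap hκ p.1 hlfp hp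
      rw [h2]
      exact isFUSF_of_isForestLaw hconnp (hκ p.1)
    · intro t u t' u' ht hu
      ext e
      unfold Xmap
      simp only [Set.mem_ofPred_eq]
      refine and_congr_right fun he => ?_
      have h3 : avg p.1 t (yLim p.1 t u) e = avg p.1 t' (yLim p.1 t' u') e := by
        funext n
        unfold avg
        congr 1
        refine Finset.sum_congr rfl fun k _ => ?_
        rw [str_congr_at p.1 (ht e he k)]
        have h4 : yLim p.1 t u (e, k) = yLim p.1 t' u' (e, k) := by
          unfold yLim
          simp_rw [yPic_congr p.1 ht hu _ e he k]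
        rw [h4]
      rw [h3]

/-! ### Unimodular random graphs -/

theorem fusf_isGraphFactorOfIID (P : Measure (SimpleGraph ℕ × ℕ)) (hP : IsUnimodular P) :
    FUSFIsGraphFactorOfIID P := by
  obtain ⟨Φ, hΦm, hΦact, hΦ⟩ := core (V := ℕ)
  refine ⟨Φ, hΦm, ?_, ?_⟩
  · intro g G U
    have h := hΦact g G U
    rw [actS_eq_image] at h
    exact h
  · refine hΦ P hP.isProb ?_ hP.locallyFinite hP.connected
    intro f hf hinv
    exact hP.massTransport (fun p => f p.1 p.2.1 p.2.2) hf hinv

/-! ### Cayley graphs -/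

section cayley

variable {Γ : Type*} [Group Γ]

theorem countable_of_closure_eq_top (S : Finset Γ) (hS : Subgroup.closure (S : Set Γ) = ⊤) :
    Countable Γ := by
  have hsurj : Function.Surjective (FreeGroup.lift (fun s : S => (s : Γ))) := by
    rw [← MonoidHom.range_eq_top, eq_top_iff, ← hS, Subgroup.closure_le]
    intro s hs
    exact ⟨FreeGroup.of ⟨s, hs⟩, by simp⟩
  exact hsurj.countable

theorem map_mulCayley (S : Set Γ) (γ : Γ) :
    (SimpleGraph.mulCayley S).map (Equiv.mulLeft γ).toEmbedding = SimpleGraph.mulCayley S := by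
  ext a b
  obtain ⟨a, rfl⟩ := (Equiv.mulLeft γ).surjective a
  obtain ⟨b, rfl⟩ := (Equiv.mulLeft γ).surjective b
  have h1 : ((SimpleGraph.mulCayley S).map (Equiv.mulLeft γ).toEmbedding).Adj
      (Equiv.mulLeft γ a) (Equiv.mulLeft γ b) ↔ (SimpleGraph.mulCayley S).Adj a b :=
    SimpleGraph.map_adj_apply (f := (Equiv.mulLeft γ).toEmbedding)
  rw [h1]
  simp

theorem finite_neighborSet_mulCayley (S : Finset Γ) (v : Γ) :
    ((SimpleGraph.mulCayley (S : Set Γ)).neighborSet v).Finite := by
  refine Set.Finite.subset ((S.finite_toSet.image fun s => v * s).union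
    (S.finite_toSet.image fun s => v * s⁻¹)) ?_
  intro w hw
  rw [SimpleGraph.mem_neighborSet, SimpleGraph.mulCayley_adj'] at hw
  obtain ⟨_, s, hs, h | h⟩ := hw
  · exact Or.inl ⟨s, hs, h⟩
  · exact Or.inr ⟨s, hs, by simp [h]⟩

theorem connected_mulCayley (S : Set Γ) (hS : Subgroup.closure S = ⊤) :
    (SimpleGraph.mulCayley S).Connected := by
  have h1 : ∀ γ : Γ, ∀ v : Γ, (SimpleGraph.mulCayley S).Reachable v (v * γ) := by
    intro γ
    have hγ : γ ∈ Subgroup.closure S := by rw [hS]; exact Subgroup.mem_top γ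
    induction hγ using Subgroup.closure_induction with
    | mem s hs =>
      intro v
      by_cases h : v = v * s
      · rw [← h]
      · refine SimpleGraph.Adj.reachable ?_
        rw [SimpleGraph.mulCayley_adj']
        exact ⟨h, s, hs, Or.inl rfl⟩
    | one =>
      intro v
      rw [mul_one]
    | mul a b _ _ iha ihb =>
      intro v
      rw [← mul_assoc]
      exact (iha v).trans (ihb (v * a))
    | inv a _ iha =>
      intro v
      have h2 := iha (v * a⁻¹)
      rw [inv_mul_cancel_right] at h2
      exact h2.symm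
  refine { preconnected := fun u v => ?_, nonempty := ⟨1⟩ }
  have h2 := h1 (u⁻¹ * v) u
  rwa [mul_inv_cancel_left] at h2

theorem of_ae_dirac {α : Type*} [MeasurableSpace α] {x : α} {Q : α → Prop}
    (h : ∀ᵐ y ∂(Measure.dirac x), Q y) : Q x := by
  by_contra hx
  obtain ⟨s, hs, hsm, hs0⟩ := exists_measurable_superset_of_null (ae_iff.1 h)
  have : x ∈ s := hs hx
  rw [Measure.dirac_apply' x hsm, Set.indicator_of_mem this] at hs0
  exact one_ne_zero hs0

theorem fusf_isGroupFactorOfIID (S : Finset Γ) (hS : Subgroup.closure (S : Set Γ) = ⊤) :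
    ∃ μ : Measure (Set (Sym2 Γ)), IsFUSF (SimpleGraph.mulCayley (S : Set Γ)) μ ∧
      IsGroupFactorOfIID μ := by
  have := countable_of_closure_eq_top S hS
  let _ : MeasurableSpace Γ := ⊤
  obtain ⟨Φ, hΦm, hΦact, hΦ⟩ := core (V := Γ)
  set G := SimpleGraph.mulCayley (S : Set Γ) with hG
  have hmtp : MTP (Measure.dirac ((G, 1) : SimpleGraph Γ × Γ)) := by
    intro f hf hinv
    have hm1 : Measurable (fun p : SimpleGraph Γ × Γ => ∑' v, f p.1 p.2 v) :=
      Measurable.tsum fun v => hf.comp (Measurable.prodMk measurable_fst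
        (Measurable.prodMk measurable_snd measurable_const))
    have hm2 : Measurable (fun p : SimpleGraph Γ × Γ => ∑' v, f p.1 v p.2) :=
      Measurable.tsum fun v => hf.comp (Measurable.prodMk measurable_fst
        (Measurable.prodMk measurable_const measurable_snd))
    rw [lintegral_dirac' _ hm1, lintegral_dirac' _ hm2]
    simp only
    rw [← (Equiv.inv Γ).tsum_eq]
    refine tsum_congr fun v => ?_
    have h1 := hinv (Equiv.mulLeft v) G 1 v⁻¹
    rw [hG, map_mulCayley, ← hG] at h1
    simp only [Equiv.coe_mulLeft, mul_one, mul_inv_cancel] at h1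
    rw [Equiv.inv_apply]
    exact h1.symm
  have haeG : ∀ᵐ p ∂(Measure.dirac ((G, 1) : SimpleGraph Γ × Γ)), p.1 = G := by
    have h3 : ∀ᵐ p ∂(Measure.dirac ((G, 1) : SimpleGraph Γ × Γ)),
        ∀ a b, (p.1.Adj a b ↔ G.Adj a b) := by
      rw [ae_all_iff]
      intro a
      rw [ae_all_iff]
      intro b
      have hm : Measurable (fun p : SimpleGraph Γ × Γ => p.1.Adj a b) :=
        (measurable_pi_iff.1 (measurable_pi_iff.1 SimpleGraph.measurable_adj a) b).comp
          measurable_fst
      rw [ae_dirac_iff]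
      exact measurableSet_setOfPred.2 (hm.iff measurable_const)
    filter_upwards [h3] with p hp
    ext a b
    exact hp a b
  have hlf : ∀ᵐ p ∂(Measure.dirac ((G, 1) : SimpleGraph Γ × Γ)),
      ∀ v, (p.1.neighborSet v).Finite := by
    filter_upwards [haeG] with p hp v
    rw [hp, hG]
    exact finite_neighborSet_mulCayley S v
  have hconn : ∀ᵐ p ∂(Measure.dirac ((G, 1) : SimpleGraph Γ × Γ)), p.1.Connected := by
    filter_upwards [haeG] with p hp
    rw [hp, hG]
    exact connected_mulCayley _ hS
  have h2 := of_ae_dirac (hΦ _ inferInstance hmtp hlf hconn)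
  refine ⟨_, h2, fun U => Φ (G, U), ?_, ?_, rfl⟩
  · exact hΦm.comp measurable_prodMk_left
  · intro γ U
    have h3 := hΦact (Equiv.mulLeft γ) G U
    rw [hG, map_mulCayley, ← hG, actS_eq_image] at h3
    exact h3

end cayley

end

end Vale.Agent.Fusf
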