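import Vale.Agent.Lib.P143.GronSum

/-!
# Almost sure convergence of the Picard iterates on all edges
-/

open MeasureTheory Filter Topology ProbabilityTheory
open scoped ENNReal unitInterval Classical

namespace Vale.Agent.Fusf

noncomputable section

variable {V : Type*}

variable {κ : SimpleGraph V → Measure (Set (Sym2 V))}

/-- The reconstruction works at all edges at `v`. -/
def GoodAt (G : SimpleGraph V) (q : Om V) (v : V) : Prop :=
  ∀ b : V, G.Adj v b → ∀ k : ℕ,
    Tendsto (fun j => yPic G q.2.1 (innov G q.1 q.2.1 q.2.2) j (s(v, b), k)) atTop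
      (𝓝 (yTrue G q.1 q.2.1 q.2.2 (s(v, b), k)))

theorem measurable_yPicO [Countable V] (j : ℕ) (i : Sym2 V × ℕ) :
    Measurable (fun p : SimpleGraph V × Om V =>
      yPic p.1 p.2.2.1 (innov p.1 p.2.1 p.2.2.1 p.2.2.2) j i) := by
  have h4 : Measurable (fun p : SimpleGraph V × Om V =>
      ((p.1, p.2.2.1, innov p.1 p.2.1 p.2.2.1 p.2.2.2) : _ × Lab V × Lab V)) :=
    Measurable.prodMk measurable_fst (Measurable.prodMk (measurable_fst.comp
      (measurable_snd.comp measurable_snd)) measurable_innov)
  have h5 := (measurable_yPic (V := V) j i).comp h4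
  exact h5

theorem measurableSet_goodAt [Countable V] (v : V) :
    MeasurableSet {p : SimpleGraph V × Om V | GoodAt p.1 p.2 v} := by
  have h : {p : SimpleGraph V × Om V | GoodAt p.1 p.2 v} =
      ⋂ b : V, ({p : SimpleGraph V × Om V | ¬ p.1.Adj v b} ∪ ⋂ k : ℕ,
        {p : SimpleGraph V × Om V | Tendsto (fun j =>
          yPic p.1 p.2.2.1 (innov p.1 p.2.1 p.2.2.1 p.2.2.2) j (s(v, b), k) -
            yTrue p.1 p.2.1 p.2.2.1 p.2.2.2 (s(v, b), k)) atTop (𝓝 0)}) := by
    ext p
    simp only [GoodAt, Set.mem_iInter, Set.mem_union]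
    refine forall_congr' fun b => ?_
    constructor
    · intro h
      by_cases hb : p.1.Adj v b
      · right
        intro k
        have h1 := h hb k
        have h2 := h1.sub_const (yTrue p.1 p.2.1 p.2.2.1 p.2.2.2 (s(v, b), k))
        rw [sub_self] at h2
        exact h2
      · left
        exact hb
    · intro h hb k
      rcases h with h | h
      · exact absurd hb h
      · have h1 : Tendsto (fun j => yPic p.1 p.2.2.1 (innov p.1 p.2.1 p.2.2.1 p.2.2.2) j
            (s(v, b), k) - yTrue p.1 p.2.1 p.2.2.1 p.2.2.2 (s(v, b), k)) atTop (𝓝 0) := h k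
        have h2 := h1.add_const (yTrue p.1 p.2.1 p.2.2.1 p.2.2.2 (s(v, b), k))
        simpa using h2
  rw [h]
  refine MeasurableSet.iInter fun b => MeasurableSet.union ?_ (MeasurableSet.iInter fun k => ?_)
  · have h1 : Measurable (fun p : SimpleGraph V × Om V => p.1.Adj v b) :=
      ((measurable_pi_apply b).comp ((measurable_pi_apply v).comp
        SimpleGraph.measurable_adj)).comp measurable_fst
    exact (measurableSet_setOfPred.2 h1).compl
  · exact measurableSet_tendsto _ fun j =>
      (measurable_yPicO j (s(v, b), k)).sub (measurable_yTrue (s(v, b), k))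

theorem goodAt_act (g : Equiv.Perm V) (G : SimpleGraph V) (q : Om V) (v : V) :
    GoodAt (G.map g.toEmbedding) (actO g q) (g v) ↔ GoodAt G q v := by
  have hadj : ∀ a b : V, (G.map g.toEmbedding).Adj (g a) (g b) ↔ G.Adj a b := fun a b =>
    SimpleGraph.map_adj_apply (f := g.toEmbedding)
  have hmap : ∀ a b : V, Sym2.map g.symm s(g a, g b) = s(a, b) := by
    intro a b
    rw [Sym2.map_mk]
    simp
  have hy : yTrue (G.map g.toEmbedding) (actO g q).1 (actO g q).2.1 (actO g q).2.2 =
      actL g (yTrue G q.1 q.2.1 q.2.2) := yTrue_act g G q.1 q.2.1 q.2.2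
  have hin : innov (G.map g.toEmbedding) (actO g q).1 (actO g q).2.1 (actO g q).2.2 =
      actL g (innov G q.1 q.2.1 q.2.2) := innov_act g G q.1 q.2.1 q.2.2
  have hp : ∀ j, yPic (G.map g.toEmbedding) (actO g q).2.1
      (innov (G.map g.toEmbedding) (actO g q).1 (actO g q).2.1 (actO g q).2.2) j =
      actL g (yPic G q.2.1 (innov G q.1 q.2.1 q.2.2) j) := by
    intro j
    rw [hin]
    exact yPic_act g G q.2.1 _ j
  unfold GoodAt
  rw [hy]
  simp_rw [hp]
  constructor
  · intro h b hb k
    have h1 := h (g b) ((hadj v b).2 hb) k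
    simp only [actL, hmap] at h1
    exact h1
  · intro h b hb k
    obtain ⟨b', rfl⟩ := g.surjective b
    simp only [actL, hmap]
    exact h b' ((hadj v b').1 hb) k

/-- Probability that the reconstruction fails at `v`. -/
def badM (κ : SimpleGraph V → Measure (Set (Sym2 V))) (G : SimpleGraph V) (v : V) : ℝ≥0∞ :=
  ∫⁻ q, (if GoodAt G q v then 0 else 1) ∂(omMeas (κ G))

theorem measurable_badM [Countable V] (hκ : LawData κ) (v : V) :
    Measurable (fun G : SimpleGraph V => badM κ G v) := by
  have h1 : Measurable (fun z : (Unit × SimpleGraph V) × Om V =>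
      (if GoodAt z.1.2 z.2 v then 0 else 1 : ℝ≥0∞)) := by
    refine Measurable.ite ?_ measurable_const measurable_const
    have h2 : Measurable (fun z : (Unit × SimpleGraph V) × Om V => (z.1.2, z.2)) :=
      Measurable.prodMk (measurable_snd.comp measurable_fst) measurable_snd
    exact h2 (measurableSet_goodAt v)
  have h3 := (hκ.measurable_lintegral h1).comp (measurable_prodMk_left (x := ()))
  exact h3

theorem badM_act [Countable V] (hκ : LawData κ) (g : Equiv.Perm V) (G : SimpleGraph V) (v : V) :
    badM κ (G.map g.toEmbedding) (g v) = badM κ G v := by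
  unfold badM
  rw [lintegral_omMeas_act hκ g G]
  · refine lintegral_congr fun q => ?_
    by_cases h : GoodAt G q v
    · rw [if_pos h, if_pos ((goodAt_act g G q v).2 h)]
    · rw [if_neg h, if_neg (fun h' => h ((goodAt_act g G q v).1 h'))]
  · refine Measurable.ite ?_ measurable_const measurable_const
    exact (measurable_prodMk_left (x := G.map g.toEmbedding)) (measurableSet_goodAt (g v))

theorem measurable_del_fix [Countable V] (G : SimpleGraph V) (j k : ℕ) (r : ℝ) (e : Sym2 V) :
    Measurable (fun q : Om V => del G q j k r e) := by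
  have h1 : Measurable (fun q : Om V => ((G, q, r) : SimpleGraph V × Om V × ℝ)) :=
    measurable_const.prodMk (measurable_id.prodMk measurable_const)
  have h2 := (measurable_del (V := V) j k e).comp h1
  exact h2

theorem badM_eq_zero_of_tsum [Countable V] (G : SimpleGraph V) (v : V)
    (h : ∀ k : ℕ, ∑' j : ℕ, AA κ j k 0 G v < ⊤) : badM κ G v = 0 := by
  have hae : ∀ᵐ q ∂(omMeas (κ G)), GoodAt G q v := by
    have h1 : ∀ b : V, G.Adj v b → ∀ k : ℕ, ∀ᵐ q ∂(omMeas (κ G)),
        Tendsto (fun j => del G q j k 0 s(v, b)) atTop (𝓝 0) := by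
      intro b hb k
      have hm : ∀ j, Measurable (fun q : Om V =>
          ENNReal.ofReal ((del G q j k 0 s(v, b)) ^ 2)) := fun j =>
        ENNReal.measurable_ofReal.comp ((measurable_del_fix G j k 0 s(v, b)).pow_const 2)
      have h2 : ∫⁻ q, ∑' j, ENNReal.ofReal ((del G q j k 0 s(v, b)) ^ 2) ∂(omMeas (κ G)) ≠ ⊤ := by
        rw [lintegral_tsum (fun j => (hm j).aemeasurable)]
        refine ne_top_of_le_ne_top (h k).ne (ENNReal.tsum_le_tsum fun j => ?_)
        unfold AA
        refine le_trans (le_of_eq ?_) (ENNReal.le_tsum b)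
        rw [if_pos hb]
      filter_upwards [ae_lt_top (Measurable.tsum hm) h2] with q hq
      have h3 := ENNReal.tendsto_atTop_zero_of_tsum_ne_top hq.ne
      have h4 := (ENNReal.tendsto_toReal ENNReal.zero_ne_top).comp h3
      simp only [Function.comp_def, ENNReal.toReal_zero] at h4
      have h5 : ∀ j, (ENNReal.ofReal ((del G q j k 0 s(v, b)) ^ 2)).toReal =
          (del G q j k 0 s(v, b)) ^ 2 := fun j => ENNReal.toReal_ofReal (sq_nonneg _)
      simp_rw [h5] at h4
      have h6 := h4.sqrt
      simp_rw [Real.sqrt_sq_eq_abs] at h6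
      rw [Real.sqrt_zero] at h6
      exact (tendsto_zero_iff_abs_tendsto_zero _).2 h6
    have h7 : ∀ᵐ q ∂(omMeas (κ G)), ∀ b : V, ∀ k : ℕ, G.Adj v b →
        Tendsto (fun j => del G q j k 0 s(v, b)) atTop (𝓝 0) := by
      rw [ae_all_iff]
      intro b
      rw [ae_all_iff]
      intro k
      by_cases hb : G.Adj v b
      · filter_upwards [h1 b hb k] with q hq _ using hq
      · exact ae_of_all _ fun q hb' => absurd hb' hb
    filter_upwards [h7] with q hq
    intro b hb k
    exact tendsto_yPic_of_del G q s(v, b) (fun k => hq b k hb) k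
  unfold badM
  have h8 : ∫⁻ q, (if GoodAt G q v then 0 else 1 : ℝ≥0∞) ∂(omMeas (κ G)) =
      ∫⁻ _, 0 ∂(omMeas (κ G)) := by
    refine lintegral_congr_ae ?_
    filter_upwards [hae] with q hq
    rw [if_pos hq]
  rw [h8, lintegral_zero]

theorem picard_converges_aux [Countable V] [MeasurableSpace V] [MeasurableSingletonClass V]
    (hκ : LawData κ) {P : Measure (SimpleGraph V × V)} [IsProbabilityMeasure P] (hP : MTP P) :
    ∀ᵐ p ∂P, ∀ᵐ q ∂((κ p.1).prod ((lam V).prod (lam V))),
      ∀ i : Sym2 V × ℕ, i.1 ∈ p.1.edgeSet →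
        Tendsto (fun j => yPic p.1 q.2.1 (innov p.1 q.1 q.2.1 q.2.2) j i) atTop
          (𝓝 (yTrue p.1 q.1 q.2.1 q.2.2 i)) := by
  -- the root
  have hroot : ∀ᵐ p ∂P, badM κ p.1 p.2 = 0 := by
    have h1 : ∀ k : ℕ, ∀ᵐ p ∂P, ∑' j : ℕ, AA κ j k 0 p.1 p.2 < ⊤ := by
      intro k
      have hm : ∀ j, Measurable (fun p : SimpleGraph V × V => AA κ j k 0 p.1 p.2) := by
        intro j
        refine measurable_from_prod_countable_left fun v => ?_
        have h2 := (measurable_AA hκ j k v).comp (measurable_prodMk_left (x := (0 : ℝ)))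
        exact h2
      refine ae_lt_top (Measurable.tsum hm) ?_
      rw [lintegral_tsum (fun j => (hm j).aemeasurable)]
      exact (tsum_DD_lt_top hκ hP k).ne
    rw [← ae_all_iff] at h1
    filter_upwards [h1] with p hp
    exact badM_eq_zero_of_tsum p.1 p.2 hp
  -- transport to all vertices
  have hall : ∀ᵐ p ∂P, ∀ v : V, badM κ p.1 v = 0 := by
    have hm : Measurable (fun p : SimpleGraph V × V × V => badM κ p.1 p.2.2) := by
      refine measurable_from_prod_countable_left fun y => ?_
      exact measurable_badM hκ y.2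
    have h2 := hP (fun G _ v => badM κ G v) hm (fun g G u v => badM_act hκ g G v)
    have h3 : ∫⁻ p, ∑' _ : V, badM κ p.1 p.2 ∂P = 0 := by
      rw [lintegral_congr_ae (g := fun _ => 0)]
      · exact lintegral_zero
      · filter_upwards [hroot] with p hp
        simp [hp]
    have h4 : ∫⁻ p, ∑' v, badM κ p.1 v ∂P = 0 := h2.trans h3
    have hm2 : Measurable (fun p : SimpleGraph V × V => ∑' v, badM κ p.1 v) :=
      Measurable.tsum fun v => (measurable_badM hκ v).comp measurable_fst
    have h5 := (lintegral_eq_zero_iff hm2).1 h4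
    filter_upwards [h5] with p hp v
    simp only [Pi.zero_apply, ENNReal.tsum_eq_zero] at hp
    exact hp v
  filter_upwards [hall] with p hp
  have h6 : ∀ v : V, ∀ᵐ q ∂((κ p.1).prod ((lam V).prod (lam V))), GoodAt p.1 q v := by
    intro v
    have h7 := hp v
    unfold badM at h7
    have hmv : Measurable (fun q : Om V => (if GoodAt p.1 q v then 0 else 1 : ℝ≥0∞)) :=
      Measurable.ite ((measurable_prodMk_left (x := p.1)) (measurableSet_goodAt v))
        measurable_const measurable_const
    rw [lintegral_eq_zero_iff hmv] at h7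
    have h8 : ∀ᵐ q ∂(omMeas (κ p.1)), GoodAt p.1 q v := by
      filter_upwards [h7] with q hq
      by_contra hng
      rw [if_neg hng] at hq
      exact one_ne_zero hq
    exact h8
  rw [← ae_all_iff] at h6
  filter_upwards [h6] with q hq
  rintro ⟨e, k⟩ he
  induction e using Sym2.ind with
  | _ a b => exact hq a b he k

end

end Vale.Agent.Fusf
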