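import Vale.Agent.Lib.P143.GronStep

/-!
# Convergence of the Picard iterates
-/

open MeasureTheory Filter Topology ProbabilityTheory
open scoped ENNReal unitInterval Classical

namespace Vale.Agent.Fusf

noncomputable section

variable {V : Type*}

variable {κ : SimpleGraph V → Measure (Set (Sym2 V))}

theorem gg_y_zero (a : ℝ) : gg a 0 = 0 := by
  unfold gg
  simp

theorem fld_zero (G : SimpleGraph V) (t : Lab V) (k : ℕ) (r : ℝ) (e : Sym2 V) :
    fld G t (fun _ => 0) k r e = 0 := by
  unfold fld
  simp [gg_y_zero]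

theorem abs_del_zero_le (G : SimpleGraph V) (q : Om V) (k : ℕ) (r : ℝ) (e : Sym2 V) :
    |del G q 0 k r e| ≤ 2 * (k + 1) := by
  unfold del
  have h : yPic G q.2.1 (innov G q.1 q.2.1 q.2.2) 0 = fun _ => 0 := by
    funext i
    exact yPic_zero _ _ _ _
  rw [h, fld_zero, zero_sub, abs_neg]
  exact abs_fld_le G q.2.1 (fun i => yTrue_mem G q.1 q.2.1 q.2.2 i) k r e

theorem tsum_adj_const (G : SimpleGraph V) (v : V) (C : ℝ≥0∞) :
    ∑' b : V, (if G.Adj v b then C else 0) = (G.neighborSet v).encard * C := by
  have h1 : ∑' b : V, (if G.Adj v b then C else 0) = ∑' _ : G.neighborSet v, C := by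
    have h2 := tsum_subtype (G.neighborSet v) (fun _ => C)
    rw [h2]
    refine tsum_congr fun b => ?_
    simp [Set.indicator]
  rw [h1, ENNReal.tsum_set_const]

theorem AA_zero_le (hκ : LawData κ) (G : SimpleGraph V) (k : ℕ) (r : ℝ) (v : V) :
    AA κ 0 k r G v ≤ k * ENNReal.ofReal (4 * (k + 1) ^ 2) := by
  have := hκ.prob
  by_cases hv : (G.neighborSet v).encard ≤ k
  · calc AA κ 0 k r G v ≤ ∑' b : V, (if G.Adj v b then ENNReal.ofReal (4 * (k + 1) ^ 2) else 0) := by
          unfold AA
          refine ENNReal.tsum_le_tsum fun b => ?_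
          split_ifs
          · calc ∫⁻ q, ENNReal.ofReal ((del G q 0 k r s(v, b)) ^ 2) ∂(omMeas (κ G))
                ≤ ∫⁻ _, ENNReal.ofReal (4 * (k + 1) ^ 2) ∂(omMeas (κ G)) := by
                  refine lintegral_mono fun q => ENNReal.ofReal_le_ofReal ?_
                  have h1 := abs_del_zero_le G q k r s(v, b)
                  have h2 := sq_le_sq' (by linarith [neg_abs_le (del G q 0 k r s(v, b))])
                    ((le_abs_self _).trans h1)
                  calc _ ≤ _ := h2
                    _ = _ := by ring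
              _ = ENNReal.ofReal (4 * (k + 1) ^ 2) := by
                  rw [lintegral_const, measure_univ, mul_one]
          · exact le_rfl
      _ = (G.neighborSet v).encard * ENNReal.ofReal (4 * (k + 1) ^ 2) := tsum_adj_const G v _
      _ ≤ _ := by
          gcongr
          have : ((G.neighborSet v).encard : ℝ≥0∞) ≤ ((k : ℕ∞) : ℝ≥0∞) :=
            ENat.toENNReal_le.2 hv
          simpa using this
  · have h0 : AA κ 0 k r G v = 0 := by
      unfold AA
      refine ENNReal.tsum_eq_zero.2 fun b => ?_
      split_ifs with hb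
      · have : ∀ q : Om V, del G q 0 k r s(v, b) = 0 := by
          intro q
          have hno : ∀ l ≤ k, ¬ ok G s(v, b) l := by
            intro l hl hok
            refine hv ((hok.2 v (Sym2.mem_mk_left v b)).trans ?_)
            exact_mod_cast hl
          unfold del
          rw [fld_eq_zero_of_not_ok _ _ _ _ _ _ hno, fld_eq_zero_of_not_ok _ _ _ _ _ _ hno,
            sub_zero]
        simp [this]
      · rfl
    rw [h0]
    exact bot_le

/-- The exponential integral on the unit interval. -/
theorem lintegral_exp_le {c : ℝ} (hc : 0 < c) (l : ℕ) {ρ : ℝ} (hρ : 0 ≤ ρ) (hρ1 : ρ ≤ 1) :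
    ∫⁻ s : I, (if (s : ℝ) < ρ then ENNReal.ofReal (Real.exp (c * (l + s))) else 0) =
      ENNReal.ofReal ((Real.exp (c * (l + ρ)) - Real.exp (c * l)) / c) := by
  have h1 : ∫⁻ s : I, (if (s : ℝ) < ρ then ENNReal.ofReal (Real.exp (c * (l + s))) else 0) =
      ∫⁻ s in Set.Icc (0 : ℝ) 1, (if s < ρ then ENNReal.ofReal (Real.exp (c * (l + s))) else 0) := by
    have hm : Measurable (fun s : ℝ => if s < ρ then ENNReal.ofReal (Real.exp (c * (l + s)))
        else 0) := by
      refine Measurable.ite (measurableSet_lt measurable_id measurable_const) ?_ measurable_const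
      fun_prop
    exact unitInterval.measurePreserving_coe.lintegral_comp hm
  have h2 : ∫⁻ s in Set.Icc (0 : ℝ) 1,
      (if s < ρ then ENNReal.ofReal (Real.exp (c * (l + s))) else 0) =
      ∫⁻ s in Set.Ico (0 : ℝ) ρ, ENNReal.ofReal (Real.exp (c * (l + s))) := by
    rw [← lintegral_indicator measurableSet_Icc, ← lintegral_indicator measurableSet_Ico]
    refine lintegral_congr fun s => ?_
    simp only [Set.indicator, Set.mem_Icc, Set.mem_Ico]
    by_cases hs0 : 0 ≤ s
    · by_cases hs : s < ρ
      · rw [if_pos ⟨hs0, (hs.trans_le hρ1).le⟩, if_pos hs, if_pos ⟨hs0, hs⟩]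
      · simp [hs]
    · simp [hs0]
  rw [h1, h2, ← ofReal_integral_eq_lintegral_ofReal]
  · congr 1
    rw [integral_Ico_eq_integral_Ioo, ← integral_Ioc_eq_integral_Ioo,
      ← intervalIntegral.integral_of_le hρ]
    have hd : ∀ s ∈ Set.uIcc 0 ρ, HasDerivAt (fun s : ℝ => Real.exp (c * (l + s)) / c)
        (Real.exp (c * (l + s))) s := by
      intro s _
      have h3 : HasDerivAt (fun s : ℝ => c * ((l : ℝ) + s)) c s := by
        simpa using ((hasDerivAt_id s).const_add (l : ℝ)).const_mul c
      have h4 := h3.exp.div_const c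
      refine h4.congr_deriv ?_
      field_simp
    rw [intervalIntegral.integral_eq_sub_of_hasDerivAt hd
      (Continuous.intervalIntegrable (by fun_prop) _ _)]
    rw [add_zero]
    ring
  · exact (Continuous.integrableOn_Icc (by fun_prop)).mono_set Set.Ico_subset_Icc_self
  · exact ae_of_all _ fun s => (Real.exp_pos _).le

theorem sum_lintegral_exp_le {c : ℝ} (hc : 0 < c) (k : ℕ) {r : ℝ} (hr : 0 ≤ r) (hr1 : r ≤ 1) :
    ∑ l ∈ Finset.range (k + 1), ∫⁻ s : I, (if (s : ℝ) < 1 / 2 ∧ (s : ℝ) <
      (if l < k then 2 else r) then ENNReal.ofReal (Real.exp (c * (l + s))) else 0) ≤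
      ENNReal.ofReal (Real.exp (c * (k + r)) / c) := by
  rw [Finset.sum_range_succ]
  have h1 : ∀ l ∈ Finset.range k, ∫⁻ s : I, (if (s : ℝ) < 1 / 2 ∧ (s : ℝ) <
      (if l < k then 2 else r) then ENNReal.ofReal (Real.exp (c * (l + s))) else 0) ≤
      ENNReal.ofReal ((Real.exp (c * ((l : ℝ) + 1)) - Real.exp (c * l)) / c) := by
    intro l _
    rw [← lintegral_exp_le hc l zero_le_one le_rfl]
    refine lintegral_mono fun s => ?_
    by_cases h : (s : ℝ) < 1 / 2 ∧ (s : ℝ) < (if l < k then 2 else r)
    · have h2 : (s : ℝ) < 1 := h.1.trans (by norm_num)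
      rw [if_pos h, if_pos h2]
    · rw [if_neg h]
      exact bot_le
  have h2 : ∫⁻ s : I, (if (s : ℝ) < 1 / 2 ∧ (s : ℝ) <
      (if k < k then 2 else r) then ENNReal.ofReal (Real.exp (c * (k + s))) else 0) ≤
      ENNReal.ofReal ((Real.exp (c * ((k : ℝ) + r)) - Real.exp (c * k)) / c) := by
    rw [← lintegral_exp_le hc k hr hr1]
    refine lintegral_mono fun s => ?_
    rw [if_neg (lt_irrefl k)]
    by_cases h : (s : ℝ) < r
    · rw [if_pos h]
      split_ifs
      · exact le_rfl
      · exact bot_le
    · rw [if_neg h, if_neg (fun h' => h h'.2)]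
  calc _ ≤ ∑ l ∈ Finset.range k,
        ENNReal.ofReal ((Real.exp (c * ((l : ℝ) + 1)) - Real.exp (c * l)) / c) +
        ENNReal.ofReal ((Real.exp (c * ((k : ℝ) + r)) - Real.exp (c * k)) / c) :=
        add_le_add (Finset.sum_le_sum h1) h2
    _ = ENNReal.ofReal ((Real.exp (c * k) - 1) / c) +
        ENNReal.ofReal ((Real.exp (c * ((k : ℝ) + r)) - Real.exp (c * k)) / c) := by
        rw [← ENNReal.ofReal_sum_of_nonneg]
        · congr 2
          rw [← Finset.sum_div]
          congr 1
          have := Finset.sum_range_sub (fun l : ℕ => Real.exp (c * l)) k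
          simp only [Nat.cast_add, Nat.cast_one, Nat.cast_zero, mul_zero, Real.exp_zero] at this
          exact this
        · intro l _
          refine div_nonneg (sub_nonneg.2 (Real.exp_le_exp.2 ?_)) hc.le
          nlinarith
    _ = ENNReal.ofReal ((Real.exp (c * ((k : ℝ) + r)) - 1) / c) := by
        rw [← ENNReal.ofReal_add]
        · congr 1
          ring
        · refine div_nonneg (sub_nonneg.2 (Real.one_le_exp (by positivity))) hc.le
        · refine div_nonneg (sub_nonneg.2 (Real.exp_le_exp.2 ?_)) hc.le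
          nlinarith
    _ ≤ _ := by
        refine ENNReal.ofReal_le_ofReal ?_
        gcongr
        linarith

end

end Vale.Agent.Fusf
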