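import Vale.Agent.Lib.P143.PsiMeas
import Vale.Agent.Lib.P143.Resample

/-!
# Integrated error bounds on a fixed graph
-/

open MeasureTheory Filter Topology
open scoped ENNReal unitInterval Classical

namespace Vale.Agent.Fusf

noncomputable section

variable {V : Type*}

theorem lintegral_omMeas (μ : Measure (Set (Sym2 V))) [IsProbabilityMeasure μ]
    {f : Om V → ℝ≥0∞} (hf : Measurable f) :
    ∫⁻ q, f q ∂(omMeas μ) =
      ∫⁻ t, ∫⁻ p : Set (Sym2 V) × Lab V, f (p.1, t, p.2) ∂(μ.prod (lam V)) ∂(lam V) := by
  unfold omMeas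
  rw [lintegral_prod _ hf.aemeasurable]
  have h1 : ∀ x, ∫⁻ q, f (x, q) ∂((lam V).prod (lam V)) =
      ∫⁻ t, ∫⁻ w, f (x, t, w) ∂(lam V) ∂(lam V) := fun x =>
    lintegral_prod _ (hf.comp measurable_prodMk_left).aemeasurable
  simp_rw [h1]
  have h3 : Measurable (fun p : (Set (Sym2 V) × Lab V) × Lab V => f (p.1.1, p.1.2, p.2)) :=
    hf.comp (Measurable.prodMk (measurable_fst.comp measurable_fst)
      (Measurable.prodMk (measurable_snd.comp measurable_fst) measurable_snd))
  rw [lintegral_lintegral_swap]
  · refine lintegral_congr fun t => ?_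
    rw [lintegral_prod]
    exact (hf.comp (Measurable.prodMk measurable_fst
      (Measurable.prodMk measurable_const measurable_snd))).aemeasurable
  · exact (Measurable.lintegral_prod_right h3).aemeasurable

theorem ring_integral_le [Countable V] (G : SimpleGraph V) (μ : Measure (Set (Sym2 V)))
    [IsProbabilityMeasure μ] (j l : ℕ) (ρ : ℝ) (a b : V) :
    ∫⁻ q, (if (q.2.1 (s(a, b), l) : ℝ) < 1 / 2 ∧ (q.2.1 (s(a, b), l) : ℝ) < ρ then
        Psi G q j l (q.2.1 (s(a, b), l)) a b else 0) ∂(omMeas μ) ≤
      2 * ∫⁻ s : I, (if (s : ℝ) < 1 / 2 ∧ (s : ℝ) < ρ then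
        ∫⁻ q, Psi G q j l s a b ∂(omMeas μ) else 0) := by
  have hPsi : Measurable (fun p : Om V × ℝ => Psi G p.1 j l p.2 a b) := by
    have h1 := (measurable_Psi (V := V) j l a b).comp (measurable_prodMk_left (x := G))
    exact h1
  have hset : MeasurableSet {s : I | (s : ℝ) < 1 / 2 ∧ (s : ℝ) < ρ} :=
    (measurableSet_lt measurable_subtype_coe measurable_const).inter
      (measurableSet_lt measurable_subtype_coe measurable_const)
  have hti : Measurable (fun q : Om V => q.2.1 (s(a, b), l)) :=
    (measurable_pi_apply _).comp (measurable_fst.comp measurable_snd)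
  have hH : Measurable (fun q : Om V => if (q.2.1 (s(a, b), l) : ℝ) < 1 / 2 ∧
      (q.2.1 (s(a, b), l) : ℝ) < ρ then Psi G q j l (q.2.1 (s(a, b), l)) a b else 0) := by
    refine Measurable.ite (hti hset) ?_ measurable_const
    have h1 := hPsi.comp (Measurable.prodMk measurable_id (measurable_subtype_coe.comp hti))
    exact h1
  rw [lintegral_omMeas μ hH]
  set K : I × Lab V → ℝ≥0∞ := fun z =>
    ∫⁻ p : Set (Sym2 V) × Lab V, Psi G (p.1, z.2, p.2) j l z.1 a b ∂(μ.prod (lam V)) with hK
  have hKm : Measurable K := by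
    have h2 : Measurable (fun z : (I × Lab V) × (Set (Sym2 V) × Lab V) =>
        Psi G (z.2.1, z.1.2, z.2.2) j l z.1.1 a b) := by
      have h1 := hPsi.comp (Measurable.prodMk (Measurable.prodMk
        (measurable_fst.comp (measurable_snd (α := I × Lab V) (β := Set (Sym2 V) × Lab V)))
        (Measurable.prodMk (measurable_snd.comp measurable_fst)
          (measurable_snd.comp measurable_snd)))
        (measurable_subtype_coe.comp (measurable_fst.comp measurable_fst)))
      exact h1
    exact h2.lintegral_prod_right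
  have hcaus : ∀ (s s' : I) (t : Lab V), s ≤ s' →
      K (s, Function.update t (s(a, b), l) s) = K (s, Function.update t (s(a, b), l) s') := by
    intro s s' t hss
    simp only [hK]
    refine lintegral_congr fun p => ?_
    have hag := agreeBefore_update t s(a, b) l hss
    rw [Psi_eq, Psi_eq]
    refine tsum_congr fun d => ?_
    unfold psiTerm del
    simp only
    rw [fld_congr hag (fun i hi => yTrue_congr hag p.1 p.2 hi),
      fld_congr hag (fun i hi => yPic_innov_congr hag p.1 p.2 j hi)]
  have hmain := lintegral_at_time_le (ι := Sym2 V × ℕ) (s(a, b), l) ρ hKm hcaus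
  refine le_trans (le_of_eq ?_) (hmain.trans (le_of_eq ?_))
  · refine lintegral_congr fun t => ?_
    by_cases ht : (t (s(a, b), l) : ℝ) < 1 / 2 ∧ (t (s(a, b), l) : ℝ) < ρ
    · simp only [ht, and_self, if_true, hK]
    · simp only [ht, if_false, lintegral_zero]
  · congr 1
    refine lintegral_congr fun s => ?_
    by_cases hs : (s : ℝ) < 1 / 2 ∧ (s : ℝ) < ρ
    · simp only [hs, and_self, if_true, hK]
      rw [lintegral_omMeas μ]
      · rfl
      · have h1 := hPsi.comp (measurable_prodMk_right (y := (s : ℝ)))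
        exact h1
    · simp only [hs, if_false]

end

end Vale.Agent.Fusf
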