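import Vale.Agent.Lib.P143.GronInt

/-!
# Mass transport for the error functionals
-/

open MeasureTheory Filter Topology ProbabilityTheory
open scoped ENNReal unitInterval Classical

namespace Vale.Agent.Fusf

noncomputable section

variable {V : Type*}

/-- What is needed about the family of laws. -/
structure LawData (κ : SimpleGraph V → Measure (Set (Sym2 V))) : Prop where
  meas : Measurable κ
  prob : ∀ G, IsProbabilityMeasure (κ G)
  act : ∀ (g : Equiv.Perm V) (G : SimpleGraph V),
    κ (G.map g.toEmbedding) = (κ G).map (actS g)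

variable {κ : SimpleGraph V → Measure (Set (Sym2 V))}

/-- Integrals over the randomness are measurable functions of the graph. -/
theorem LawData.measurable_lintegral (hκ : LawData κ) {α : Type*} [MeasurableSpace α]
    {F : (α × SimpleGraph V) × Om V → ℝ≥0∞} (hF : Measurable F) :
    Measurable (fun p : α × SimpleGraph V => ∫⁻ q, F (p, q) ∂(omMeas (κ p.2))) := by
  have := hκ.prob
  set k1 : Kernel (SimpleGraph V) (Set (Sym2 V)) := ⟨κ, hκ.meas⟩ with hk1
  have : IsMarkovKernel k1 := ⟨fun G => hκ.prob G⟩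
  set k2 : Kernel (α × SimpleGraph V) (Om V) :=
    (k1.comap Prod.snd measurable_snd) ×ₖ Kernel.const _ ((lam V).prod (lam V)) with hk2
  have h : ∀ p : α × SimpleGraph V, k2 p = omMeas (κ p.2) := by
    intro p
    rw [hk2, Kernel.prod_apply, Kernel.const_apply, Kernel.comap_apply]
    rfl
  have h2 := Measurable.lintegral_kernel_prod_right' (κ := k2) hF
  simp_rw [h] at h2
  exact h2

/-- Sum over the neighbours `b` of `v` of the squared field difference at the edge `vb`. -/
def AA (κ : SimpleGraph V → Measure (Set (Sym2 V))) (j k : ℕ) (r : ℝ) (G : SimpleGraph V)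
    (v : V) : ℝ≥0∞ :=
  ∑' b : V, if G.Adj v b then
    ∫⁻ q, ENNReal.ofReal ((del G q j k r s(v, b)) ^ 2) ∂(omMeas (κ G)) else 0

/-- Sum over the neighbours `b` of `v` of the mean of `Psi`. -/
def BB (κ : SimpleGraph V → Measure (Set (Sym2 V))) (j k : ℕ) (r : ℝ) (G : SimpleGraph V)
    (v : V) : ℝ≥0∞ :=
  ∑' b : V, if G.Adj v b then ∫⁻ q, Psi G q j k r v b ∂(omMeas (κ G)) else 0

/-- The transported mass. -/
def TT (κ : SimpleGraph V → Measure (Set (Sym2 V))) (j k : ℕ) (r : ℝ) (G : SimpleGraph V)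
    (u v : V) : ℝ≥0∞ :=
  ∑' b : V, if G.Adj u b then
    ∑' c : V, ∫⁻ q, psiTerm G q j k r u b (v, c) ∂(omMeas (κ G)) else 0

theorem measurable_adj_ite (a b : V) {α : Type*} [MeasurableSpace α]
    {f : α × SimpleGraph V → ℝ≥0∞} (hf : Measurable f) :
    Measurable (fun p : α × SimpleGraph V => if p.2.Adj a b then f p else 0) := by
  refine Measurable.ite ?_ hf measurable_const
  have h1 : Measurable (fun p : α × SimpleGraph V => p.2.Adj a b) :=
    ((measurable_pi_apply b).comp ((measurable_pi_apply a).comp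
      SimpleGraph.measurable_adj)).comp measurable_snd
  exact measurableSet_setOfPred.2 h1

theorem measurable_meanPsiTerm [Countable V] (hκ : LawData κ) (j k : ℕ) (u b : V) (d : V × V) :
    Measurable (fun p : ℝ × SimpleGraph V =>
      ∫⁻ q, psiTerm p.2 q j k p.1 u b d ∂(omMeas (κ p.2))) := by
  have h1 : Measurable (fun z : (ℝ × SimpleGraph V) × Om V =>
      psiTerm z.1.2 z.2 j k z.1.1 u b d) := by
    have h2 := (measurable_psiTerm (V := V) j k u b d).comp
      (Measurable.prodMk (measurable_snd.comp (measurable_fst (α := ℝ × SimpleGraph V)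
        (β := Om V))) (Measurable.prodMk measurable_snd (measurable_fst.comp measurable_fst)))
    exact h2
  exact hκ.measurable_lintegral h1

theorem measurable_meanPsi [Countable V] (hκ : LawData κ) (j k : ℕ) (u b : V) :
    Measurable (fun p : ℝ × SimpleGraph V =>
      ∫⁻ q, Psi p.2 q j k p.1 u b ∂(omMeas (κ p.2))) := by
  have h1 : Measurable (fun z : (ℝ × SimpleGraph V) × Om V =>
      Psi z.1.2 z.2 j k z.1.1 u b) := by
    have h2 := (measurable_Psi (V := V) j k u b).comp
      (Measurable.prodMk (measurable_snd.comp (measurable_fst (α := ℝ × SimpleGraph V)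
        (β := Om V))) (Measurable.prodMk measurable_snd (measurable_fst.comp measurable_fst)))
    exact h2
  exact hκ.measurable_lintegral h1

theorem measurable_meanDel [Countable V] (hκ : LawData κ) (j k : ℕ) (e : Sym2 V) :
    Measurable (fun p : ℝ × SimpleGraph V =>
      ∫⁻ q, ENNReal.ofReal ((del p.2 q j k p.1 e) ^ 2) ∂(omMeas (κ p.2))) := by
  have h1 : Measurable (fun z : (ℝ × SimpleGraph V) × Om V =>
      ENNReal.ofReal ((del z.1.2 z.2 j k z.1.1 e) ^ 2)) := by
    have h2 := (measurable_del (V := V) j k e).comp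
      (Measurable.prodMk (measurable_snd.comp (measurable_fst (α := ℝ × SimpleGraph V)
        (β := Om V))) (Measurable.prodMk measurable_snd (measurable_fst.comp measurable_fst)))
    exact ENNReal.measurable_ofReal.comp (h2.pow_const 2)
  exact hκ.measurable_lintegral h1

theorem measurable_BB [Countable V] (hκ : LawData κ) (j k : ℕ) (v : V) :
    Measurable (fun p : ℝ × SimpleGraph V => BB κ j k p.1 p.2 v) :=
  Measurable.tsum fun b => measurable_adj_ite v b (measurable_meanPsi hκ j k v b)

theorem measurable_AA [Countable V] (hκ : LawData κ) (j k : ℕ) (v : V) :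
    Measurable (fun p : ℝ × SimpleGraph V => AA κ j k p.1 p.2 v) :=
  Measurable.tsum fun b => measurable_adj_ite v b (measurable_meanDel hκ j k s(v, b))

theorem measurable_TT [Countable V] [MeasurableSpace V] [MeasurableSingletonClass V]
    (hκ : LawData κ) (j k : ℕ) (r : ℝ) :
    Measurable (fun p : SimpleGraph V × V × V => TT κ j k r p.1 p.2.1 p.2.2) := by
  refine measurable_from_prod_countable_left fun y => ?_
  refine Measurable.tsum fun b => ?_
  have h1 : Measurable (fun p : ℝ × SimpleGraph V =>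
      ∑' c : V, ∫⁻ q, psiTerm p.2 q j k p.1 y.1 b (y.2, c) ∂(omMeas (κ p.2))) :=
    Measurable.tsum fun c => measurable_meanPsiTerm hκ j k y.1 b (y.2, c)
  have h2 := (measurable_adj_ite y.1 b h1).comp (measurable_prodMk_left (x := r))
  exact h2

theorem measurable_psiTerm_fix [Countable V] (G : SimpleGraph V) (j k : ℕ) (r : ℝ) (u b : V)
    (d : V × V) : Measurable (fun q : Om V => psiTerm G q j k r u b d) := by
  have h1 : Measurable (fun q : Om V => ((G, q, r) : SimpleGraph V × Om V × ℝ)) :=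
    measurable_const.prodMk (measurable_id.prodMk measurable_const)
  have h2 := (measurable_psiTerm (V := V) j k u b d).comp h1
  exact h2

theorem tsum3_swap (F : V → V → V → ℝ≥0∞) :
    ∑' u, ∑' b, ∑' c, F u b c = ∑' c, ∑' d : V × V, F d.1 d.2 c := by
  rw [← ENNReal.tsum_prod (f := fun u b => ∑' c, F u b c)]
  exact ENNReal.tsum_comm

theorem lintegral_omMeas_act (hκ : LawData κ) (g : Equiv.Perm V) (G : SimpleGraph V)
    {F : Om V → ℝ≥0∞} (hF : Measurable F) :
    ∫⁻ q, F q ∂(omMeas (κ (G.map g.toEmbedding))) = ∫⁻ q, F (actO g q) ∂(omMeas (κ G)) := by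
  have := hκ.prob
  rw [hκ.act g G, omMeas_act, lintegral_map hF (measurable_actO g)]

theorem TT_act [Countable V] (hκ : LawData κ) (j k : ℕ) (r : ℝ) (g : Equiv.Perm V)
    (G : SimpleGraph V) (u v : V) :
    TT κ j k r (G.map g.toEmbedding) (g u) (g v) = TT κ j k r G u v := by
  unfold TT
  rw [← g.tsum_eq]
  refine tsum_congr fun b => ?_
  have hadj : (G.map g.toEmbedding).Adj (g u) (g b) ↔ G.Adj u b :=
    SimpleGraph.map_adj_apply (f := g.toEmbedding)
  by_cases h : G.Adj u b
  · rw [if_pos h, if_pos (hadj.2 h), ← g.tsum_eq]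
    refine tsum_congr fun c => ?_
    have hm := measurable_psiTerm_fix (G.map g.toEmbedding) j k r (g u) (g b) (g v, g c)
    rw [lintegral_omMeas_act hκ g G hm]
    refine lintegral_congr fun q => ?_
    exact psiTerm_act g G q j k r u b (v, c)
  · rw [if_neg h, if_neg (fun h' => h (hadj.1 h'))]

theorem tsum_TT_eq [Countable V] (j k : ℕ) (r : ℝ) (G : SimpleGraph V)
    (u : V) : ∑' v : V, TT κ j k r G u v = BB κ j k r G u := by
  unfold TT BB
  rw [ENNReal.tsum_comm]
  refine tsum_congr fun b => ?_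
  by_cases h : G.Adj u b
  · simp only [h, if_true, Psi_eq]
    rw [lintegral_tsum]
    · rw [ENNReal.tsum_prod']
    · intro d
      exact (measurable_psiTerm_fix G j k r u b d).aemeasurable
  · simp [h]

theorem ok_of_str_ne {G : SimpleGraph V} {t : Lab V} {e : Sym2 V} {k : ℕ}
    (h : str G t e k ≠ 0) : ok G e k := by
  unfold str at h
  by_contra hok
  exact h (if_neg fun h' => hok h'.1)

theorem fld_eq_zero_of_not_ok (G : SimpleGraph V) (t : Lab V) (y : Sym2 V × ℕ → ℝ) (k : ℕ)
    (r : ℝ) (e : Sym2 V) (he : ∀ l ≤ k, ¬ ok G e l) : fld G t y k r e = 0 := by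
  rw [fld_eq]
  refine Finset.sum_eq_zero fun l hl => ?_
  have hs : str G t e l = 0 := by
    by_contra h
    exact he l (Nat.lt_succ_iff.1 (Finset.mem_range.1 hl)) (ok_of_str_ne h)
  rw [hs, gg_zero, ite_self]

theorem del_eq_zero_of_not_adj (G : SimpleGraph V) (q : Om V) (j k : ℕ) (r : ℝ) {v c : V}
    (h : ¬ G.Adj v c) : del G q j k r s(v, c) = 0 := by
  unfold del
  have : ∀ l ≤ k, ¬ ok G s(v, c) l := fun l _ hok => h hok.1
  rw [fld_eq_zero_of_not_ok _ _ _ _ _ _ this, fld_eq_zero_of_not_ok _ _ _ _ _ _ this, sub_zero]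

theorem tsum_lintegral_psiTerm [Countable V] (G : SimpleGraph V) (j k : ℕ) (r : ℝ) (v c : V)
    (μ : Measure (Om V)) :
    ∑' d : V × V, ∫⁻ q, psiTerm G q j k r d.1 d.2 (v, c) ∂μ =
      ∫⁻ q, ∑' d : V × V, psiTerm G q j k r d.1 d.2 (v, c) ∂μ :=
  (lintegral_tsum (fun d : V × V =>
    (measurable_psiTerm_fix G j k r d.1 d.2 (v, c)).aemeasurable)).symm

theorem tsum_psiTerm_le (G : SimpleGraph V) (q : Om V) (j k : ℕ) (r : ℝ) (v c : V) :
    ∑' d : V × V, psiTerm G q j k r d.1 d.2 (v, c) ≤
      4 * ENNReal.ofReal ((del G q j k r s(v, c)) ^ 2) := by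
  have h3 := tsum_qq_le' G (fld G q.2.1 (yTrue G q.1 q.2.1 q.2.2) k r) (v, c)
  have h4 : ∀ d : V × V, psiTerm G q j k r d.1 d.2 (v, c) =
      ENNReal.ofReal (qq G (fld G q.2.1 (yTrue G q.1 q.2.1 q.2.2) k r) d.1 d.2 (v, c)) *
        ENNReal.ofReal ((del G q j k r s(v, c)) ^ 2) := by
    intro d
    unfold psiTerm
    rw [ENNReal.ofReal_mul]
    unfold qq
    positivity
  simp_rw [h4]
  rw [ENNReal.tsum_mul_right]
  gcongr

theorem tsum_TT_le [Countable V] (j k : ℕ) (r : ℝ) (G : SimpleGraph V)
    (v : V) : ∑' u : V, TT κ j k r G u v ≤ 4 * AA κ j k r G v := by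
  calc ∑' u : V, TT κ j k r G u v
      ≤ ∑' u : V, ∑' b : V, ∑' c : V,
          ∫⁻ q, psiTerm G q j k r u b (v, c) ∂(omMeas (κ G)) := by
        refine ENNReal.tsum_le_tsum fun u => ENNReal.tsum_le_tsum fun b => ?_
        split_ifs
        · exact le_rfl
        · exact bot_le
    _ = ∑' c : V, ∑' d : V × V, ∫⁻ q, psiTerm G q j k r d.1 d.2 (v, c) ∂(omMeas (κ G)) :=
        tsum3_swap (fun u b c => ∫⁻ q, psiTerm G q j k r u b (v, c) ∂(omMeas (κ G)))
    _ = ∑' c : V, ∫⁻ q, ∑' d : V × V, psiTerm G q j k r d.1 d.2 (v, c) ∂(omMeas (κ G)) :=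
        tsum_congr fun c => tsum_lintegral_psiTerm G j k r v c _
    _ ≤ ∑' c : V, if G.Adj v c then
          4 * ∫⁻ q, ENNReal.ofReal ((del G q j k r s(v, c)) ^ 2) ∂(omMeas (κ G)) else 0 := by
        refine ENNReal.tsum_le_tsum fun c => ?_
        by_cases h : G.Adj v c
        · rw [if_pos h, ← lintegral_const_mul' _ _ (by norm_num)]
          exact lintegral_mono fun q => tsum_psiTerm_le G q j k r v c
        · rw [if_neg h]
          refine le_of_eq ?_
          have h0 : ∀ q : Om V, ∑' d : V × V, psiTerm G q j k r d.1 d.2 (v, c) = 0 := by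
            intro q
            have := tsum_psiTerm_le G q j k r v c
            rw [del_eq_zero_of_not_adj G q j k r h] at this
            simpa using this
          simp_rw [h0]
          exact lintegral_zero
    _ = 4 * AA κ j k r G v := by
        unfold AA
        rw [← ENNReal.tsum_mul_left]
        refine tsum_congr fun c => ?_
        split_ifs
        · rfl
        · simp

/-- The mean of `BB` at the root is at most four times the mean of `AA` at the root. -/
theorem mean_BB_le [Countable V] [MeasurableSpace V] [MeasurableSingletonClass V]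
    (hκ : LawData κ) {P : Measure (SimpleGraph V × V)} (hP : MTP P) (j k : ℕ) (r : ℝ) :
    ∫⁻ p, BB κ j k r p.1 p.2 ∂P ≤ 4 * ∫⁻ p, AA κ j k r p.1 p.2 ∂P := by
  have h := hP (fun G u v => TT κ j k r G u v) (measurable_TT hκ j k r)
    (fun g G u v => TT_act hκ j k r g G u v)
  calc ∫⁻ p, BB κ j k r p.1 p.2 ∂P = ∫⁻ p, ∑' v, TT κ j k r p.1 p.2 v ∂P := by
        refine lintegral_congr fun p => ?_
        rw [tsum_TT_eq]
    _ = ∫⁻ p, ∑' v, TT κ j k r p.1 v p.2 ∂P := h
    _ ≤ ∫⁻ p, 4 * AA κ j k r p.1 p.2 ∂P := lintegral_mono fun p => tsum_TT_le j k r p.1 p.2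
    _ = _ := lintegral_const_mul' _ _ (by norm_num)

end

end Vale.Agent.Fusf
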