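import Vale.Agent.Lib.P143.GronMTP

/-!
# The Gronwall inequality for the Picard iterates
-/

open MeasureTheory Filter Topology ProbabilityTheory
open scoped ENNReal unitInterval Classical

namespace Vale.Agent.Fusf

noncomputable section

variable {V : Type*}

variable {κ : SimpleGraph V → Measure (Set (Sym2 V))}

theorem measurableSet_time (ρ : ℝ) : MeasurableSet {s : I | (s : ℝ) < 1 / 2 ∧ (s : ℝ) < ρ} :=
  (measurableSet_lt measurable_subtype_coe measurable_const).inter
    (measurableSet_lt measurable_subtype_coe measurable_const)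

theorem measurable_Psi_fix [Countable V] (G : SimpleGraph V) (j k : ℕ) (a b : V) :
    Measurable (fun p : ℝ × Om V => Psi G p.2 j k p.1 a b) := by
  have h1 : Measurable (fun p : ℝ × Om V => ((G, p.2, p.1) : SimpleGraph V × Om V × ℝ)) :=
    measurable_const.prodMk (measurable_snd.prodMk measurable_fst)
  have h2 := (measurable_Psi (V := V) j k a b).comp h1
  exact h2

/-- One edge. -/
theorem mean_sq_del_le [Countable V] (G : SimpleGraph V) (μ : Measure (Set (Sym2 V)))
    [IsProbabilityMeasure μ] (j k : ℕ) (r : ℝ) (a b : V) :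
    ∫⁻ q, ENNReal.ofReal ((del G q (j + 1) k r s(a, b)) ^ 2) ∂(omMeas μ) ≤
      ENNReal.ofReal (16 * (k + 1) * Real.exp (4 * (k + 1))) *
        ∑ l ∈ Finset.range (k + 1), 2 * ∫⁻ s : I,
          (if (s : ℝ) < 1 / 2 ∧ (s : ℝ) < (if l < k then 2 else r) then
            ∫⁻ q, Psi G q j l s a b ∂(omMeas μ) else 0) := by
  have hmeas : ∀ l : ℕ, Measurable (fun q : Om V =>
      if (q.2.1 (s(a, b), l) : ℝ) < 1 / 2 ∧
        (q.2.1 (s(a, b), l) : ℝ) < (if l < k then 2 else r) then
        Psi G q j l (q.2.1 (s(a, b), l)) a b else 0) := by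
    intro l
    have hti : Measurable (fun q : Om V => q.2.1 (s(a, b), l)) :=
      (measurable_pi_apply _).comp (measurable_fst.comp measurable_snd)
    refine Measurable.ite (hti (measurableSet_time _)) ?_ measurable_const
    have h1 := (measurable_Psi_fix G j l a b).comp
      (Measurable.prodMk (measurable_subtype_coe.comp hti) measurable_id)
    exact h1
  calc ∫⁻ q, ENNReal.ofReal ((del G q (j + 1) k r s(a, b)) ^ 2) ∂(omMeas μ)
      ≤ ∫⁻ q, ENNReal.ofReal (16 * (k + 1) * Real.exp (4 * (k + 1))) *
          ∑ l ∈ Finset.range (k + 1), (if (q.2.1 (s(a, b), l) : ℝ) < 1 / 2 ∧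
            (q.2.1 (s(a, b), l) : ℝ) < (if l < k then 2 else r) then
            Psi G q j l (q.2.1 (s(a, b), l)) a b else 0) ∂(omMeas μ) := by
        refine lintegral_mono fun q => (sq_del_le G q j k r a b).trans ?_
        gcongr with l hl
        by_cases h : Bef q.2.1 k r (s(a, b), l) ∧ 0 < str G q.2.1 s(a, b) l
        · rw [if_pos h, if_pos]
          refine ⟨(str_pos_iff.1 h.2).2, ?_⟩
          rcases h.1 with h1 | ⟨h1, h2⟩
          · simp only at h1
            rw [if_pos h1]
            have := (q.2.1 (s(a, b), l)).2.2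
            linarith
          · simp only at h1 h2
            rw [if_neg (by omega)]
            exact h2
        · rw [if_neg h]
          exact bot_le
    _ = ENNReal.ofReal (16 * (k + 1) * Real.exp (4 * (k + 1))) *
          ∑ l ∈ Finset.range (k + 1), ∫⁻ q, (if (q.2.1 (s(a, b), l) : ℝ) < 1 / 2 ∧
            (q.2.1 (s(a, b), l) : ℝ) < (if l < k then 2 else r) then
            Psi G q j l (q.2.1 (s(a, b), l)) a b else 0) ∂(omMeas μ) := by
        rw [lintegral_const_mul' _ _ ENNReal.ofReal_ne_top,
          lintegral_finsetSum _ (fun l _ => hmeas l)]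
    _ ≤ _ := by
        gcongr with l hl
        exact ring_integral_le G μ j l _ a b

/-- Sum over the edges at `v`. -/
theorem AA_succ_le [Countable V] (hκ : LawData κ) (G : SimpleGraph V) (j k : ℕ) (r : ℝ)
    (v : V) :
    AA κ (j + 1) k r G v ≤
      ENNReal.ofReal (16 * (k + 1) * Real.exp (4 * (k + 1))) *
        ∑ l ∈ Finset.range (k + 1), 2 * ∫⁻ s : I,
          (if (s : ℝ) < 1 / 2 ∧ (s : ℝ) < (if l < k then 2 else r) then
            BB κ j l s G v else 0) := by
  have := hκ.prob
  have hm : ∀ (l : ℕ) (b : V), Measurable (fun s : I =>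
      if (s : ℝ) < 1 / 2 ∧ (s : ℝ) < (if l < k then 2 else r) then
        (if G.Adj v b then ∫⁻ q, Psi G q j l s v b ∂(omMeas (κ G)) else 0) else 0) := by
    intro l b
    refine Measurable.ite (measurableSet_time _) ?_ measurable_const
    by_cases h : G.Adj v b
    · simp only [h, if_true]
      have h1 : Measurable (fun s : ℝ => ∫⁻ q, Psi G q j l s v b ∂(omMeas (κ G))) :=
        (measurable_Psi_fix G j l v b).lintegral_prod_right'
      exact h1.comp measurable_subtype_coe
    · simp only [h, if_false]
      exact measurable_const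
  calc AA κ (j + 1) k r G v
      ≤ ∑' b : V, ENNReal.ofReal (16 * (k + 1) * Real.exp (4 * (k + 1))) *
          ∑ l ∈ Finset.range (k + 1), 2 * ∫⁻ s : I,
            (if (s : ℝ) < 1 / 2 ∧ (s : ℝ) < (if l < k then 2 else r) then
              (if G.Adj v b then ∫⁻ q, Psi G q j l s v b ∂(omMeas (κ G)) else 0) else 0) := by
        unfold AA
        refine ENNReal.tsum_le_tsum fun b => ?_
        by_cases h : G.Adj v b
        · simp only [h, if_true]
          exact mean_sq_del_le G (κ G) j k r v b
        · simp only [h, if_false]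
          exact bot_le
    _ = ENNReal.ofReal (16 * (k + 1) * Real.exp (4 * (k + 1))) *
          ∑ l ∈ Finset.range (k + 1), 2 * ∑' b : V, ∫⁻ s : I,
            (if (s : ℝ) < 1 / 2 ∧ (s : ℝ) < (if l < k then 2 else r) then
              (if G.Adj v b then ∫⁻ q, Psi G q j l s v b ∂(omMeas (κ G)) else 0) else 0) := by
        rw [ENNReal.tsum_mul_left, Summable.tsum_finsetSum (fun _ _ => ENNReal.summable)]
        simp_rw [ENNReal.tsum_mul_left]
    _ = _ := by
        congr 1
        refine Finset.sum_congr rfl fun l _ => ?_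
        congr 1
        rw [← lintegral_tsum (fun b => (hm l b).aemeasurable)]
        refine lintegral_congr fun s => ?_
        unfold BB
        by_cases h : (s : ℝ) < 1 / 2 ∧ (s : ℝ) < (if l < k then 2 else r)
        · simp only [h, and_self, if_true]
        · simp only [h, if_false]
          exact ENNReal.tsum_eq_zero.2 fun _ => rfl

/-- The mean error at the root. -/
def DD (κ : SimpleGraph V → Measure (Set (Sym2 V))) [MeasurableSpace V]
    (P : Measure (SimpleGraph V × V)) (j k : ℕ) (r : ℝ) : ℝ≥0∞ :=
  ∫⁻ p, AA κ j k r p.1 p.2 ∂P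

theorem DD_succ_le [Countable V] [MeasurableSpace V] [MeasurableSingletonClass V]
    (hκ : LawData κ) {P : Measure (SimpleGraph V × V)} [IsProbabilityMeasure P] (hP : MTP P)
    (j k : ℕ) (r : ℝ) :
    DD κ P (j + 1) k r ≤
      ENNReal.ofReal (16 * (k + 1) * Real.exp (4 * (k + 1))) *
        ∑ l ∈ Finset.range (k + 1), 8 * ∫⁻ s : I,
          (if (s : ℝ) < 1 / 2 ∧ (s : ℝ) < (if l < k then 2 else r) then
            DD κ P j l s else 0) := by
  have hm : ∀ l : ℕ, Measurable (fun z : (SimpleGraph V × V) × I =>
      if (z.2 : ℝ) < 1 / 2 ∧ (z.2 : ℝ) < (if l < k then 2 else r) then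
        BB κ j l z.2 z.1.1 z.1.2 else 0) := by
    intro l
    refine Measurable.ite (measurable_snd (measurableSet_time _)) ?_ measurable_const
    have h1 : Measurable (fun y : (I × SimpleGraph V) × V => BB κ j l y.1.1 y.1.2 y.2) := by
      refine measurable_from_prod_countable_left fun v => ?_
      have h2 := (measurable_BB hκ j l v).comp
        (Measurable.prodMk (measurable_subtype_coe.comp (measurable_fst (α := I)
          (β := SimpleGraph V))) measurable_snd)
      exact h2
    have h3 := h1.comp (Measurable.prodMk (Measurable.prodMk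
      (measurable_snd (α := SimpleGraph V × V) (β := I)) (measurable_fst.comp measurable_fst))
      (measurable_snd.comp measurable_fst))
    exact h3
  have hm2 : ∀ l : ℕ, Measurable (fun p : SimpleGraph V × V => ∫⁻ s : I,
      (if (s : ℝ) < 1 / 2 ∧ (s : ℝ) < (if l < k then 2 else r) then
        BB κ j l s p.1 p.2 else 0)) := fun l => (hm l).lintegral_prod_right'
  calc DD κ P (j + 1) k r
      ≤ ∫⁻ p : SimpleGraph V × V, (ENNReal.ofReal (16 * (k + 1) * Real.exp (4 * (k + 1))) *
        ∑ l ∈ Finset.range (k + 1), 2 * ∫⁻ s : I,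
          (if (s : ℝ) < 1 / 2 ∧ (s : ℝ) < (if l < k then 2 else r) then
            BB κ j l s p.1 p.2 else 0)) ∂P :=
        lintegral_mono fun p => AA_succ_le hκ p.1 j k r p.2
    _ = ENNReal.ofReal (16 * (k + 1) * Real.exp (4 * (k + 1))) *
        ∑ l ∈ Finset.range (k + 1), 2 * ∫⁻ p : SimpleGraph V × V, (∫⁻ s : I,
          (if (s : ℝ) < 1 / 2 ∧ (s : ℝ) < (if l < k then 2 else r) then
            BB κ j l s p.1 p.2 else 0)) ∂P := by
        rw [lintegral_const_mul' _ _ ENNReal.ofReal_ne_top,
          lintegral_finsetSum _ (fun l _ => (hm2 l).const_mul 2)]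
        congr 1
        refine Finset.sum_congr rfl fun l _ => ?_
        rw [lintegral_const_mul' _ _ (by norm_num)]
    _ ≤ _ := by
        refine mul_le_mul_right (Finset.sum_le_sum fun l hl => ?_) _
        rw [lintegral_lintegral_swap (hm l).aemeasurable]
        calc 2 * ∫⁻ s : I, (∫⁻ p : SimpleGraph V × V,
              (if (s : ℝ) < 1 / 2 ∧ (s : ℝ) < (if l < k then 2 else r) then
              BB κ j l s p.1 p.2 else 0) ∂P)
            ≤ 2 * ∫⁻ s : I, 4 * (if (s : ℝ) < 1 / 2 ∧ (s : ℝ) < (if l < k then 2 else r) then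
              DD κ P j l s else 0) := by
              gcongr with s
              by_cases h : (s : ℝ) < 1 / 2 ∧ (s : ℝ) < (if l < k then 2 else r)
              · simp only [h, and_self, if_true]
                exact mean_BB_le hκ hP j l s
              · simp only [h, if_false, lintegral_zero, mul_zero, le_refl]
          _ = _ := by
              rw [lintegral_const_mul' _ _ (by norm_num), ← mul_assoc]
              norm_num

end

end Vale.Agent.Fusf
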