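import Vale.Agent.Lib.P143.GronEnd

/-!
# Summability of the errors
-/

open MeasureTheory Filter Topology ProbabilityTheory
open scoped ENNReal unitInterval Classical

namespace Vale.Agent.Fusf

noncomputable section

variable {V : Type*}

variable {κ : SimpleGraph V → Measure (Set (Sym2 V))}

theorem DD_le [Countable V] [MeasurableSpace V] [MeasurableSingletonClass V]
    (hκ : LawData κ) {P : Measure (SimpleGraph V × V)} [IsProbabilityMeasure P] (hP : MTP P)
    (K : ℕ) : ∃ c : ℝ, 0 < c ∧ ∀ (j k : ℕ), k ≤ K → ∀ r : ℝ, 0 ≤ r → r ≤ 1 →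
      DD κ P j k r ≤
        ENNReal.ofReal ((K * (4 * (K + 1) ^ 2)) * (1 / 2) ^ j * Real.exp (c * (k + r))) := by
  set M : ℝ := 16 * (K + 1) * Real.exp (4 * (K + 1)) with hM
  have hMpos : 0 < M := by positivity
  set c : ℝ := 16 * M with hc
  have hcpos : 0 < c := by positivity
  refine ⟨c, hcpos, ?_⟩
  intro j
  induction j with
  | zero =>
    intro k hk r hr hr1
    have hkK : (k : ℝ) ≤ K := by exact_mod_cast hk
    calc DD κ P 0 k r ≤ ∫⁻ _, (k : ℝ≥0∞) * ENNReal.ofReal (4 * (k + 1) ^ 2) ∂P :=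
          lintegral_mono fun p => AA_zero_le hκ p.1 k r p.2
      _ = (k : ℝ≥0∞) * ENNReal.ofReal (4 * (k + 1) ^ 2) := by
          rw [lintegral_const, measure_univ, mul_one]
      _ = ENNReal.ofReal (k * (4 * (k + 1) ^ 2)) := by
          rw [ENNReal.ofReal_mul (Nat.cast_nonneg k), ENNReal.ofReal_natCast]
      _ ≤ _ := by
          refine ENNReal.ofReal_le_ofReal ?_
          have h1 : (1 : ℝ) ≤ Real.exp (c * (k + r)) := Real.one_le_exp (by positivity)
          have h2 : (k : ℝ) * (4 * (k + 1) ^ 2) ≤ K * (4 * (K + 1) ^ 2) := by gcongr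
          rw [pow_zero, mul_one]
          have h3 : (0 : ℝ) ≤ K * (4 * (K + 1) ^ 2) := by positivity
          nlinarith
  | succ j ih =>
    intro k hk r hr hr1
    have hkK : (k : ℝ) ≤ K := by exact_mod_cast hk
    set D : ℝ := (K * (4 * (K + 1) ^ 2)) * (1 / 2) ^ j with hD
    have hDn : 0 ≤ D := by positivity
    calc DD κ P (j + 1) k r
        ≤ ENNReal.ofReal (16 * (k + 1) * Real.exp (4 * (k + 1))) *
          ∑ l ∈ Finset.range (k + 1), 8 * ∫⁻ s : I,
          (if (s : ℝ) < 1 / 2 ∧ (s : ℝ) < (if l < k then 2 else r) then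
            DD κ P j l s else 0) := DD_succ_le hκ hP j k r
      _ ≤ ENNReal.ofReal M * ∑ l ∈ Finset.range (k + 1), 8 * (ENNReal.ofReal D * ∫⁻ s : I,
          (if (s : ℝ) < 1 / 2 ∧ (s : ℝ) < (if l < k then 2 else r) then
            ENNReal.ofReal (Real.exp (c * (l + s))) else 0)) := by
          refine mul_le_mul' (ENNReal.ofReal_le_ofReal (by rw [hM]; gcongr))
            (Finset.sum_le_sum fun l hl => ?_)
          refine mul_le_mul' le_rfl ?_
          rw [← lintegral_const_mul' _ _ ENNReal.ofReal_ne_top]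
          refine lintegral_mono fun s => ?_
          by_cases h : (s : ℝ) < 1 / 2 ∧ (s : ℝ) < (if l < k then 2 else r)
          · simp only [h, and_self, if_true]
            have hl' : l ≤ K := (Nat.lt_succ_iff.1 (Finset.mem_range.1 hl)).trans hk
            refine (ih l hl' s s.2.1 s.2.2).trans (le_of_eq ?_)
            rw [← ENNReal.ofReal_mul hDn]
          · simp only [h, if_false]
            exact bot_le
      _ = ENNReal.ofReal (8 * M * D) * ∑ l ∈ Finset.range (k + 1), ∫⁻ s : I,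
          (if (s : ℝ) < 1 / 2 ∧ (s : ℝ) < (if l < k then 2 else r) then
            ENNReal.ofReal (Real.exp (c * (l + s))) else 0) := by
          have h8 : (8 : ℝ≥0∞) = ENNReal.ofReal 8 := by norm_num
          rw [← Finset.mul_sum, ← Finset.mul_sum, ← mul_assoc, ← mul_assoc, h8,
            ← ENNReal.ofReal_mul hMpos.le, ← ENNReal.ofReal_mul (by positivity)]
          congr 2
          ring
      _ ≤ ENNReal.ofReal (8 * M * D) * ENNReal.ofReal (Real.exp (c * (k + r)) / c) :=
          mul_le_mul' le_rfl (sum_lintegral_exp_le hcpos k hr hr1)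
      _ = _ := by
          rw [← ENNReal.ofReal_mul (by positivity)]
          congr 1
          rw [hc, hD, pow_succ]
          field_simp
          ring

theorem tsum_DD_lt_top [Countable V] [MeasurableSpace V] [MeasurableSingletonClass V]
    (hκ : LawData κ) {P : Measure (SimpleGraph V × V)} [IsProbabilityMeasure P] (hP : MTP P)
    (k : ℕ) : ∑' j : ℕ, DD κ P j k 0 < ⊤ := by
  obtain ⟨c, hc, h⟩ := DD_le hκ hP k
  calc ∑' j : ℕ, DD κ P j k 0
      ≤ ∑' j : ℕ, ENNReal.ofReal ((k * (4 * (k + 1) ^ 2)) * (1 / 2) ^ j *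
          Real.exp (c * (k + 0))) :=
        ENNReal.tsum_le_tsum fun j => h j k le_rfl 0 le_rfl zero_le_one
    _ < ⊤ := by
        rw [lt_top_iff_ne_top]
        have hs : Summable fun j : ℕ => ((k : ℝ) * (4 * (k + 1) ^ 2)) * (1 / 2) ^ j *
          Real.exp (c * (k + 0)) :=
          ((summable_geometric_of_lt_one (by norm_num) (by norm_num)).mul_left _).mul_right _
        rw [← ENNReal.ofReal_tsum_of_nonneg (fun j => by positivity) hs]
        exact ENNReal.ofReal_ne_top

/-- Inverse Lipschitz property of the field. -/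
theorem abs_sub_le_gg {y y' : ℝ} (hy : y ∈ Set.Icc (-1 : ℝ) 1) (hy' : y' ∈ Set.Icc (-1 : ℝ) 1) :
    |y - y'| ≤ 9 / 4 * |gg (1 / 2) y - gg (1 / 2) y'| := by
  wlog hle : y' ≤ y generalizing y y'
  · have := this hy' hy (le_of_not_ge hle)
    rwa [abs_sub_comm y', abs_sub_comm (gg (1 / 2) y')] at this
  have h1 : 0 < 2 - y := by linarith [hy.2]
  have h2 : 0 < 2 + y := by linarith [hy.1]
  have h3 : 0 < 2 - y' := by linarith [hy'.2]
  have h4 : 0 < 2 + y' := by linarith [hy'.1]
  have hg : ∀ z : ℝ, -1 ≤ z → z ≤ 1 → gg (1 / 2) z = Real.log (2 + z) - Real.log (2 - z) := by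
    intro z hz hz1
    unfold gg
    rw [show (1 + 1 / 2 * z) / (1 - 1 / 2 * z) = (2 + z) / (2 - z) by
      rw [div_eq_div_iff (by linarith) (by linarith)]; ring]
    rw [Real.log_div (by linarith) (by linarith)]
  have hX : gg (1 / 2) y - gg (1 / 2) y' = Real.log (((2 + y) * (2 - y')) / ((2 - y) * (2 + y'))) := by
    rw [hg y hy.1 hy.2, hg y' hy'.1 hy'.2, Real.log_div (by positivity) (by positivity),
      Real.log_mul h2.ne' h3.ne', Real.log_mul h1.ne' h4.ne']
    ring
  have hlog : 4 / 9 * (y - y') ≤ gg (1 / 2) y - gg (1 / 2) y' := by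
    rw [hX]
    have h5 := Real.one_sub_inv_le_log_of_pos
      (show 0 < ((2 + y) * (2 - y')) / ((2 - y) * (2 + y')) by positivity)
    refine le_trans ?_ h5
    rw [inv_div]
    have h6 : 1 - (2 - y) * (2 + y') / ((2 + y) * (2 - y')) =
        4 * (y - y') / ((2 + y) * (2 - y')) := by
      field_simp
      ring
    rw [h6, le_div_iff₀ (by positivity)]
    have h7 : (2 + y) * (2 - y') ≤ 9 := by nlinarith [hy.1, hy.2, hy'.1, hy'.2]
    have h8 : 0 ≤ y - y' := by linarith
    nlinarith
  have h9 : 0 ≤ y - y' := by linarith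
  rw [abs_of_nonneg h9]
  have := le_abs_self (gg (1 / 2) y - gg (1 / 2) y')
  linarith

theorem fld_succ_sub (G : SimpleGraph V) (t : Lab V) (y : Sym2 V × ℕ → ℝ) (k : ℕ)
    (e : Sym2 V) : fld G t y (k + 1) 0 e - fld G t y k 0 e = gg (str G t e k) (y (e, k)) := by
  unfold fld
  have h1 : ∀ k, ¬ ((t (e, k) : ℝ) < 0) := fun k => not_lt.2 (t (e, k)).2.1
  rw [if_neg (h1 _), if_neg (h1 _), Finset.sum_range_succ]
  ring

/-- If the field differences tend to zero then the reconstruction converges. -/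
theorem tendsto_yPic_of_del (G : SimpleGraph V) (q : Om V) (e : Sym2 V)
    (h : ∀ k : ℕ, Tendsto (fun j => del G q j k 0 e) atTop (𝓝 0)) (k : ℕ) :
    Tendsto (fun j => yPic G q.2.1 (innov G q.1 q.2.1 q.2.2) j (e, k)) atTop
      (𝓝 (yTrue G q.1 q.2.1 q.2.2 (e, k))) := by
  by_cases hs : 0 < str G q.2.1 e k
  · have hs2 : str G q.2.1 e k = 1 / 2 := by
      unfold str at hs ⊢
      split_ifs with h1
      · rfl
      · rw [if_neg h1] at hs
        exact absurd hs (lt_irrefl _)
    have h1 : Tendsto (fun j => del G q j (k + 1) 0 e - del G q j k 0 e) atTop (𝓝 0) := by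
      simpa using (h (k + 1)).sub (h k)
    have h2 : ∀ j, del G q j (k + 1) 0 e - del G q j k 0 e =
        gg (1 / 2) (yPic G q.2.1 (innov G q.1 q.2.1 q.2.2) j (e, k)) -
          gg (1 / 2) (yTrue G q.1 q.2.1 q.2.2 (e, k)) := by
      intro j
      unfold del
      have h3 := fld_succ_sub G q.2.1 (yPic G q.2.1 (innov G q.1 q.2.1 q.2.2) j) k e
      have h4 := fld_succ_sub G q.2.1 (yTrue G q.1 q.2.1 q.2.2) k e
      rw [hs2] at h3 h4
      linarith
    simp_rw [h2] at h1
    rw [tendsto_iff_norm_sub_tendsto_zero]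
    have h5 := h1.abs.const_mul (9 / 4 : ℝ)
    rw [abs_zero, mul_zero] at h5
    refine squeeze_zero (fun _ => norm_nonneg _) (fun j => ?_) h5
    rw [Real.norm_eq_abs]
    exact abs_sub_le_gg (yPic_mem G _ _ j _) (yTrue_mem G _ _ _ _)
  · have hs0 := str_eq_zero_of_not_pos hs
    refine tendsto_const_nhds.congr' ?_
    filter_upwards [eventually_ge_atTop 1] with j hj
    obtain ⟨j', rfl⟩ : ∃ j', j = j' + 1 := ⟨j - 1, by omega⟩
    exact (yPic_eq_of_str_eq_zero G q.1 q.2.1 q.2.2 j' (i := (e, k)) hs0).symm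

end

end Vale.Agent.Fusf
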