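import Vale.Agent.Lib.P143.Causal
import Vale.Agent.Lib.P143.Proj
import Vale.Agent.Lib.P143.Alg
import Vale.Agent.Lib.P143.Meas

/-!
# Pointwise error bound for the Picard iterates
-/

open MeasureTheory Filter Topology
open scoped ENNReal unitInterval Classical

namespace Vale.Agent.Fusf

noncomputable section

variable {V : Type*}

theorem str_nonneg (G : SimpleGraph V) (t : Lab V) (e : Sym2 V) (k : ℕ) : 0 ≤ str G t e k := by
  unfold str
  split_ifs <;> norm_num

theorem str_le (G : SimpleGraph V) (t : Lab V) (e : Sym2 V) (k : ℕ) : str G t e k ≤ 1 / 2 := by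
  unfold str
  split_ifs <;> norm_num

theorem str_pos_iff {G : SimpleGraph V} {t : Lab V} {e : Sym2 V} {k : ℕ} :
    0 < str G t e k ↔ ok G e k ∧ (t (e, k) : ℝ) < 1 / 2 := by
  unfold str
  split_ifs with h
  · exact ⟨fun _ => h, fun _ => by norm_num⟩
  · exact ⟨fun h' => absurd h' (lt_irrefl _), fun h' => absurd h' h⟩

theorem str_eq_zero_of_not_pos {G : SimpleGraph V} {t : Lab V} {e : Sym2 V} {k : ℕ}
    (h : ¬ 0 < str G t e k) : str G t e k = 0 :=
  le_antisymm (not_lt.1 h) (str_nonneg G t e k)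

theorem spin_mem (x : Set (Sym2 V)) (e : Sym2 V) :
    (if e ∈ x then (1 : ℝ) else -1) ∈ Set.Icc (-1 : ℝ) 1 := by
  split_ifs <;> constructor <;> norm_num

theorem yTrue_mem (G : SimpleGraph V) (x : Set (Sym2 V)) (t w : Lab V) (i : Sym2 V × ℕ) :
    yTrue G x t w i ∈ Set.Icc (-1 : ℝ) 1 :=
  QQ_mem (str_nonneg G t _ _) (str_le G t _ _) (w i).2 (spin_mem x i.1)

theorem mmE_mem (G : SimpleGraph V) (h : Sym2 V → ℝ) (e : Sym2 V) :
    mmE G h e ∈ Set.Icc (0 : ℝ) 1 := by
  induction e using Sym2.ind with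
  | _ a b => exact ⟨mm_nonneg G h a b, mm_le_one G h a b⟩

theorem postM_mem (G : SimpleGraph V) (t : Lab V) (y : Sym2 V × ℕ → ℝ) (i : Sym2 V × ℕ) :
    postM G t y i ∈ Set.Icc (-1 : ℝ) 1 := by
  unfold postM
  have := mmE_mem G (fld G t y i.2 (t i)) i.1
  constructor <;> linarith [this.1, this.2]

theorem yPic_mem (G : SimpleGraph V) (t u : Lab V) (j : ℕ) (i : Sym2 V × ℕ) :
    yPic G t u j i ∈ Set.Icc (-1 : ℝ) 1 := by
  cases j with
  | zero =>
    rw [yPic_zero]
    constructor <;> norm_num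
  | succ j =>
    rw [yPic_succ]
    exact QQ_mem (str_nonneg G t _ _) (str_le G t _ _) (u i).2 (postM_mem G t _ i)

theorem coe_innov (G : SimpleGraph V) (x : Set (Sym2 V)) (t w : Lab V) (i : Sym2 V × ℕ) :
    ((innov G x t w i : I) : ℝ) =
      FF (str G t i.1 i.2) (yTrue G x t w i) (postM G t (yTrue G x t w) i) := by
  unfold innov
  rw [Set.projIcc_of_mem]
  exact FF_mem (str_nonneg G t _ _) (str_le G t _ _) (yTrue_mem G x t w i) (postM_mem G t _ i)

theorem QQ_innov (G : SimpleGraph V) (x : Set (Sym2 V)) (t w : Lab V) (i : Sym2 V × ℕ) :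
    QQ (str G t i.1 i.2) (innov G x t w i) (postM G t (yTrue G x t w) i) = yTrue G x t w i := by
  rw [coe_innov]
  exact QQ_FF (str_nonneg G t _ _) (str_le G t _ _) (yTrue_mem G x t w i) (postM_mem G t _ i)

theorem abs_yPic_sub_le (G : SimpleGraph V) (x : Set (Sym2 V)) (t w : Lab V) (j : ℕ)
    (i : Sym2 V × ℕ) :
    |yPic G t (innov G x t w) (j + 1) i - yTrue G x t w i| ≤
      |postM G t (yPic G t (innov G x t w) j) i - postM G t (yTrue G x t w) i| := by
  rw [yPic_succ]
  conv_lhs => rw [← QQ_innov G x t w i]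
  exact abs_QQ_sub_le (str_nonneg G t _ _) (str_le G t _ _) (innov G x t w i).2
    (postM_mem G t _ i) (postM_mem G t _ i)

theorem QQ_zero (u m : ℝ) : QQ 0 u m = 2 * u - 1 := by
  unfold QQ
  have : √(1 / 4 + 0 * m * (u - 1 / 2 + 0 * m / 4)) = 1 / 2 := by
    rw [show (1 / 4 + 0 * m * (u - 1 / 2 + 0 * m / 4) : ℝ) = (1 / 2) ^ 2 by ring]
    exact Real.sqrt_sq (by norm_num)
  rw [this]
  ring

/-- Inactive rings are reconstructed exactly. -/
theorem yPic_eq_of_str_eq_zero (G : SimpleGraph V) (x : Set (Sym2 V)) (t w : Lab V) (j : ℕ)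
    {i : Sym2 V × ℕ} (hi : str G t i.1 i.2 = 0) :
    yPic G t (innov G x t w) (j + 1) i = yTrue G x t w i := by
  rw [yPic_succ]
  conv_rhs => rw [← QQ_innov G x t w i]
  rw [hi, QQ_zero, QQ_zero]

theorem fld_eq (G : SimpleGraph V) (t : Lab V) (y : Sym2 V × ℕ → ℝ) (k : ℕ) (r : ℝ)
    (e : Sym2 V) :
    fld G t y k r e = ∑ l ∈ Finset.range (k + 1),
      if Bef t k r (e, l) then gg (str G t e l) (y (e, l)) else 0 := by
  rw [Finset.sum_range_succ]
  unfold fld
  congr 1
  · refine Finset.sum_congr rfl fun l hl => ?_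
    have hb : Bef t k r (e, l) := Or.inl (Finset.mem_range.1 hl)
    rw [if_pos hb]
  · have : Bef t k r (e, k) ↔ (t (e, k) : ℝ) < r := by
      unfold Bef
      simp
    simp only [this]

theorem abs_fld_le (G : SimpleGraph V) (t : Lab V) {y : Sym2 V × ℕ → ℝ}
    (hy : ∀ i, y i ∈ Set.Icc (-1 : ℝ) 1) (k : ℕ) (r : ℝ) (e : Sym2 V) :
    |fld G t y k r e| ≤ 2 * (k + 1) := by
  rw [fld_eq]
  refine (Finset.abs_sum_le_sum_abs _ _).trans ?_
  calc ∑ l ∈ Finset.range (k + 1), |if Bef t k r (e, l) then gg (str G t e l) (y (e, l)) else 0|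
      ≤ ∑ _l ∈ Finset.range (k + 1), (2 : ℝ) := by
        refine Finset.sum_le_sum fun l _ => ?_
        split_ifs
        · exact abs_gg_le (str_nonneg G t _ _) (str_le G t _ _) (hy _)
        · simp
    _ = 2 * (k + 1) := by simp; ring

/-- The difference of the reconstructed and the true fields at time `(k, r)`. -/
def del (G : SimpleGraph V) (q : Set (Sym2 V) × Lab V × Lab V) (j k : ℕ) (r : ℝ) (e : Sym2 V) :
    ℝ :=
  fld G q.2.1 (yPic G q.2.1 (innov G q.1 q.2.1 q.2.2) j) k r e -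
    fld G q.2.1 (yTrue G q.1 q.2.1 q.2.2) k r e

/-- The weighted sum of the squared differences seen by the edge `ab` at time `(k, r)`. -/
def Psi (G : SimpleGraph V) (q : Set (Sym2 V) × Lab V × Lab V) (j k : ℕ) (r : ℝ) (a b : V) :
    ℝ≥0∞ :=
  ∑' d : V × V, ENNReal.ofReal (qq G (fld G q.2.1 (yTrue G q.1 q.2.1 q.2.2) k r) a b d *
    (del G q j k r s(d.1, d.2)) ^ 2)

theorem ring_error_le (G : SimpleGraph V) (q : Set (Sym2 V) × Lab V × Lab V) (j k : ℕ)
    (a b : V) :
    ENNReal.ofReal ((yPic G q.2.1 (innov G q.1 q.2.1 q.2.2) (j + 1) (s(a, b), k) -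
      yTrue G q.1 q.2.1 q.2.2 (s(a, b), k)) ^ 2) ≤
      ENNReal.ofReal (4 * Real.exp (4 * (k + 1))) * Psi G q j k (q.2.1 (s(a, b), k)) a b := by
  obtain ⟨x, t, w⟩ := q
  simp only
  set y := yTrue G x t w with hy
  set y' := yPic G t (innov G x t w) j with hy'
  have h1 := abs_yPic_sub_le G x t w j (s(a, b), k)
  have h2 : postM G t y' (s(a, b), k) - postM G t y (s(a, b), k) =
      2 * (mm G (fld G t y' k (t (s(a, b), k))) a b - mm G (fld G t y k (t (s(a, b), k))) a b) := by
    unfold postM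
    simp only [mmE_mk]
    ring
  have h3 : (yPic G t (innov G x t w) (j + 1) (s(a, b), k) - y (s(a, b), k)) ^ 2 ≤
      4 * (mm G (fld G t y' k (t (s(a, b), k))) a b -
        mm G (fld G t y k (t (s(a, b), k))) a b) ^ 2 := by
    have h4 := sq_le_sq' (by linarith [neg_abs_le (yPic G t (innov G x t w) (j + 1) (s(a, b), k)
      - y (s(a, b), k))]) ((le_abs_self _).trans h1)
    rw [sq_abs, ← hy', ← hy, h2] at h4
    calc _ ≤ _ := h4
      _ = _ := by ring
  have hB : ∀ e, |fld G t y k (t (s(a, b), k)) e| ≤ 2 * ((k : ℝ) + 1) :=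
    abs_fld_le G t (fun i => yTrue_mem G x t w i) k _
  have hB' : ∀ e, |fld G t y' k (t (s(a, b), k)) e| ≤ 2 * ((k : ℝ) + 1) :=
    abs_fld_le G t (fun i => yPic_mem G t _ j i) k _
  have h5 := sq_mm_sub_le G hB hB' a b
  calc ENNReal.ofReal _ ≤ ENNReal.ofReal (4 * (mm G (fld G t y' k (t (s(a, b), k))) a b -
        mm G (fld G t y k (t (s(a, b), k))) a b) ^ 2) := ENNReal.ofReal_le_ofReal h3
    _ = ENNReal.ofReal 4 * ENNReal.ofReal ((mm G (fld G t y' k (t (s(a, b), k))) a b -
        mm G (fld G t y k (t (s(a, b), k))) a b) ^ 2) := ENNReal.ofReal_mul (by norm_num)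
    _ ≤ ENNReal.ofReal 4 * (ENNReal.ofReal (Real.exp (2 * (2 * ((k : ℝ) + 1)))) *
        Psi G (x, t, w) j k (t (s(a, b), k)) a b) := by
        gcongr
        exact h5
    _ = _ := by
        rw [← mul_assoc, ← ENNReal.ofReal_mul (by norm_num)]
        congr 3
        ring_nf

/-- Pointwise bound for the square of the field difference. -/
theorem sq_del_le (G : SimpleGraph V) (q : Set (Sym2 V) × Lab V × Lab V) (j k : ℕ) (r : ℝ)
    (a b : V) :
    ENNReal.ofReal ((del G q (j + 1) k r s(a, b)) ^ 2) ≤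
      ENNReal.ofReal (16 * (k + 1) * Real.exp (4 * (k + 1))) *
        ∑ l ∈ Finset.range (k + 1),
          (if Bef q.2.1 k r (s(a, b), l) ∧ 0 < str G q.2.1 s(a, b) l then
            Psi G q j l (q.2.1 (s(a, b), l)) a b else 0) := by
  obtain ⟨x, t, w⟩ := q
  simp only
  set y := yTrue G x t w with hy
  set y' := yPic G t (innov G x t w) (j + 1) with hy'
  set c : ℕ → ℝ := fun l => if Bef t k r (s(a, b), l) then
    gg (str G t s(a, b) l) (y' (s(a, b), l)) - gg (str G t s(a, b) l) (y (s(a, b), l)) else 0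
    with hc
  have h1 : del G (x, t, w) (j + 1) k r s(a, b) = ∑ l ∈ Finset.range (k + 1), c l := by
    unfold del
    simp only
    rw [fld_eq, fld_eq, ← Finset.sum_sub_distrib]
    refine Finset.sum_congr rfl fun l _ => ?_
    simp only [hc]
    split_ifs
    · rfl
    · simp
  have h2 : (∑ l ∈ Finset.range (k + 1), c l) ^ 2 ≤
      ((k : ℝ) + 1) * ∑ l ∈ Finset.range (k + 1), c l ^ 2 := by
    have := sq_sum_le_card_mul_sum_sq (s := Finset.range (k + 1)) (f := c)
    simpa using this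
  have h3 : ∀ l ∈ Finset.range (k + 1), ENNReal.ofReal (c l ^ 2) ≤
      ENNReal.ofReal (16 * Real.exp (4 * (k + 1))) *
        (if Bef t k r (s(a, b), l) ∧ 0 < str G t s(a, b) l then
            Psi G (x, t, w) j l (t (s(a, b), l)) a b else 0) := by
    intro l hl
    have hlk : (l : ℝ) ≤ k := by
      have := Finset.mem_range.1 hl
      exact_mod_cast Nat.lt_succ_iff.1 this
    by_cases hb : Bef t k r (s(a, b), l)
    · by_cases hs : 0 < str G t s(a, b) l
      · rw [if_pos ⟨hb, hs⟩]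
        simp only [hc, if_pos hb]
        have h4 : (gg (str G t s(a, b) l) (y' (s(a, b), l)) -
            gg (str G t s(a, b) l) (y (s(a, b), l))) ^ 2 ≤
            4 * (y' (s(a, b), l) - y (s(a, b), l)) ^ 2 := by
          have h5 := abs_gg_sub_le (str_nonneg G t s(a, b) l) (str_le G t s(a, b) l)
            (yPic_mem G t (innov G x t w) (j + 1) (s(a, b), l)) (yTrue_mem G x t w (s(a, b), l))
          rw [← hy, ← hy'] at h5
          have h6 := sq_le_sq' (by linarith [neg_abs_le (gg (str G t s(a, b) l)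
            (y' (s(a, b), l)) - gg (str G t s(a, b) l) (y (s(a, b), l)))])
            ((le_abs_self _).trans h5)
          calc _ ≤ _ := h6
            _ = _ := by rw [mul_pow, sq_abs]; norm_num
        have h7 := ring_error_le G (x, t, w) j l a b
        simp only [← hy, ← hy'] at h7
        calc ENNReal.ofReal _ ≤ ENNReal.ofReal (4 * (y' (s(a, b), l) - y (s(a, b), l)) ^ 2) :=
              ENNReal.ofReal_le_ofReal h4
          _ = ENNReal.ofReal 4 * ENNReal.ofReal ((y' (s(a, b), l) - y (s(a, b), l)) ^ 2) :=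
              ENNReal.ofReal_mul (by norm_num)
          _ ≤ ENNReal.ofReal 4 * (ENNReal.ofReal (4 * Real.exp (4 * (l + 1))) *
                Psi G (x, t, w) j l (t (s(a, b), l)) a b) := by gcongr
          _ = ENNReal.ofReal (16 * Real.exp (4 * (l + 1))) *
                Psi G (x, t, w) j l (t (s(a, b), l)) a b := by
              rw [← mul_assoc, ← ENNReal.ofReal_mul (by norm_num),
                show (4 : ℝ) * (4 * Real.exp (4 * (l + 1))) = 16 * Real.exp (4 * (l + 1)) by ring]
          _ ≤ _ := by gcongr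
      · have : str G t s(a, b) l = 0 := str_eq_zero_of_not_pos hs
        simp [hc, hb, this, gg_zero]
    · simp [hc, hb]
  calc ENNReal.ofReal ((del G (x, t, w) (j + 1) k r s(a, b)) ^ 2)
      ≤ ENNReal.ofReal (((k : ℝ) + 1) * ∑ l ∈ Finset.range (k + 1), c l ^ 2) := by
        rw [h1]
        exact ENNReal.ofReal_le_ofReal h2
    _ = ENNReal.ofReal ((k : ℝ) + 1) * ∑ l ∈ Finset.range (k + 1), ENNReal.ofReal (c l ^ 2) := by
        rw [ENNReal.ofReal_mul (by positivity), ENNReal.ofReal_sum_of_nonneg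
          (fun l _ => sq_nonneg _)]
    _ ≤ ENNReal.ofReal ((k : ℝ) + 1) * ∑ l ∈ Finset.range (k + 1),
          ENNReal.ofReal (16 * Real.exp (4 * (k + 1))) *
        (if Bef t k r (s(a, b), l) ∧ 0 < str G t s(a, b) l then
            Psi G (x, t, w) j l (t (s(a, b), l)) a b else 0) := by
        gcongr with l hl
        exact h3 l hl
    _ = _ := by
        rw [← Finset.mul_sum, ← mul_assoc, ← ENNReal.ofReal_mul (by positivity)]
        congr 2
        ring

end

end Vale.Agent.Fusf
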