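import Mathlib
import Vale.Agent.Lib.P143.Defs

/-!
# Module PROJ, part 1: Hilbert space lemmas

Basic facts on `ℓ²(V × V)`, diagonal operators, and the comparison of the orthogonal projections
on `W` and `A W` for a diagonal operator `A`.
-/

open MeasureTheory Filter Topology
open scoped ENNReal unitInterval Classical RealInnerProductSpace

namespace Vale.Agent.Fusf

noncomputable section

variable {V : Type*}

/-! ### Norms and inner products -/

theorem two_toReal : (2 : ℝ≥0∞).toReal = 2 := by norm_num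

theorem hasSum_sq (f : L2 V) : HasSum (fun d => f d ^ 2) (‖f‖ ^ 2) := by
  have h := lp.hasSum_inner (𝕜 := ℝ) f f
  rw [real_inner_self_eq_norm_sq] at h
  simpa [sq] using h

theorem summable_sq (f : L2 V) : Summable (fun d => f d ^ 2) := (hasSum_sq f).summable

theorem norm_sq_eq (f : L2 V) : ‖f‖ ^ 2 = ∑' d, f d ^ 2 := (hasSum_sq f).tsum_eq.symm

theorem memℓp_of_summable_sq {f : V × V → ℝ} (hf : Summable fun d => f d ^ 2) :
    Memℓp f 2 := by
  apply memℓp_gen
  simpa [two_toReal] using hf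

theorem inner_single (d : V × V) (f : L2 V) : ⟪(lp.single 2 d (1 : ℝ) : L2 V), f⟫ = f d := by
  rw [lp.inner_single_left]
  simp

theorem inner_single' (d : V × V) (f : L2 V) : ⟪f, (lp.single 2 d (1 : ℝ) : L2 V)⟫ = f d := by
  rw [real_inner_comm, inner_single]

theorem inner_eps (a b : V) (f : L2 V) : ⟪eps a b, f⟫ = (√2)⁻¹ * (f (a, b) - f (b, a)) := by
  unfold eps
  rw [real_inner_smul_left, inner_sub_left, inner_single, inner_single]

theorem norm_eps_sq_le (a b : V) : ‖eps a b‖ ^ 2 ≤ 1 := by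
  have h1 : ‖(lp.single 2 (a, b) (1 : ℝ) : L2 V) - lp.single 2 (b, a) (1 : ℝ)‖ ^ 2 ≤ 2 := by
    rw [norm_sub_sq_real, lp.norm_single (by norm_num), lp.norm_single (by norm_num), inner_single]
    have h2 : (0 : ℝ) ≤ (lp.single 2 (b, a) (1 : ℝ) : L2 V) (a, b) := by
      rw [lp.single_apply]
      by_cases h : ((a, b) : V × V) = (b, a)
      · rw [h]; simp
      · rw [Pi.single_eq_of_ne h]
    rw [norm_one]
    linarith
  unfold eps
  rw [norm_smul, mul_pow, norm_inv, inv_pow, Real.norm_eq_abs, sq_abs, Real.sq_sqrt (by norm_num)]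
  linarith

theorem norm_eps_le (a b : V) : ‖eps a b‖ ≤ 1 := by
  have := norm_eps_sq_le a b
  exact (sq_le_one_iff₀ (norm_nonneg _)).1 this

/-! ### Diagonal operators -/

theorem memℓp_mul {α : V × V → ℝ} {C : ℝ} (hα : ∀ d, |α d| ≤ C) (f : L2 V) :
    Memℓp (fun d => α d * f d) 2 := by
  have hg : Memℓp (fun d => C * f d) 2 := (lp.memℓp f).const_mul C
  refine hg.mono' fun d => ?_
  rw [norm_mul, norm_mul]
  refine mul_le_mul_of_nonneg_right ?_ (norm_nonneg _)
  rw [Real.norm_eq_abs, Real.norm_eq_abs]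
  exact (hα d).trans (le_abs_self _)

/-- multiplication by a bounded function -/
def dg (α : V × V → ℝ) (C : ℝ) (hα : ∀ d, |α d| ≤ C) : L2 V →L[ℝ] L2 V :=
  LinearMap.mkContinuous
    { toFun := fun f => ⟨fun d => α d * f d, memℓp_mul hα f⟩
      map_add' := by
        intro f g
        ext d
        exact mul_add (α d) (f d) (g d)
      map_smul' := by
        intro c f
        ext d
        simp only [lp.coeFn_smul, Pi.smul_apply, smul_eq_mul, RingHom.id_apply]
        ring } |C| (by
    intro f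
    have h1 : ‖(⟨fun d => α d * f d, memℓp_mul hα f⟩ : L2 V)‖ ^ 2 ≤ (|C| * ‖f‖) ^ 2 := by
      rw [norm_sq_eq, mul_pow, norm_sq_eq f, ← tsum_mul_left]
      refine Summable.tsum_le_tsum (fun d => ?_) (summable_sq _) ((summable_sq f).mul_left _)
      change (α d * f d) ^ 2 ≤ _
      rw [mul_pow]
      refine mul_le_mul_of_nonneg_right ?_ (sq_nonneg _)
      rw [sq_le_sq, abs_abs]
      exact (hα d).trans (le_abs_self _)
    exact le_of_sq_le_sq h1 (by positivity))

theorem dg_apply (α : V × V → ℝ) (C : ℝ) (hα : ∀ d, |α d| ≤ C) (f : L2 V) (d : V × V) :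
    dg α C hα f d = α d * f d := rfl

theorem inner_dg (α : V × V → ℝ) (C : ℝ) (hα : ∀ d, |α d| ≤ C) (f g : L2 V) :
    ⟪dg α C hα f, g⟫ = ⟪f, dg α C hα g⟫ := by
  rw [lp.inner_eq_tsum, lp.inner_eq_tsum]
  refine tsum_congr fun d => ?_
  simp only [dg_apply]
  simp
  ring

/-! ### Projections -/

theorem R_mem (G : SimpleGraph V) (h : Sym2 V → ℝ) (x : L2 V) :
    R G h x ∈ (U G h).topologicalClosure := Submodule.starProjection_apply_mem _ _

theorem inner_sub_R (G : SimpleGraph V) (h : Sym2 V → ℝ) (x : L2 V) {w : L2 V}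
    (hw : w ∈ (U G h).topologicalClosure) : ⟪x - R G h x, w⟫ = 0 :=
  Submodule.starProjection_inner_eq_zero _ _ hw

theorem R_of_mem (G : SimpleGraph V) (h : Sym2 V → ℝ) {x : L2 V}
    (hx : x ∈ (U G h).topologicalClosure) : R G h x = x :=
  Submodule.starProjection_eq_self_iff.2 hx

theorem inner_R (G : SimpleGraph V) (h : Sym2 V → ℝ) (x y : L2 V) :
    ⟪R G h x, y⟫ = ⟪x, R G h y⟫ :=
  Submodule.inner_starProjection_left_eq_right _ _ _

theorem norm_R_sq (G : SimpleGraph V) (h : Sym2 V → ℝ) (x : L2 V) :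
    ‖R G h x‖ ^ 2 = ⟪x, R G h x⟫ := by
  have h1 := inner_sub_R G h x (R_mem G h x)
  rw [inner_sub_left, real_inner_self_eq_norm_sq] at h1
  linarith

theorem norm_sq_split (G : SimpleGraph V) (h : Sym2 V → ℝ) (x : L2 V) :
    ‖x‖ ^ 2 = ‖R G h x‖ ^ 2 + ‖x - R G h x‖ ^ 2 := by
  have h1 := inner_sub_R G h x (R_mem G h x)
  have h2 : x = R G h x + (x - R G h x) := by abel
  have h3 := norm_add_sq_real (R G h x) (x - R G h x)
  rw [← h2, real_inner_comm, h1] at h3
  linarith

theorem norm_R_le (G : SimpleGraph V) (h : Sym2 V → ℝ) (x : L2 V) : ‖R G h x‖ ≤ ‖x‖ :=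
  Submodule.norm_starProjection_apply_le _ _

theorem norm_sub_R_le (G : SimpleGraph V) (h : Sym2 V → ℝ) (x : L2 V) :
    ‖x - R G h x‖ ≤ ‖x‖ := by
  have h1 := norm_sq_split G h x
  have h2 : ‖x - R G h x‖ ^ 2 ≤ ‖x‖ ^ 2 := by nlinarith [sq_nonneg ‖R G h x‖]
  exact le_of_sq_le_sq h2 (norm_nonneg _)

/-- Difference of the projections on `W` and `A W`, abstract form. -/
theorem norm_proj_sub_sq_le {W W' : Submodule ℝ (L2 V)} [W.HasOrthogonalProjection]
    [W'.HasOrthogonalProjection] (A A' : L2 V →L[ℝ] L2 V)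
    (hA : ∀ w ∈ W, A w ∈ W') (hA' : ∀ w ∈ W', A' w ∈ W) (hsym : ∀ f g, ⟪A' f, g⟫ = ⟪f, A' g⟫)
    (x : L2 V) :
    ‖W'.starProjection x - W.starProjection x‖ ^ 2 ≤
      ‖W.starProjection x - A (W.starProjection x)‖ ^ 2
        + ‖(x - W.starProjection x) - A' (x - W.starProjection x)‖ ^ 2 := by
  set p := W.starProjection x with hp
  set q := x - p with hq
  have hpW : p ∈ W := Submodule.starProjection_apply_mem _ _
  -- `R' p = p - (1 - R') (p - A p)`
  have h1 : W'.starProjection p = p - ((p - A p) - W'.starProjection (p - A p)) := by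
    rw [map_sub, Submodule.starProjection_eq_self_iff.2 (hA p hpW)]
    abel
  -- `R' q = R' (q - A' q)`
  have h2 : W'.starProjection q = W'.starProjection (q - A' q) := by
    have h3 : W'.starProjection (A' q) = 0 := by
      rw [Submodule.starProjection_apply_eq_zero_iff]
      intro w hw
      rw [real_inner_comm, hsym]
      exact Submodule.starProjection_inner_eq_zero _ _ (hA' w hw)
    calc W'.starProjection q = W'.starProjection (q - A' q) + W'.starProjection (A' q) := by
          rw [← map_add, sub_add_cancel]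
      _ = W'.starProjection (q - A' q) := by rw [h3, add_zero]
  have h4 : W'.starProjection x - p = W'.starProjection (q - A' q)
      - ((p - A p) - W'.starProjection (p - A p)) := by
    have h5 : x = p + q := by rw [hq]; abel
    rw [h5, map_add, h1, h2]
    abel
  rw [h4]
  set u := W'.starProjection (q - A' q) with hu
  set v := (p - A p) - W'.starProjection (p - A p) with hv
  have h6 : ⟪u, v⟫ = 0 := by
    rw [real_inner_comm]
    exact Submodule.starProjection_inner_eq_zero _ _ (Submodule.starProjection_apply_mem _ _)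
  have h7 : ‖u - v‖ ^ 2 = ‖u‖ ^ 2 + ‖v‖ ^ 2 := by
    rw [norm_sub_sq_real, h6]
    ring
  have h8 : ‖u‖ ≤ ‖q - A' q‖ := Submodule.norm_starProjection_apply_le _ _
  have h9 : ‖v‖ ≤ ‖p - A p‖ := by
    have := Submodule.norm_starProjection_apply_le W'ᗮ (p - A p)
    rwa [Submodule.starProjection_orthogonal_val] at this
  rw [h7, add_comm]
  exact add_le_add (pow_le_pow_left₀ (norm_nonneg _) h9 2)
    (pow_le_pow_left₀ (norm_nonneg _) h8 2)

end

end Vale.Agent.Fusf
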