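import Mathlib
import Vale.Agent.Lib.P143.Defs
import Vale.Agent.Lib.P143.Proj1

/-!
# Module PROJ, part 2: difference inequality, sums of the influence kernel, continuity
-/

open MeasureTheory Filter Topology
open scoped ENNReal unitInterval Classical RealInnerProductSpace

namespace Vale.Agent.Fusf

noncomputable section

variable {V : Type*}

/-- the diagonal function relating two fields -/
def al (h h' : Sym2 V → ℝ) (d : V × V) : ℝ := Real.exp (-(h' s(d.1, d.2) - h s(d.1, d.2)) / 2)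

theorem abs_al_le {h h' : Sym2 V → ℝ} {δ : ℝ} (hδ : ∀ e, |h' e - h e| ≤ δ) (d : V × V) :
    |al h h' d| ≤ Real.exp δ := by
  unfold al
  rw [abs_of_pos (Real.exp_pos _)]
  apply Real.exp_le_exp.2
  have := hδ s(d.1, d.2)
  rw [abs_le] at this
  have h0 : 0 ≤ δ := (abs_nonneg _).trans (hδ s(d.1, d.2))
  linarith [this.1, this.2]

theorem dg_mem_U (G : SimpleGraph V) {h h' : Sym2 V → ℝ} {δ : ℝ} (hδ : ∀ e, |h' e - h e| ≤ δ)
    {w : L2 V} (hw : w ∈ U G h) : dg (al h h') (Real.exp δ) (abs_al_le hδ) w ∈ U G h' := by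
  obtain ⟨θ, hθ, hf⟩ := hw
  refine ⟨θ, hθ, fun d => ?_⟩
  rw [dg_apply, hf, ← mul_assoc]
  unfold al
  rw [← Real.exp_add]
  congr 2
  ring

theorem dg_mem_closure (G : SimpleGraph V) {h h' : Sym2 V → ℝ} {δ : ℝ}
    (hδ : ∀ e, |h' e - h e| ≤ δ) {w : L2 V} (hw : w ∈ (U G h).topologicalClosure) :
    dg (al h h') (Real.exp δ) (abs_al_le hδ) w ∈ (U G h').topologicalClosure := by
  have hw' : w ∈ closure (U G h : Set (L2 V)) := hw
  have := map_mem_closure (dg (al h h') (Real.exp δ) (abs_al_le hδ)).continuous hw'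
    (t := (U G h' : Set (L2 V))) (fun v hv => dg_mem_U G hδ hv)
  exact this

theorem abs_one_sub_exp_le (s : ℝ) : |1 - Real.exp s| ≤ Real.exp |s| - 1 := by
  rcases le_total 0 s with h | h
  · rw [abs_of_nonneg h, abs_of_nonpos (by linarith [Real.add_one_le_exp s])]
    linarith
  · rw [abs_of_nonpos h, abs_of_nonneg (by
      have := Real.exp_le_one_iff.2 h
      linarith)]
    have h1 : Real.exp s * Real.exp (-s) = 1 := by rw [← Real.exp_add]; simp
    have h2 : 0 < Real.exp s := Real.exp_pos s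
    have h3 : 0 < Real.exp (-s) := Real.exp_pos _
    nlinarith [sq_nonneg (Real.exp s - 1), sq_nonneg (Real.exp (-s) - 1)]

theorem exp_sub_one_le {r : ℝ} (_hr : 0 ≤ r) : Real.exp r - 1 ≤ r * Real.exp r := by
  have h1 := Real.add_one_le_exp (-r)
  have h2 : Real.exp r * Real.exp (-r) = 1 := by rw [← Real.exp_add]; simp
  have h3 := Real.exp_pos r
  nlinarith

theorem sq_one_sub_exp_le {s B : ℝ} (hs : |s| ≤ B) :
    (1 - Real.exp s) ^ 2 ≤ Real.exp (2 * B) * s ^ 2 := by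
  have h1 := abs_one_sub_exp_le s
  have h2 := exp_sub_one_le (abs_nonneg s)
  have h3 : Real.exp |s| ≤ Real.exp B := Real.exp_le_exp.2 hs
  have h4 : |1 - Real.exp s| ≤ |s| * Real.exp B :=
    h1.trans (h2.trans (mul_le_mul_of_nonneg_left h3 (abs_nonneg s)))
  calc (1 - Real.exp s) ^ 2 = |1 - Real.exp s| ^ 2 := (sq_abs _).symm
    _ ≤ (|s| * Real.exp B) ^ 2 := pow_le_pow_left₀ (abs_nonneg _) h4 2
    _ = Real.exp (2 * B) * s ^ 2 := by
        rw [mul_pow, sq_abs, two_mul, Real.exp_add]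
        ring

/-- Difference of the projections for two fields, sum form. -/
theorem norm_R_sub_sq_le (G : SimpleGraph V) {h h' : Sym2 V → ℝ} {δ : ℝ}
    (hδ : ∀ e, |h' e - h e| ≤ δ) (x : L2 V) (β : V × V → ℝ) {C : ℝ} (hβC : ∀ d, β d ≤ C)
    (hβ : ∀ d, (1 - al h h' d) ^ 2 ≤ β d) (hβ' : ∀ d, (1 - al h' h d) ^ 2 ≤ β d) :
    ‖R G h' x - R G h x‖ ^ 2 ≤
      ∑' d, ((R G h x d) ^ 2 + ((x - R G h x) d) ^ 2) * β d := by
  have hδ' : ∀ e, |h e - h' e| ≤ δ := fun e => by rw [abs_sub_comm]; exact hδ e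
  have h1 := norm_proj_sub_sq_le (W := (U G h).topologicalClosure)
    (W' := (U G h').topologicalClosure)
    (dg (al h h') (Real.exp δ) (abs_al_le hδ)) (dg (al h' h) (Real.exp δ) (abs_al_le hδ'))
    (fun w hw => dg_mem_closure G hδ hw) (fun w hw => dg_mem_closure G hδ' hw)
    (fun f g => inner_dg _ _ _ f g) x
  refine h1.trans ?_
  change ‖R G h x - _‖ ^ 2 + ‖(x - R G h x) - _‖ ^ 2 ≤ _
  rw [norm_sq_eq, norm_sq_eq, ← (summable_sq _).tsum_add (summable_sq _)]
  have hβ0 : ∀ d, 0 ≤ β d := fun d => (sq_nonneg _).trans (hβ d)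
  have hsum : Summable fun d => ((R G h x d) ^ 2 + ((x - R G h x) d) ^ 2) * β d := by
    refine Summable.of_nonneg_of_le (fun d => ?_) (fun d => ?_)
      (((summable_sq (R G h x)).add (summable_sq (x - R G h x))).mul_right C)
    · exact mul_nonneg (add_nonneg (sq_nonneg _) (sq_nonneg _)) (hβ0 d)
    · exact mul_le_mul_of_nonneg_left (hβC d) (add_nonneg (sq_nonneg _) (sq_nonneg _))
  refine Summable.tsum_le_tsum (fun d => ?_) ((summable_sq _).add (summable_sq _)) hsum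
  rw [add_mul]
  refine add_le_add ?_ ?_
  · have e1 : (R G h x - dg (al h h') (Real.exp δ) (abs_al_le hδ) (R G h x)) d
        = (1 - al h h' d) * R G h x d := by
      rw [lp.coeFn_sub, Pi.sub_apply, dg_apply]
      ring
    change ((R G h x - dg (al h h') (Real.exp δ) (abs_al_le hδ) (R G h x)) d) ^ 2 ≤ _
    rw [e1, mul_pow, mul_comm]
    exact mul_le_mul_of_nonneg_left (hβ d) (sq_nonneg _)
  · have e1 : ((x - R G h x) - dg (al h' h) (Real.exp δ) (abs_al_le hδ') (x - R G h x)) d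
        = (1 - al h' h d) * (x - R G h x) d := by
      rw [lp.coeFn_sub, Pi.sub_apply, dg_apply]
      ring
    change (((x - R G h x) - dg (al h' h) (Real.exp δ) (abs_al_le hδ') (x - R G h x)) d) ^ 2 ≤ _
    rw [e1, mul_pow, mul_comm]
    exact mul_le_mul_of_nonneg_left (hβ' d) (sq_nonneg _)

/-- uniform version -/
theorem norm_R_sub_le_of_abs_le (G : SimpleGraph V) {h h' : Sym2 V → ℝ} {δ : ℝ} (hδ0 : 0 ≤ δ)
    (hδ : ∀ e, |h' e - h e| ≤ δ) (x : L2 V) :
    ‖R G h' x - R G h x‖ ≤ (Real.exp δ - 1) * ‖x‖ := by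
  have hE : 0 ≤ Real.exp δ - 1 := by linarith [Real.add_one_le_exp δ]
  have key : ∀ h h' : Sym2 V → ℝ, (∀ e, |h' e - h e| ≤ δ) → ∀ d,
      (1 - al h h' d) ^ 2 ≤ (Real.exp δ - 1) ^ 2 := by
    intro h h' hδ d
    unfold al
    rw [← sq_abs]
    refine pow_le_pow_left₀ (abs_nonneg _) ((abs_one_sub_exp_le _).trans ?_) 2
    have h1 : |-(h' s(d.1, d.2) - h s(d.1, d.2)) / 2| ≤ δ := by
      rw [abs_div, abs_neg, abs_two]
      have := hδ s(d.1, d.2)
      linarith
    linarith [Real.exp_le_exp.2 h1]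
  have h1 := norm_R_sub_sq_le G hδ x (fun _ => (Real.exp δ - 1) ^ 2) (fun _ => le_rfl)
    (key h h' hδ) (key h' h fun e => by rw [abs_sub_comm]; exact hδ e)
  rw [tsum_mul_right, (summable_sq _).tsum_add (summable_sq _), ← norm_sq_eq, ← norm_sq_eq,
    ← norm_sq_split] at h1
  refine le_of_sq_le_sq ?_ (mul_nonneg hE (norm_nonneg _))
  rw [mul_pow, mul_comm]
  exact h1

theorem qq_nonneg (G : SimpleGraph V) (h : Sym2 V → ℝ) (a b : V) (d : V × V) :
    0 ≤ qq G h a b d := add_nonneg (sq_nonneg _) (sq_nonneg _)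

theorem hasSum_qq (G : SimpleGraph V) (h : Sym2 V → ℝ) (a b : V) :
    HasSum (qq G h a b) (‖eps a b‖ ^ 2) := by
  rw [norm_sq_split G h]
  exact (hasSum_sq _).add (hasSum_sq _)

theorem abs_mm_sub_le (G G' : SimpleGraph V) (h h' : Sym2 V → ℝ) (a b : V) :
    |mm G' h' a b - mm G h a b| ≤ ‖R G' h' (eps a b) - R G h (eps a b)‖ := by
  have h1 : mm G' h' a b - mm G h a b
      = - ⟪eps a b, R G' h' (eps a b) - R G h (eps a b)⟫ := by
    unfold mm
    rw [norm_R_sq, norm_R_sq, inner_sub_right]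
    ring
  rw [h1, abs_neg]
  calc |⟪eps a b, R G' h' (eps a b) - R G h (eps a b)⟫|
      ≤ ‖eps a b‖ * ‖R G' h' (eps a b) - R G h (eps a b)‖ := abs_real_inner_le_norm _ _
    _ ≤ 1 * ‖R G' h' (eps a b) - R G h (eps a b)‖ :=
        mul_le_mul_of_nonneg_right (norm_eps_le a b) (norm_nonneg _)
    _ = _ := one_mul _

theorem sq_mm_sub_le_real (G : SimpleGraph V) {h h' : Sym2 V → ℝ} {B : ℝ} (hB : ∀ e, |h e| ≤ B)
    (hB' : ∀ e, |h' e| ≤ B) (a b : V) :
    (mm G h' a b - mm G h a b) ^ 2 ≤ Real.exp (2 * B) *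
        ∑' d : V × V, qq G h a b d * (h' s(d.1, d.2) - h s(d.1, d.2)) ^ 2 := by
  have hδ : ∀ e, |h' e - h e| ≤ 2 * B := fun e => by
    have := abs_sub (h' e) (h e)
    linarith [hB e, hB' e]
  have hsq : ∀ h h' : Sym2 V → ℝ, (∀ e, |h' e - h e| ≤ 2 * B) → ∀ d : V × V,
      (1 - al h h' d) ^ 2 ≤ Real.exp (2 * B) * (h' s(d.1, d.2) - h s(d.1, d.2)) ^ 2 := by
    intro h h' hδ d
    unfold al
    have h1 : |-(h' s(d.1, d.2) - h s(d.1, d.2)) / 2| ≤ B := by
      rw [abs_div, abs_neg, abs_two]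
      have := hδ s(d.1, d.2)
      linarith
    refine (sq_one_sub_exp_le h1).trans ?_
    refine mul_le_mul_of_nonneg_left ?_ (Real.exp_pos _).le
    nlinarith [sq_nonneg (h' s(d.1, d.2) - h s(d.1, d.2))]
  have hbd : ∀ d : V × V, Real.exp (2 * B) * (h' s(d.1, d.2) - h s(d.1, d.2)) ^ 2
      ≤ Real.exp (2 * B) * (2 * B) ^ 2 := by
    intro d
    refine mul_le_mul_of_nonneg_left ?_ (Real.exp_pos _).le
    rw [← sq_abs]
    exact pow_le_pow_left₀ (abs_nonneg _) (hδ _) 2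
  have h1 := norm_R_sub_sq_le G hδ (eps a b)
    (fun d => Real.exp (2 * B) * (h' s(d.1, d.2) - h s(d.1, d.2)) ^ 2) hbd (hsq h h' hδ)
    (fun d => by
      have := hsq h' h (fun e => by rw [abs_sub_comm]; exact hδ e) d
      rwa [show (h s(d.1, d.2) - h' s(d.1, d.2)) ^ 2 = (h' s(d.1, d.2) - h s(d.1, d.2)) ^ 2 by
        ring] at this)
  calc (mm G h' a b - mm G h a b) ^ 2 = |mm G h' a b - mm G h a b| ^ 2 := (sq_abs _).symm
    _ ≤ ‖R G h' (eps a b) - R G h (eps a b)‖ ^ 2 :=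
        pow_le_pow_left₀ (abs_nonneg _) (abs_mm_sub_le G G h h' a b) 2
    _ ≤ _ := h1
    _ = _ := by
        rw [← tsum_mul_left]
        refine tsum_congr fun d => ?_
        unfold qq
        ring

theorem summable_qq_mul (G : SimpleGraph V) {h h' : Sym2 V → ℝ} {B : ℝ} (hB : ∀ e, |h e| ≤ B)
    (hB' : ∀ e, |h' e| ≤ B) (a b : V) :
    Summable fun d : V × V => qq G h a b d * (h' s(d.1, d.2) - h s(d.1, d.2)) ^ 2 := by
  refine Summable.of_nonneg_of_le (fun d => mul_nonneg (qq_nonneg _ _ _ _ _) (sq_nonneg _))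
    (fun d => ?_) ((hasSum_qq G h a b).summable.mul_right ((2 * B) ^ 2))
  refine mul_le_mul_of_nonneg_left ?_ (qq_nonneg _ _ _ _ _)
  rw [← sq_abs]
  refine pow_le_pow_left₀ (abs_nonneg _) ?_ 2
  have := abs_sub (h' s(d.1, d.2)) (h s(d.1, d.2))
  linarith [hB s(d.1, d.2), hB' s(d.1, d.2)]

/-! ### Interface statements -/

theorem mm_nonneg (G : SimpleGraph V) (h : Sym2 V → ℝ) (a b : V) : 0 ≤ mm G h a b := by
  unfold mm
  have h1 := norm_R_le G h (eps a b)
  have h2 := norm_eps_le a b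
  have h3 := norm_nonneg (R G h (eps a b))
  nlinarith

theorem mm_le_one (G : SimpleGraph V) (h : Sym2 V → ℝ) (a b : V) : mm G h a b ≤ 1 := by
  unfold mm
  have := sq_nonneg ‖R G h (eps a b)‖
  linarith

theorem sq_mm_sub_le (G : SimpleGraph V) {h h' : Sym2 V → ℝ} {B : ℝ} (hB : ∀ e, |h e| ≤ B)
    (hB' : ∀ e, |h' e| ≤ B) (a b : V) :
    ENNReal.ofReal ((mm G h' a b - mm G h a b) ^ 2) ≤
      ENNReal.ofReal (Real.exp (2 * B)) *
        ∑' d : V × V, ENNReal.ofReal (qq G h a b d * (h' s(d.1, d.2) - h s(d.1, d.2)) ^ 2) := by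
  rw [← ENNReal.ofReal_tsum_of_nonneg (fun d => mul_nonneg (qq_nonneg _ _ _ _ _) (sq_nonneg _))
    (summable_qq_mul G hB hB' a b), ← ENNReal.ofReal_mul (Real.exp_pos _).le]
  exact ENNReal.ofReal_le_ofReal (sq_mm_sub_le_real G hB hB' a b)

theorem tsum_qq_le (G : SimpleGraph V) (h : Sym2 V → ℝ) (a b : V) :
    ∑' d : V × V, ENNReal.ofReal (qq G h a b d) ≤ 1 := by
  rw [← ENNReal.ofReal_tsum_of_nonneg (qq_nonneg G h a b) (hasSum_qq G h a b).summable,
    (hasSum_qq G h a b).tsum_eq]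
  exact ENNReal.ofReal_le_one.2 (norm_eps_sq_le a b)

theorem tsum_qq_le' (G : SimpleGraph V) (h : Sym2 V → ℝ) (d : V × V) :
    ∑' p : V × V, ENNReal.ofReal (qq G h p.1 p.2 d) ≤ 4 := by
  set δ : L2 V := lp.single 2 d (1 : ℝ) with hδ
  have hsplit := norm_sq_split G h δ
  have hnorm : ‖δ‖ ^ 2 = 1 := by
    rw [hδ, lp.norm_single (by norm_num)]
    simp
  set v := R G h δ with hv
  set v' := δ - R G h δ with hv'
  have key : ∀ (w : L2 V) (p : V × V), ((√2)⁻¹ * (w (p.1, p.2) - w (p.2, p.1))) ^ 2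
      ≤ w p ^ 2 + w p.swap ^ 2 := by
    intro w p
    rw [mul_pow, inv_pow, Real.sq_sqrt (by norm_num)]
    change 2⁻¹ * (w p - w p.swap) ^ 2 ≤ _
    nlinarith [sq_nonneg (w p + w p.swap)]
  have h1 : ∀ p : V × V, qq G h p.1 p.2 d
      ≤ (v p ^ 2 + v p.swap ^ 2) + (v' p ^ 2 + v' p.swap ^ 2) := by
    intro p
    unfold qq
    refine add_le_add ?_ ?_
    · have e1 : R G h (eps p.1 p.2) d = (√2)⁻¹ * (v (p.1, p.2) - v (p.2, p.1)) := by
        rw [← inner_single d (R G h (eps p.1 p.2)), ← inner_R, real_inner_comm, inner_eps]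
      rw [e1]
      exact key v p
    · have e1 : (eps p.1 p.2 - R G h (eps p.1 p.2)) d
          = (√2)⁻¹ * (v' (p.1, p.2) - v' (p.2, p.1)) := by
        rw [← inner_single d (eps p.1 p.2 - R G h (eps p.1 p.2)), inner_sub_right, ← inner_R,
          ← inner_sub_left, real_inner_comm, inner_eps]
      rw [e1]
      exact key v' p
  have hs : ∀ w : L2 V, HasSum (fun p : V × V => w p ^ 2 + w p.swap ^ 2) (‖w‖ ^ 2 + ‖w‖ ^ 2) := by
    intro w
    refine (hasSum_sq w).add ?_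
    have := (Equiv.prodComm V V).hasSum_iff (f := fun d => w d ^ 2) (a := ‖w‖ ^ 2)
    exact this.2 (hasSum_sq w)
  have h2 := (hs v).add (hs v')
  calc ∑' p : V × V, ENNReal.ofReal (qq G h p.1 p.2 d)
      ≤ ∑' p : V × V, ENNReal.ofReal
          ((v p ^ 2 + v p.swap ^ 2) + (v' p ^ 2 + v' p.swap ^ 2)) :=
        ENNReal.tsum_le_tsum fun p => ENNReal.ofReal_le_ofReal (h1 p)
    _ = ENNReal.ofReal ((‖v‖ ^ 2 + ‖v‖ ^ 2) + (‖v'‖ ^ 2 + ‖v'‖ ^ 2)) := by
        rw [← ENNReal.ofReal_tsum_of_nonneg (fun p => by positivity) h2.summable, h2.tsum_eq]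
    _ ≤ ENNReal.ofReal 4 := by
        apply ENNReal.ofReal_le_ofReal
        rw [hnorm] at hsplit
        linarith
    _ = 4 := by norm_num

theorem tendsto_mm (G : SimpleGraph V) {ι : Type*} {l : Filter ι} {hs : ι → Sym2 V → ℝ}
    {h : Sym2 V → ℝ} {B : ℝ} (hB : ∀ᶠ i in l, ∀ e, |hs i e| ≤ B) (hB' : ∀ e, |h e| ≤ B)
    (hlim : ∀ e, Tendsto (fun i => hs i e) l (𝓝 (h e))) (a b : V) :
    Tendsto (fun i => mm G (hs i) a b) l (𝓝 (mm G h a b)) := by
  have h1 : Tendsto (fun i => ∑' d : V × V, qq G h a b d * (hs i s(d.1, d.2)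
      - h s(d.1, d.2)) ^ 2) l (𝓝 (∑' _d : V × V, (0 : ℝ))) := by
    refine tendsto_tsum_of_dominated_convergence
      (bound := fun d => qq G h a b d * (2 * B) ^ 2)
      ((hasSum_qq G h a b).summable.mul_right _) ?_ ?_
    · intro d
      have h2 := ((hlim s(d.1, d.2)).sub_const (h s(d.1, d.2))).pow 2
      have h3 := h2.const_mul (qq G h a b d)
      simpa using h3
    · filter_upwards [hB] with i hi d
      rw [Real.norm_eq_abs, abs_mul, abs_of_nonneg (qq_nonneg G h a b d), abs_pow]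
      refine mul_le_mul_of_nonneg_left ?_ (qq_nonneg G h a b d)
      refine pow_le_pow_left₀ (abs_nonneg _) ?_ 2
      have := abs_sub (hs i s(d.1, d.2)) (h s(d.1, d.2))
      linarith [hi s(d.1, d.2), hB' s(d.1, d.2)]
  rw [tsum_zero] at h1
  have h2 := h1.const_mul (Real.exp (2 * B))
  rw [mul_zero] at h2
  have h3 : Tendsto (fun i => (mm G (hs i) a b - mm G h a b) ^ 2) l (𝓝 0) := by
    refine tendsto_of_tendsto_of_tendsto_of_le_of_le' tendsto_const_nhds h2
      (Eventually.of_forall fun i => sq_nonneg _) ?_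
    filter_upwards [hB] with i hi
    exact sq_mm_sub_le_real G hB' hi a b
  have h4 : Tendsto (fun i => |mm G (hs i) a b - mm G h a b|) l (𝓝 0) := by
    have := h3.sqrt
    simpa [Real.sqrt_sq_eq_abs] using this
  rw [tendsto_iff_norm_sub_tendsto_zero]
  exact h4

theorem starProj_congr {W W' : Submodule ℝ (L2 V)} [W.HasOrthogonalProjection]
    [W'.HasOrthogonalProjection] (h : W = W') : W.starProjection = W'.starProjection := by
  subst h
  rfl

theorem R_congr (G : SimpleGraph V) {h h' : Sym2 V → ℝ} (hh : ∀ e ∈ G.edgeSet, h e = h' e) :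
    R G h = R G h' := by
  have hU : U G h = U G h' := by
    have key : ∀ h h' : Sym2 V → ℝ, (∀ e ∈ G.edgeSet, h e = h' e) → U G h ≤ U G h' := by
      rintro h h' hh f ⟨θ, hθ, hf⟩
      refine ⟨θ, hθ, fun d => ?_⟩
      rw [hf]
      by_cases hd : G.Adj d.1 d.2
      · rw [hh _ hd]
      · rw [show θ d = 0 from hθ.2.2.1 d.1 d.2 hd, mul_zero, mul_zero]
    exact le_antisymm (key h h' hh) (key h' h fun e he => (hh e he).symm)
  unfold R
  exact starProj_congr (by rw [hU])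

theorem mm_congr (G : SimpleGraph V) {h h' : Sym2 V → ℝ} (hh : ∀ e ∈ G.edgeSet, h e = h' e)
    (a b : V) : mm G h a b = mm G h' a b := by
  unfold mm
  rw [R_congr G hh]

end

end Vale.Agent.Fusf
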