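import Mathlib
import Vale.Agent.Lib.P143.Defs
import Vale.Agent.Lib.P143.Proj1
import Vale.Agent.Lib.P143.Proj2

/-!
# Module PROJ, part 3: graph limits, equivariance
-/

open MeasureTheory Filter Topology
open scoped ENNReal unitInterval Classical RealInnerProductSpace

namespace Vale.Agent.Fusf

noncomputable section

variable {V : Type*}

theorem U_mono {G G' : SimpleGraph V} (hle : G ≤ G') (h : Sym2 V → ℝ) : U G h ≤ U G' h := by
  rintro f ⟨θ, hθ, hf⟩
  exact ⟨θ, ⟨hθ.1, hθ.2.1, fun x y hxy => hθ.2.2.1 x y fun h' => hxy (hle h'), hθ.2.2.2⟩, hf⟩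

theorem iSup_U {G : SimpleGraph V} {Gs : ℕ → SimpleGraph V} (hmono : Monotone Gs)
    (hle : ∀ n, Gs n ≤ G) (hex : ∀ a b, G.Adj a b → ∃ n, (Gs n).Adj a b) (h : Sym2 V → ℝ) :
    ⨆ n, U (Gs n) h = U G h := by
  refine le_antisymm (iSup_le fun n => U_mono (hle n) h) ?_
  rintro f ⟨θ, hθ, hf⟩
  have h1 : ∀ d ∈ hθ.1.toFinset, ∃ n, (Gs n).Adj d.1 d.2 := by
    intro d hd
    rw [Set.Finite.mem_toFinset, Function.mem_support] at hd
    apply hex
    by_contra hcon
    exact hd (hθ.2.2.1 d.1 d.2 hcon)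
  choose! N hN using h1
  set M := hθ.1.toFinset.sup N with hM
  have h2 : f ∈ U (Gs M) h := by
    refine ⟨θ, ⟨hθ.1, hθ.2.1, ?_, hθ.2.2.2⟩, hf⟩
    intro x y hxy
    by_contra hne
    have hmem : (x, y) ∈ hθ.1.toFinset := by
      rw [Set.Finite.mem_toFinset, Function.mem_support]
      exact hne
    exact hxy (hmono (Finset.le_sup hmem) (hN (x, y) hmem))
  exact Submodule.mem_iSup_of_mem M h2

theorem tendsto_R_graph {G : SimpleGraph V} {Gs : ℕ → SimpleGraph V} (hmono : Monotone Gs)
    (hle : ∀ n, Gs n ≤ G) (hex : ∀ a b, G.Adj a b → ∃ n, (Gs n).Adj a b) (h : Sym2 V → ℝ)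
    (x : L2 V) : Tendsto (fun n => R (Gs n) h x) atTop (𝓝 (R G h x)) := by
  have h1 := Submodule.starProjection_tendsto_closure_iSup
    (fun n => (U (Gs n) h).topologicalClosure)
    (fun m n hmn => Submodule.topologicalClosure_mono (U_mono (hmono hmn) h)) x
  have h2 : (⨆ n, (U (Gs n) h).topologicalClosure).topologicalClosure
      = (U G h).topologicalClosure := by
    refine le_antisymm ?_ ?_
    · refine Submodule.topologicalClosure_minimal _ ?_ (Submodule.isClosed_topologicalClosure _)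
      exact iSup_le fun n => Submodule.topologicalClosure_mono (U_mono (hle n) h)
    · refine Submodule.topologicalClosure_mono ?_
      rw [← iSup_U hmono hle hex h]
      exact iSup_mono fun n => Submodule.le_topologicalClosure _
  have h3 : R G h x = (⨆ n, (U (Gs n) h).topologicalClosure).topologicalClosure.starProjection x := by
    unfold R
    rw [starProj_congr h2]
  rw [h3]
  exact h1

theorem tendsto_mm_graph {G : SimpleGraph V} {Gs : ℕ → SimpleGraph V} (hmono : Monotone Gs)
    (hle : ∀ n, Gs n ≤ G) (hex : ∀ a b, G.Adj a b → ∃ n, (Gs n).Adj a b) (h : Sym2 V → ℝ)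
    (a b : V) : Tendsto (fun n => mm (Gs n) h a b) atTop (𝓝 (mm G h a b)) := by
  unfold mm
  exact tendsto_const_nhds.sub (((tendsto_R_graph hmono hle hex h (eps a b)).norm).pow 2)

/-! ### Equivariance -/

/-- the permutation of pairs -/
def pp (g : Equiv.Perm V) (d : V × V) : V × V := (g d.1, g d.2)

theorem memℓp_perm (g : Equiv.Perm V) (f : L2 V) : Memℓp (fun d => f (pp g.symm d)) 2 := by
  apply memℓp_of_summable_sq
  exact ((Equiv.prodCongr g.symm g.symm).summable_iff (f := fun d => f d ^ 2)).2 (summable_sq f)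

/-- the unitary operator of a permutation -/
def PP (g : Equiv.Perm V) : L2 V →ₗᵢ[ℝ] L2 V where
  toFun f := ⟨fun d => f (pp g.symm d), memℓp_perm g f⟩
  map_add' f f' := by
    ext d
    rfl
  map_smul' c f := by
    ext d
    rfl
  norm_map' f := by
    have h1 : ‖(⟨fun d => f (pp g.symm d), memℓp_perm g f⟩ : L2 V)‖ ^ 2 = ‖f‖ ^ 2 := by
      rw [norm_sq_eq, norm_sq_eq]
      exact (Equiv.prodCongr g.symm g.symm).tsum_eq (fun d => f d ^ 2)
    exact (sq_eq_sq₀ (norm_nonneg _) (norm_nonneg _)).1 h1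

theorem PP_apply (g : Equiv.Perm V) (f : L2 V) (d : V × V) : PP g f d = f (pp g.symm d) := rfl

theorem PP_symm_PP (g : Equiv.Perm V) (f : L2 V) : PP g.symm (PP g f) = f := by
  ext d
  rw [PP_apply, PP_apply]
  simp [pp]

theorem PP_PP_symm (g : Equiv.Perm V) (f : L2 V) : PP g (PP g.symm f) = f := by
  ext d
  rw [PP_apply, PP_apply]
  simp [pp]

theorem PP_single (g : Equiv.Perm V) (d : V × V) :
    PP g (lp.single 2 d (1 : ℝ)) = lp.single 2 (pp g d) (1 : ℝ) := by
  ext d'
  rw [PP_apply, lp.single_apply, lp.single_apply]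
  by_cases h : pp g.symm d' = d
  · have h' : d' = pp g d := by rw [← h]; simp [pp]
    rw [h', Pi.single_eq_same]
    have h'' : pp g.symm (pp g d) = d := by simp [pp]
    rw [h'', Pi.single_eq_same]
  · have h' : d' ≠ pp g d := by
      rintro rfl
      apply h
      simp [pp]
    rw [Pi.single_eq_of_ne h, Pi.single_eq_of_ne h']

theorem PP_eps (g : Equiv.Perm V) (a b : V) : PP g (eps a b) = eps (g a) (g b) := by
  unfold eps
  rw [map_smul, map_sub, PP_single, PP_single]
  rfl

theorem IsFlow.perm {G : SimpleGraph V} {θ : V × V → ℝ} (hθ : IsFlow G θ) (g : Equiv.Perm V) :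
    IsFlow (G.map g.toEmbedding) (fun d => θ (pp g.symm d)) := by
  refine ⟨?_, fun x y => hθ.2.1 _ _, fun x y hxy => hθ.2.2.1 _ _ fun hadj => hxy ?_, fun x => ?_⟩
  · refine (hθ.1.image (pp g)).subset fun d hd => ?_
    exact ⟨pp g.symm d, hd, by simp [pp]⟩
  · rw [SimpleGraph.map_adj]
    exact ⟨g.symm x, g.symm y, hadj, by simp, by simp⟩
  · have := finsum_comp_equiv g.symm (f := fun y => θ (g.symm x, y))
    exact this.trans (hθ.2.2.2 _)

theorem PP_mem_U (g : Equiv.Perm V) (G : SimpleGraph V) (h : Sym2 V → ℝ) {f : L2 V}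
    (hf : f ∈ U G h) : PP g f ∈ U (G.map g.toEmbedding) (actF g h) := by
  obtain ⟨θ, hθ, hf⟩ := hf
  refine ⟨_, hθ.perm g, fun d => ?_⟩
  rw [PP_apply, hf]
  rfl

theorem actF_symm_actF (g : Equiv.Perm V) {α : Type*} (h : Sym2 V → α) :
    actF g.symm (actF g h) = h := by
  ext e
  unfold actF
  rw [Sym2.map_map]
  simp

theorem map_symm_map (g : Equiv.Perm V) (G : SimpleGraph V) :
    (G.map g.toEmbedding).map g.symm.toEmbedding = G := by
  ext x y
  simp only [SimpleGraph.map_adj]
  constructor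
  · rintro ⟨u, v, ⟨u', v', huv, rfl, rfl⟩, rfl, rfl⟩
    simpa using huv
  · intro hxy
    exact ⟨g x, g y, ⟨x, y, hxy, rfl, rfl⟩, by simp, by simp⟩

theorem PP_mem_closure (g : Equiv.Perm V) (G : SimpleGraph V) (h : Sym2 V → ℝ) {f : L2 V}
    (hf : f ∈ (U G h).topologicalClosure) :
    PP g f ∈ (U (G.map g.toEmbedding) (actF g h)).topologicalClosure := by
  have hf' : f ∈ closure (U G h : Set (L2 V)) := hf
  exact map_mem_closure (PP g).continuous hf'
    (t := (U (G.map g.toEmbedding) (actF g h) : Set (L2 V))) (fun v hv => PP_mem_U g G h hv)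

theorem R_act (g : Equiv.Perm V) (G : SimpleGraph V) (h : Sym2 V → ℝ) (x : L2 V) :
    R (G.map g.toEmbedding) (actF g h) (PP g x) = PP g (R G h x) := by
  refine Submodule.eq_starProjection_of_mem_of_inner_eq_zero
    (PP_mem_closure g G h (R_mem G h x)) ?_
  intro w hw
  have h1 := PP_mem_closure g.symm (G.map g.toEmbedding) (actF g h) hw
  rw [actF_symm_actF, map_symm_map] at h1
  have h2 : w = PP g (PP g.symm w) := (PP_PP_symm g w).symm
  rw [h2, ← map_sub]
  change ⟪PP g (x - R G h x), _⟫ = 0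
  rw [LinearIsometry.inner_map_map]
  exact inner_sub_R G h x h1

theorem mm_act (g : Equiv.Perm V) (G : SimpleGraph V) (h : Sym2 V → ℝ) (a b : V) :
    mm (G.map g.toEmbedding) (actF g h) (g a) (g b) = mm G h a b := by
  unfold mm
  rw [← PP_eps, R_act, LinearIsometry.norm_map]

theorem qq_act (g : Equiv.Perm V) (G : SimpleGraph V) (h : Sym2 V → ℝ) (a b : V) (d : V × V) :
    qq (G.map g.toEmbedding) (actF g h) (g a) (g b) (g d.1, g d.2) = qq G h a b d := by
  unfold qq
  rw [← PP_eps, R_act, ← map_sub]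
  have : ∀ f : L2 V, PP g f (g d.1, g d.2) = f d := by
    intro f
    rw [PP_apply]
    simp [pp]
  rw [this, this]

end

end Vale.Agent.Fusf
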