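import Mathlib
import Vale.Agent.Lib.P143.Defs
import Vale.Agent.Lib.P143.Proj1
import Vale.Agent.Lib.P143.Proj2
import Vale.Agent.Lib.P143.Proj3

/-!
# Module PROJ, part 4: measurability
-/

open MeasureTheory Filter Topology
open scoped ENNReal unitInterval Classical RealInnerProductSpace

namespace Vale.Agent.Fusf

noncomputable section

variable {V : Type*}

/-- continuity in the field for a finite graph -/
theorem continuous_R_finite (F : Finset (Sym2 V)) (x : L2 V) :
    Continuous (fun h : Sym2 V → ℝ => R (SimpleGraph.fromEdgeSet (F : Set (Sym2 V))) h x) := by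
  rw [continuous_iff_continuousAt]
  intro h0
  set G := SimpleGraph.fromEdgeSet (F : Set (Sym2 V)) with hG
  let ρ : (Sym2 V → ℝ) → ℝ := fun h => ∑ e ∈ F, |h e - h0 e|
  have hρ : Continuous ρ := by
    refine continuous_finsetSum _ fun e _ => ?_
    fun_prop
  have hρ0 : ρ h0 = 0 := by simp [ρ]
  have hρnn : ∀ h, 0 ≤ ρ h := fun h => Finset.sum_nonneg fun _ _ => abs_nonneg _
  have key : ∀ h, ‖R G h x - R G h0 x‖ ≤ (Real.exp (ρ h) - 1) * ‖x‖ := by
    intro h
    have hsub : G.edgeSet ⊆ (F : Set (Sym2 V)) := by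
      rw [hG, SimpleGraph.edgeSet_fromEdgeSet]
      exact Set.sdiff_subset
    have e1 : R G h = R G (fun e => if e ∈ F then h e else 0) :=
      R_congr G fun e he => (if_pos (Finset.mem_coe.1 (hsub he))).symm
    have e2 : R G h0 = R G (fun e => if e ∈ F then h0 e else 0) :=
      R_congr G fun e he => (if_pos (Finset.mem_coe.1 (hsub he))).symm
    rw [e1, e2]
    refine norm_R_sub_le_of_abs_le G (hρnn h) (fun e => ?_) x
    by_cases he : e ∈ F
    · rw [if_pos he, if_pos he]
      exact Finset.single_le_sum (f := fun e => |h e - h0 e|) (fun _ _ => abs_nonneg _) he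
    · rw [if_neg he, if_neg he]
      simpa using hρnn h
  rw [ContinuousAt, tendsto_iff_norm_sub_tendsto_zero]
  refine tendsto_of_tendsto_of_tendsto_of_le_of_le tendsto_const_nhds ?_
    (fun h => norm_nonneg _) key
  have h1 : Tendsto (fun h => (Real.exp (ρ h) - 1) * ‖x‖) (𝓝 h0)
      (𝓝 ((Real.exp (ρ h0) - 1) * ‖x‖)) :=
    (((Real.continuous_exp.comp hρ).sub continuous_const).mul continuous_const).tendsto h0
  simpa [hρ0] using h1

/-- the trace of `G` on a finite set of pairs -/
def tr (E : Finset (Sym2 V)) (G : SimpleGraph V) : Finset (Sym2 V) := E.filter (· ∈ G.edgeSet)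

theorem tr_adj {E : Finset (Sym2 V)} {G : SimpleGraph V} {a b : V} :
    (SimpleGraph.fromEdgeSet (tr E G : Set (Sym2 V))).Adj a b ↔ s(a, b) ∈ E ∧ G.Adj a b := by
  rw [SimpleGraph.fromEdgeSet_adj]
  simp only [tr, Finset.coe_filter, Set.mem_ofPred_eq, SimpleGraph.mem_edgeSet]
  exact ⟨fun h => h.1, fun h => ⟨h, h.2.ne⟩⟩

theorem measurable_tr (E F : Finset (Sym2 V)) :
    MeasurableSet {G : SimpleGraph V | tr E G = F} := by
  have h1 : {G : SimpleGraph V | tr E G = F}
      = {G | F ⊆ E} ∩ ⋂ e ∈ E, {G : SimpleGraph V | e ∈ G.edgeSet ↔ e ∈ F} := by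
    ext G
    simp only [Set.mem_ofPred_eq, Set.mem_inter_iff, Set.mem_iInter, tr]
    constructor
    · rintro rfl
      refine ⟨Finset.filter_subset _ _, fun e he => ?_⟩
      simp [he]
    · rintro ⟨hF, h⟩
      ext e
      rw [Finset.mem_filter]
      constructor
      · rintro ⟨he, he'⟩
        exact (h e he).1 he'
      · intro he
        exact ⟨hF he, (h e (hF he)).2 he⟩
  rw [h1]
  refine MeasurableSet.inter (MeasurableSet.const _) ?_
  refine Finset.measurableSet_biInter _ fun e _ => ?_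
  have h2 : MeasurableSet {G : SimpleGraph V | e ∈ G.edgeSet} :=
    measurableSet_setOfPred.2 (measurable_set_iff.1 SimpleGraph.measurable_edgeSet e)
  by_cases he : e ∈ F
  · simpa [he] using h2
  · simp only [he, iff_false]
    exact h2.compl

theorem exists_exhaustion [Countable V] : ∃ E : ℕ → Finset (Sym2 V), Monotone E ∧
    ∀ e, ∃ n, e ∈ E n := by
  rcases isEmpty_or_nonempty (Sym2 V) with hV | hV
  · exact ⟨fun _ => ∅, fun _ _ _ => le_rfl, fun e => hV.elim e⟩
  · obtain ⟨f, hf⟩ := exists_surjective_nat (Sym2 V)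
    refine ⟨fun n => (Finset.range n).image f, fun m n hmn => ?_, fun e => ?_⟩
    · exact Finset.image_subset_image (Finset.range_mono hmn)
    · obtain ⟨k, rfl⟩ := hf e
      exact ⟨k + 1, Finset.mem_image_of_mem f (Finset.mem_range.2 (Nat.lt_succ_self k))⟩

/-- coordinates of the projection, as real numbers -/
def Rc (G : SimpleGraph V) (h : Sym2 V → ℝ) (x : L2 V) (d : V × V) : ℝ :=
  ⟪(lp.single 2 d (1 : ℝ) : L2 V), R G h x⟫

theorem Rc_eq (G : SimpleGraph V) (h : Sym2 V → ℝ) (x : L2 V) (d : V × V) :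
    Rc G h x d = R G h x d := inner_single _ _

theorem measurable_Rc_finite [Countable V] (F : Finset (Sym2 V)) (x : L2 V) (d : V × V) :
    Measurable (fun h : Sym2 V → ℝ => Rc (SimpleGraph.fromEdgeSet (F : Set (Sym2 V))) h x d) := by
  unfold Rc
  exact (continuous_const.inner (continuous_R_finite F x)).measurable

theorem measurable_comp_countable {α β T : Type*} [MeasurableSpace α] [MeasurableSpace β]
    [Countable T] (q : α → T) (hq : ∀ F, MeasurableSet {a | q a = F}) (f : T → β → ℝ)
    (hf : ∀ F, Measurable (f F)) : Measurable (fun p : α × β => f (q p.1) p.2) := by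
  let _ : MeasurableSpace T := ⊤
  have h2 : Measurable (fun q : T × β => f q.1 q.2) :=
    measurable_from_prod_countable_right fun F => hf F
  have h3 : Measurable q := measurable_to_countable' fun F => hq F
  exact h2.comp ((h3.comp measurable_fst).prodMk measurable_snd)

theorem measurable_Rc_tr [Countable V] (E : Finset (Sym2 V)) (x : L2 V) (d : V × V) :
    Measurable (fun p : SimpleGraph V × (Sym2 V → ℝ) =>
      Rc (SimpleGraph.fromEdgeSet (tr E p.1 : Set (Sym2 V))) p.2 x d) :=
  measurable_comp_countable (tr E) (fun F => measurable_tr E F)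
    (fun F h => Rc (SimpleGraph.fromEdgeSet (F : Set (Sym2 V))) h x d)
    (fun F => measurable_Rc_finite F x d)

theorem measurable_Rc [Countable V] (x : L2 V) (d : V × V) :
    Measurable (fun p : SimpleGraph V × (Sym2 V → ℝ) => Rc p.1 p.2 x d) := by
  obtain ⟨E, hE, hEex⟩ := exists_exhaustion (V := V)
  refine measurable_of_tendsto_metrizable (fun n => measurable_Rc_tr (E n) x d) ?_
  rw [tendsto_pi_nhds]
  rintro ⟨G, h⟩
  have h5 : Tendsto (fun n => R (SimpleGraph.fromEdgeSet (tr (E n) G : Set (Sym2 V))) h x) atTop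
      (𝓝 (R G h x)) := by
    refine tendsto_R_graph ?_ ?_ ?_ h x
    · intro m n hmn a b hab
      rw [tr_adj] at hab ⊢
      exact ⟨hE hmn hab.1, hab.2⟩
    · intro n a b hab
      rw [tr_adj] at hab
      exact hab.2
    · intro a b hab
      obtain ⟨n, hn⟩ := hEex s(a, b)
      exact ⟨n, tr_adj.2 ⟨hn, hab⟩⟩
  exact (tendsto_const_nhds (x := (lp.single 2 d (1 : ℝ) : L2 V))).inner h5

theorem measurable_mm [Countable V] (a b : V) :
    Measurable (fun p : SimpleGraph V × (Sym2 V → ℝ) => mm p.1 p.2 a b) := by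
  have h1 : (fun p : SimpleGraph V × (Sym2 V → ℝ) => mm p.1 p.2 a b) = fun p =>
      1 - (√2)⁻¹ * (Rc p.1 p.2 (eps a b) (a, b) - Rc p.1 p.2 (eps a b) (b, a)) := by
    ext p
    unfold mm
    rw [norm_R_sq, inner_eps, Rc_eq, Rc_eq]
  rw [h1]
  exact measurable_const.sub (((measurable_Rc _ _).sub (measurable_Rc _ _)).const_mul _)

theorem measurable_qq [Countable V] (a b : V) (d : V × V) :
    Measurable (fun p : SimpleGraph V × (Sym2 V → ℝ) => qq p.1 p.2 a b d) := by
  have h1 : (fun p : SimpleGraph V × (Sym2 V → ℝ) => qq p.1 p.2 a b d) = fun p =>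
      (Rc p.1 p.2 (eps a b) d) ^ 2
        + (⟪(lp.single 2 d (1 : ℝ) : L2 V), eps a b⟫ - Rc p.1 p.2 (eps a b) d) ^ 2 := by
    ext p
    unfold qq
    rw [lp.coeFn_sub, Pi.sub_apply, Rc_eq, inner_single]
  rw [h1]
  exact ((measurable_Rc _ _).pow_const 2).add
    ((measurable_const.sub (measurable_Rc _ _)).pow_const 2)

end

end Vale.Agent.Fusf
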