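import Vale.Agent.Lib.P143.Pointwise

/-!
# Measurability and equivariance of the error functionals
-/

open MeasureTheory Filter Topology
open scoped ENNReal unitInterval Classical

namespace Vale.Agent.Fusf

noncomputable section

variable {V : Type*}

/-- The space of all the randomness on a fixed graph. -/
abbrev Om (V : Type*) := Set (Sym2 V) × Lab V × Lab V

theorem measurable_fldTrue [Countable V] (k : ℕ) :
    Measurable (fun p : SimpleGraph V × Om V × ℝ =>
      fld p.1 p.2.1.2.1 (yTrue p.1 p.2.1.1 p.2.1.2.1 p.2.1.2.2) k p.2.2) := by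
  rw [measurable_pi_iff]
  intro e
  have h := measurable_fld (V := V) k e
  have hy : Measurable (fun p : SimpleGraph V × Om V × ℝ =>
      yTrue p.1 p.2.1.1 p.2.1.2.1 p.2.1.2.2) := by
    rw [measurable_pi_iff]
    intro i
    have h4 : Measurable (fun p : SimpleGraph V × Om V × ℝ => ((p.1, p.2.1) : _ × Om V)) :=
      Measurable.prodMk measurable_fst (measurable_fst.comp measurable_snd)
    have h5 := (measurable_yTrue (V := V) i).comp h4
    exact h5
  have h2 : Measurable (fun p : SimpleGraph V × Om V × ℝ =>
      (((p.1, p.2.1.2.1), (yTrue p.1 p.2.1.1 p.2.1.2.1 p.2.1.2.2, p.2.2)) :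
        (SimpleGraph V × Lab V) × (Sym2 V × ℕ → ℝ) × ℝ)) :=
    Measurable.prodMk (Measurable.prodMk measurable_fst (measurable_fst.comp
      (measurable_snd.comp (measurable_fst.comp measurable_snd))))
      (Measurable.prodMk hy (measurable_snd.comp measurable_snd))
  have h3 := h.comp h2
  exact h3

theorem measurable_fldPic [Countable V] (j k : ℕ) :
    Measurable (fun p : SimpleGraph V × Om V × ℝ =>
      fld p.1 p.2.1.2.1 (yPic p.1 p.2.1.2.1 (innov p.1 p.2.1.1 p.2.1.2.1 p.2.1.2.2) j) k
        p.2.2) := by
  rw [measurable_pi_iff]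
  intro e
  have h := measurable_fld (V := V) k e
  have hin : Measurable (fun p : SimpleGraph V × Om V × ℝ =>
      innov p.1 p.2.1.1 p.2.1.2.1 p.2.1.2.2) := by
    have h4 : Measurable (fun p : SimpleGraph V × Om V × ℝ => ((p.1, p.2.1) : _ × Om V)) :=
      Measurable.prodMk measurable_fst (measurable_fst.comp measurable_snd)
    have h5 := (measurable_innov (V := V)).comp h4
    exact h5
  have hy : Measurable (fun p : SimpleGraph V × Om V × ℝ =>
      yPic p.1 p.2.1.2.1 (innov p.1 p.2.1.1 p.2.1.2.1 p.2.1.2.2) j) := by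
    rw [measurable_pi_iff]
    intro i
    have h4 : Measurable (fun p : SimpleGraph V × Om V × ℝ =>
        ((p.1, p.2.1.2.1, innov p.1 p.2.1.1 p.2.1.2.1 p.2.1.2.2) : _ × Lab V × Lab V)) :=
      Measurable.prodMk measurable_fst (Measurable.prodMk (measurable_fst.comp
        (measurable_snd.comp (measurable_fst.comp measurable_snd))) hin)
    have h5 := (measurable_yPic (V := V) j i).comp h4
    exact h5
  have h2 : Measurable (fun p : SimpleGraph V × Om V × ℝ =>
      (((p.1, p.2.1.2.1), (yPic p.1 p.2.1.2.1 (innov p.1 p.2.1.1 p.2.1.2.1 p.2.1.2.2) j,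
        p.2.2)) : (SimpleGraph V × Lab V) × (Sym2 V × ℕ → ℝ) × ℝ)) :=
    Measurable.prodMk (Measurable.prodMk measurable_fst (measurable_fst.comp
      (measurable_snd.comp (measurable_fst.comp measurable_snd))))
      (Measurable.prodMk hy (measurable_snd.comp measurable_snd))
  have h3 := h.comp h2
  exact h3

theorem measurable_del [Countable V] (j k : ℕ) (e : Sym2 V) :
    Measurable (fun p : SimpleGraph V × Om V × ℝ => del p.1 p.2.1 j k p.2.2 e) := by
  unfold del
  exact ((measurable_pi_apply e).comp (measurable_fldPic j k)).sub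
    ((measurable_pi_apply e).comp (measurable_fldTrue k))

/-- One term of `Psi`. -/
def psiTerm (G : SimpleGraph V) (q : Om V) (j k : ℕ) (r : ℝ) (a b : V) (d : V × V) : ℝ≥0∞ :=
  ENNReal.ofReal (qq G (fld G q.2.1 (yTrue G q.1 q.2.1 q.2.2) k r) a b d *
    (del G q j k r s(d.1, d.2)) ^ 2)

theorem Psi_eq (G : SimpleGraph V) (q : Om V) (j k : ℕ) (r : ℝ) (a b : V) :
    Psi G q j k r a b = ∑' d : V × V, psiTerm G q j k r a b d := rfl

theorem measurable_psiTerm [Countable V] (j k : ℕ) (a b : V) (d : V × V) :
    Measurable (fun p : SimpleGraph V × Om V × ℝ => psiTerm p.1 p.2.1 j k p.2.2 a b d) := by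
  unfold psiTerm
  have h1 : Measurable (fun p : SimpleGraph V × Om V × ℝ =>
      qq p.1 (fld p.1 p.2.1.2.1 (yTrue p.1 p.2.1.1 p.2.1.2.1 p.2.1.2.2) k p.2.2) a b d) := by
    have h2 := (measurable_qq a b d).comp
      (Measurable.prodMk (measurable_fst (α := SimpleGraph V) (β := Om V × ℝ))
        (measurable_fldTrue (V := V) k))
    exact h2
  exact ENNReal.measurable_ofReal.comp (h1.mul ((measurable_del j k s(d.1, d.2)).pow_const 2))

theorem measurable_Psi [Countable V] (j k : ℕ) (a b : V) :
    Measurable (fun p : SimpleGraph V × Om V × ℝ => Psi p.1 p.2.1 j k p.2.2 a b) := by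
  simp only [Psi_eq]
  exact Measurable.tsum fun d => measurable_psiTerm j k a b d

/-- Joint action on the randomness. -/
def actO (g : Equiv.Perm V) (q : Om V) : Om V := (actS g q.1, actL g q.2.1, actL g q.2.2)

theorem fldTrue_act (g : Equiv.Perm V) (G : SimpleGraph V) (q : Om V) (k : ℕ) (r : ℝ) :
    fld (G.map g.toEmbedding) (actO g q).2.1
      (yTrue (G.map g.toEmbedding) (actO g q).1 (actO g q).2.1 (actO g q).2.2) k r =
      actF g (fld G q.2.1 (yTrue G q.1 q.2.1 q.2.2) k r) := by
  simp only [actO]
  rw [yTrue_act, fld_act]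

theorem del_act (g : Equiv.Perm V) (G : SimpleGraph V) (q : Om V) (j k : ℕ) (r : ℝ)
    (e : Sym2 V) :
    del (G.map g.toEmbedding) (actO g q) j k r (Sym2.map g e) = del G q j k r e := by
  have he : Sym2.map g.symm (Sym2.map g e) = e := by
    rw [Sym2.map_map]
    have : (g.symm ∘ g : V → V) = id := by
      funext v
      simp
    rw [this, Sym2.map_id]
    rfl
  unfold del
  rw [fldTrue_act]
  simp only [actO]
  rw [innov_act, yPic_act, fld_act]
  simp only [actF, he]

theorem psiTerm_act (g : Equiv.Perm V) (G : SimpleGraph V) (q : Om V) (j k : ℕ) (r : ℝ)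
    (a b : V) (d : V × V) :
    psiTerm (G.map g.toEmbedding) (actO g q) j k r (g a) (g b) (g d.1, g d.2) =
      psiTerm G q j k r a b d := by
  unfold psiTerm
  rw [fldTrue_act, qq_act]
  have : del (G.map g.toEmbedding) (actO g q) j k r s(g d.1, g d.2) =
      del G q j k r s(d.1, d.2) := by
    rw [← del_act g G q j k r s(d.1, d.2)]
    rfl
  rw [this]

theorem measurable_actO (g : Equiv.Perm V) : Measurable (actO g : Om V → Om V) := by
  unfold actO
  exact ((measurable_actS g).comp measurable_fst).prodMk
    (((measurable_actL g).comp (measurable_fst.comp measurable_snd)).prodMk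
      ((measurable_actL g).comp (measurable_snd.comp measurable_snd)))

/-- The measure on the randomness. -/
def omMeas (μ : Measure (Set (Sym2 V))) : Measure (Om V) := μ.prod ((lam V).prod (lam V))

instance (μ : Measure (Set (Sym2 V))) [IsProbabilityMeasure μ] :
    IsProbabilityMeasure (omMeas μ) := by
  unfold omMeas; infer_instance

theorem omMeas_act (g : Equiv.Perm V) (μ : Measure (Set (Sym2 V))) [IsProbabilityMeasure μ] :
    omMeas (μ.map (actS g)) = (omMeas μ).map (actO g) := by
  unfold omMeas
  have h1 : (actO g : Om V → Om V) = Prod.map (actS g) (Prod.map (actL g) (actL g)) := rfl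
  rw [h1, ← Measure.map_prod_map _ _ (measurable_actS g)
    ((measurable_actL g).prodMap (measurable_actL g)), ← Measure.map_prod_map _ _
    (measurable_actL g) (measurable_actL g), map_actL_lam]

end

end Vale.Agent.Fusf
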