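import Vale.Agent.Lib.P143.Defs

/-!
Interface statements of the modules (this file is never imported by a result).
-/

open MeasureTheory Filter Topology
open scoped ENNReal unitInterval Classical

namespace Vale.Agent.Fusf.Skeleton

open Vale.Agent.Fusf

noncomputable section

variable {V : Type*}

/-! ### Module PROJ (Proj.lean) -/

theorem mm_nonneg (G : SimpleGraph V) (h : Sym2 V → ℝ) (a b : V) : 0 ≤ mm G h a b := by sorry

theorem mm_le_one (G : SimpleGraph V) (h : Sym2 V → ℝ) (a b : V) : mm G h a b ≤ 1 := by sorry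

theorem sq_mm_sub_le (G : SimpleGraph V) {h h' : Sym2 V → ℝ} {B : ℝ} (hB : ∀ e, |h e| ≤ B)
    (hB' : ∀ e, |h' e| ≤ B) (a b : V) :
    ENNReal.ofReal ((mm G h' a b - mm G h a b) ^ 2) ≤
      ENNReal.ofReal (Real.exp (2 * B)) *
        ∑' d : V × V, ENNReal.ofReal (qq G h a b d * (h' s(d.1, d.2) - h s(d.1, d.2)) ^ 2) := by
  sorry

theorem tsum_qq_le (G : SimpleGraph V) (h : Sym2 V → ℝ) (a b : V) :
    ∑' d : V × V, ENNReal.ofReal (qq G h a b d) ≤ 1 := by sorry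

theorem tsum_qq_le' (G : SimpleGraph V) (h : Sym2 V → ℝ) (d : V × V) :
    ∑' p : V × V, ENNReal.ofReal (qq G h p.1 p.2 d) ≤ 4 := by sorry

theorem tendsto_mm (G : SimpleGraph V) {ι : Type*} {l : Filter ι} {hs : ι → Sym2 V → ℝ}
    {h : Sym2 V → ℝ} {B : ℝ} (hB : ∀ᶠ i in l, ∀ e, |hs i e| ≤ B) (hB' : ∀ e, |h e| ≤ B)
    (hlim : ∀ e, Tendsto (fun i => hs i e) l (𝓝 (h e))) (a b : V) :
    Tendsto (fun i => mm G (hs i) a b) l (𝓝 (mm G h a b)) := by sorry

theorem tendsto_mm_graph {G : SimpleGraph V} {Gs : ℕ → SimpleGraph V} (hmono : Monotone Gs)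
    (hle : ∀ n, Gs n ≤ G) (hex : ∀ a b, G.Adj a b → ∃ n, (Gs n).Adj a b) (h : Sym2 V → ℝ)
    (a b : V) : Tendsto (fun n => mm (Gs n) h a b) atTop (𝓝 (mm G h a b)) := by sorry

theorem measurable_mm [Countable V] (a b : V) :
    Measurable (fun p : SimpleGraph V × (Sym2 V → ℝ) => mm p.1 p.2 a b) := by sorry

theorem measurable_qq [Countable V] (a b : V) (d : V × V) :
    Measurable (fun p : SimpleGraph V × (Sym2 V → ℝ) => qq p.1 p.2 a b d) := by sorry

theorem mm_act (g : Equiv.Perm V) (G : SimpleGraph V) (h : Sym2 V → ℝ) (a b : V) :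
    mm (G.map g.toEmbedding) (actF g h) (g a) (g b) = mm G h a b := by sorry

theorem qq_act (g : Equiv.Perm V) (G : SimpleGraph V) (h : Sym2 V → ℝ) (a b : V) (d : V × V) :
    qq (G.map g.toEmbedding) (actF g h) (g a) (g b) (g d.1, g d.2) = qq G h a b d := by sorry

theorem mm_congr (G : SimpleGraph V) {h h' : Sym2 V → ℝ} (hh : ∀ e ∈ G.edgeSet, h e = h' e)
    (a b : V) : mm G h a b = mm G h' a b := by sorry

/-! ### Module KIRCH (Kirchhoff.lean) -/

theorem trees_nonempty (E : Finset (Sym2 V)) : (trees E).Nonempty := by sorry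

theorem kirchhoff {E : Finset (Sym2 V)} (hE : ∀ e ∈ E, ¬ e.IsDiag) (h : Sym2 V → ℝ) {a b : V}
    (hab : s(a, b) ∈ E) :
    ∑ A ∈ (trees E).filter (fun A => s(a, b) ∈ A), wgt h A =
      mm (SimpleGraph.fromEdgeSet (E : Set (Sym2 V))) h a b * ∑ A ∈ trees E, wgt h A := by sorry

/-! ### Module LAW (Law.lean), uses PROJ and KIRCH -/

theorem exists_forestLaw [Countable V] :
    ∃ κ : SimpleGraph V → Measure (Set (Sym2 V)), Measurable κ ∧ (∀ G, IsForestLaw G (κ G)) ∧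
      ∀ (g : Equiv.Perm V) (G : SimpleGraph V),
        κ (G.map g.toEmbedding) = (κ G).map (actS g) := by sorry

/-! ### Module ALG (Alg.lean): the functions `FF`, `QQ`, `gg` -/

theorem QQ_mem {a u m : ℝ} (ha : 0 ≤ a) (ha' : a ≤ 1 / 2) (hu : u ∈ Set.Icc (0 : ℝ) 1)
    (hm : m ∈ Set.Icc (-1 : ℝ) 1) : QQ a u m ∈ Set.Icc (-1 : ℝ) 1 := by sorry

theorem FF_QQ {a u m : ℝ} (ha : 0 ≤ a) (ha' : a ≤ 1 / 2) (hu : u ∈ Set.Icc (0 : ℝ) 1)
    (hm : m ∈ Set.Icc (-1 : ℝ) 1) : FF a (QQ a u m) m = u := by sorry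

theorem FF_mem {a y m : ℝ} (ha : 0 ≤ a) (ha' : a ≤ 1 / 2) (hy : y ∈ Set.Icc (-1 : ℝ) 1)
    (hm : m ∈ Set.Icc (-1 : ℝ) 1) : FF a y m ∈ Set.Icc (0 : ℝ) 1 := by sorry

theorem QQ_FF {a y m : ℝ} (ha : 0 ≤ a) (ha' : a ≤ 1 / 2) (hy : y ∈ Set.Icc (-1 : ℝ) 1)
    (hm : m ∈ Set.Icc (-1 : ℝ) 1) : QQ a (FF a y m) m = y := by sorry

/-- Lipschitz dependence on the mean. -/
theorem abs_QQ_sub_le {a u m m' : ℝ} (ha : 0 ≤ a) (ha' : a ≤ 1 / 2)
    (hu : u ∈ Set.Icc (0 : ℝ) 1) (hm : m ∈ Set.Icc (-1 : ℝ) 1) (hm' : m' ∈ Set.Icc (-1 : ℝ) 1) :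
    |QQ a u m - QQ a u m'| ≤ |m - m'| := by sorry

theorem abs_gg_le {a y : ℝ} (ha : 0 ≤ a) (ha' : a ≤ 1 / 2) (hy : y ∈ Set.Icc (-1 : ℝ) 1) :
    |gg a y| ≤ 2 := by sorry

theorem gg_zero (y : ℝ) : gg 0 y = 0 := by sorry

theorem abs_gg_sub_le {a y y' : ℝ} (ha : 0 ≤ a) (ha' : a ≤ 1 / 2)
    (hy : y ∈ Set.Icc (-1 : ℝ) 1) (hy' : y' ∈ Set.Icc (-1 : ℝ) 1) :
    |gg a y - gg a y'| ≤ 2 * |y - y'| := by sorry

/-- The law of `QQ a w m` for uniform `w` has density `(1 + a m y)/2`. -/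
theorem lintegral_QQ {a m : ℝ} (ha : 0 ≤ a) (ha' : a ≤ 1 / 2) (hm : m ∈ Set.Icc (-1 : ℝ) 1)
    (f : ℝ → ℝ≥0∞) (hf : Measurable f) :
    ∫⁻ w : I, f (QQ a w m) = ∫⁻ y in Set.Icc (-1 : ℝ) 1, f y * ENNReal.ofReal ((1 + a * m * y) / 2)
    := by sorry

/-- The law of `FF a y m` for `y` with density `(1 + a m y)/2` is uniform. -/
theorem lintegral_FF {a m : ℝ} (ha : 0 ≤ a) (ha' : a ≤ 1 / 2) (hm : m ∈ Set.Icc (-1 : ℝ) 1)
    (f : ℝ → ℝ≥0∞) (hf : Measurable f) :
    ∫⁻ y in Set.Icc (-1 : ℝ) 1, f (FF a y m) * ENNReal.ofReal ((1 + a * m * y) / 2) =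
      ∫⁻ w : I, f w := by sorry

/-! ### Module MEAS (Meas.lean), uses PROJ: measurability, equivariance -/

theorem measurable_str [Countable V] (e : Sym2 V) (k : ℕ) :
    Measurable (fun p : SimpleGraph V × Lab V => str p.1 p.2 e k) := by sorry

theorem measurable_fld [Countable V] (k : ℕ) (e : Sym2 V) :
    Measurable (fun p : (SimpleGraph V × Lab V) × (Sym2 V × ℕ → ℝ) × ℝ =>
      fld p.1.1 p.1.2 p.2.1 k p.2.2 e) := by sorry

theorem measurable_postM [Countable V] (i : Sym2 V × ℕ) :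
    Measurable (fun p : (SimpleGraph V × Lab V) × (Sym2 V × ℕ → ℝ) =>
      postM p.1.1 p.1.2 p.2 i) := by sorry

theorem measurable_yTrue [Countable V] (i : Sym2 V × ℕ) :
    Measurable (fun p : SimpleGraph V × Set (Sym2 V) × Lab V × Lab V =>
      yTrue p.1 p.2.1 p.2.2.1 p.2.2.2 i) := by sorry

theorem measurable_innov [Countable V] :
    Measurable (fun p : SimpleGraph V × Set (Sym2 V) × Lab V × Lab V =>
      innov p.1 p.2.1 p.2.2.1 p.2.2.2) := by sorry

theorem measurable_yPic [Countable V] (j : ℕ) (i : Sym2 V × ℕ) :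
    Measurable (fun p : SimpleGraph V × Lab V × Lab V => yPic p.1 p.2.1 p.2.2 j i) := by sorry

theorem str_act (g : Equiv.Perm V) (G : SimpleGraph V) (t : Lab V) (e : Sym2 V) (k : ℕ) :
    str (G.map g.toEmbedding) (actL g t) (Sym2.map g e) k = str G t e k := by sorry

theorem fld_act (g : Equiv.Perm V) (G : SimpleGraph V) (t : Lab V) (y : Sym2 V × ℕ → ℝ) (k : ℕ)
    (r : ℝ) : fld (G.map g.toEmbedding) (actL g t) (actL g y) k r = actF g (fld G t y k r) := by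
  sorry

theorem postM_act (g : Equiv.Perm V) (G : SimpleGraph V) (t : Lab V) (y : Sym2 V × ℕ → ℝ) :
    postM (G.map g.toEmbedding) (actL g t) (actL g y) = actL g (postM G t y) := by sorry

theorem yTrue_act (g : Equiv.Perm V) (G : SimpleGraph V) (x : Set (Sym2 V)) (t w : Lab V) :
    yTrue (G.map g.toEmbedding) (actS g x) (actL g t) (actL g w) = actL g (yTrue G x t w) := by
  sorry

theorem innov_act (g : Equiv.Perm V) (G : SimpleGraph V) (x : Set (Sym2 V)) (t w : Lab V) :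
    innov (G.map g.toEmbedding) (actS g x) (actL g t) (actL g w) = actL g (innov G x t w) := by
  sorry

theorem yPic_act (g : Equiv.Perm V) (G : SimpleGraph V) (t u : Lab V) (j : ℕ) :
    yPic (G.map g.toEmbedding) (actL g t) (actL g u) j = actL g (yPic G t u j) := by sorry

theorem measurable_actL (g : Equiv.Perm V) {α : Type*} [MeasurableSpace α] :
    Measurable (actL g : (Sym2 V × ℕ → α) → _) := by sorry

theorem measurable_actS (g : Equiv.Perm V) : Measurable (actS g : Set (Sym2 V) → _) := by sorry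

theorem map_actL_lam (g : Equiv.Perm V) : (lam V).map (actL g) = lam V := by sorry

/-- `yPic` on edges of `G` depends only on labels of edges of `G`. -/
theorem yPic_congr (G : SimpleGraph V) {t u t' u' : Lab V}
    (ht : ∀ e ∈ G.edgeSet, ∀ k, t (e, k) = t' (e, k))
    (hu : ∀ e ∈ G.edgeSet, ∀ k, u (e, k) = u' (e, k)) (j : ℕ) (e : Sym2 V) (he : e ∈ G.edgeSet)
    (k : ℕ) : yPic G t u j (e, k) = yPic G t' u' j (e, k) := by sorry

/-! ### Module INNOV (Innov.lean), uses PROJ, ALG, MEAS -/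

theorem innov_law [Countable V] {G : SimpleGraph V} {μ : Measure (Set (Sym2 V))}
    (hμ : IsForestLaw G μ) :
    (μ.prod ((lam V).prod (lam V))).map (fun p => (p.2.1, innov G p.1 p.2.1 p.2.2)) =
      (lam V).prod (lam V) := by sorry

/-! ### Module GRON (Gron.lean), uses PROJ, ALG, MEAS -/

theorem picard_converges [Countable V] [MeasurableSpace V] [MeasurableSingletonClass V]
    {κ : SimpleGraph V → Measure (Set (Sym2 V))} (hκm : Measurable κ)
    (hκ : ∀ G, IsForestLaw G (κ G))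
    (hκg : ∀ (g : Equiv.Perm V) (G : SimpleGraph V),
      κ (G.map g.toEmbedding) = (κ G).map (actS g))
    {P : Measure (SimpleGraph V × V)} [IsProbabilityMeasure P] (hP : MTP P)
    (hlf : ∀ᵐ p ∂P, ∀ v, (p.1.neighborSet v).Finite) :
    ∀ᵐ p ∂P, ∀ᵐ q ∂((κ p.1).prod ((lam V).prod (lam V))),
      ∀ i : Sym2 V × ℕ, i.1 ∈ p.1.edgeSet →
        Tendsto (fun j => yPic p.1 q.2.1 (innov p.1 q.1 q.2.1 q.2.2) j i) atTop
          (𝓝 (yTrue p.1 q.1 q.2.1 q.2.2 i)) := by sorry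

/-! ### Module RECON (Recon.lean), uses ALG, MEAS -/

theorem recon [Countable V] {G : SimpleGraph V} (μ : Measure (Set (Sym2 V)))
    [IsProbabilityMeasure μ] (hlf : ∀ v, (G.neighborSet v).Finite) :
    ∀ᵐ q ∂(μ.prod ((lam V).prod (lam V))), ∀ e ∈ G.edgeSet,
      (e ∈ q.1 ↔ 0 < limsup (avg G q.2.1 (yTrue G q.1 q.2.1 q.2.2) e) atTop) := by sorry

/-! ### Module LABELS (Labels.lean) -/

theorem exists_labels [Countable V] :
    ∃ L : SimpleGraph V × (V → I) → Lab V × Lab V, Measurable L ∧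
      (∀ (g : Equiv.Perm V) (G : SimpleGraph V) (W : V → I),
        L (G.map g.toEmbedding, W ∘ g.symm) = (actL g (L (G, W)).1, actL g (L (G, W)).2)) ∧
      ∀ G : SimpleGraph V, (∀ v, (G.neighborSet v).Finite) →
        ∀ F : Lab V × Lab V → Set (Sym2 V), Measurable F →
          (∀ t u t' u', (∀ e ∈ G.edgeSet, ∀ k, t (e, k) = t' (e, k)) →
            (∀ e ∈ G.edgeSet, ∀ k, u (e, k) = u' (e, k)) → F (t, u) = F (t', u')) →
          (Measure.infinitePi (fun _ : V => (volume : Measure I))).map (fun W => F (L (G, W))) =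
            ((lam V).prod (lam V)).map F := by sorry

end

end Vale.Agent.Fusf.Skeleton
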